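import Vale.Agent.Lib.P200.Fam.Grow

namespace Vale.Agent.Lib.P200.Fam

open MvPolynomial Module

variable {K L : Type*} [Field K] [Field L] [Algebra K L]

/-- The extension of scalars on polynomials. -/
noncomputable abbrev phi (K L : Type*) [Field K] [Field L] [Algebra K L] :
    MvPolynomial (Fin 3) K →+* MvPolynomial (Fin 3) L :=
  MvPolynomial.map (algebraMap K L)

/-- A functional on `L` applied to all the coefficients of a polynomial. -/
noncomputable def Lam (lam : L →ₗ[K] K) : MvPolynomial (Fin 3) L →ₗ[K] MvPolynomial (Fin 3) K where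
  toFun u := ∑ m ∈ u.support, monomial m (lam (coeff m u))
  map_add' u v := by
    classical
    ext m
    simp only [coeff_add, coeff_sum, coeff_monomial, Finset.sum_ite_eq', MvPolynomial.mem_support_iff]
    by_cases h1 : coeff m u = 0 <;> by_cases h2 : coeff m v = 0 <;> by_cases h3 : coeff m u + coeff m v = 0 <;>
      simp_all
    · rw [← map_add, h3, map_zero]
  map_smul' c u := by
    classical
    ext m
    simp only [coeff_smul, coeff_sum, coeff_monomial, Finset.sum_ite_eq', MvPolynomial.mem_support_iff,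
      RingHom.id_apply, smul_eq_mul, ne_eq]
    by_cases h1 : coeff m u = 0
    · simp [h1]
    · by_cases hc : c = 0
      · simp [hc]
      · have h2 : c • coeff m u ≠ 0 := smul_ne_zero hc h1
        simp [h1, h2]

lemma coeff_Lam (lam : L →ₗ[K] K) (u : MvPolynomial (Fin 3) L) (m : Fin 3 →₀ ℕ) :
    coeff m (Lam lam u) = lam (coeff m u) := by
  classical
  show coeff m (∑ n ∈ u.support, monomial n (lam (coeff n u))) = _
  simp only [coeff_sum, coeff_monomial, Finset.sum_ite_eq', MvPolynomial.mem_support_iff]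
  by_cases h : coeff m u = 0
  · simp [h]
  · simp [h]

lemma lam_algebraMap_mul (lam : L →ₗ[K] K) (c : K) (y : L) :
    lam (algebraMap K L c * y) = c * lam y := by
  rw [← Algebra.smul_def, map_smul, smul_eq_mul]

lemma Lam_phi_mul (lam : L →ₗ[K] K) (g : MvPolynomial (Fin 3) K) (u : MvPolynomial (Fin 3) L) :
    Lam lam (phi K L g * u) = g * Lam lam u := by
  ext m
  rw [coeff_Lam, coeff_mul, coeff_mul, map_sum]
  refine Finset.sum_congr rfl fun x _ => ?_
  rw [coeff_map, lam_algebraMap_mul, coeff_Lam]

lemma Lam_C_mul (lam : L →ₗ[K] K) (c : L) (g : MvPolynomial (Fin 3) K) :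
    Lam lam (C c * phi K L g) = lam c • g := by
  ext m
  rw [coeff_Lam, coeff_C_mul, coeff_map, mul_comm, lam_algebraMap_mul, coeff_smul, smul_eq_mul,
    mul_comm]

/-- Expansion of a polynomial over `L` in a basis of `L` over `K`. -/
lemma expansion (u : MvPolynomial (Fin 3) L) :
    ∃ J : Finset (Basis.ofVectorSpaceIndex K L),
      u = ∑ j ∈ J, C (Basis.ofVectorSpace K L j) *
        phi K L (Lam ((Basis.ofVectorSpace K L).coord j) u) := by
  classical
  set B := Basis.ofVectorSpace K L with hB
  refine ⟨u.support.biUnion (fun m => (B.repr (coeff m u)).support), ?_⟩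
  ext m
  rw [coeff_sum]
  simp only [coeff_C_mul, coeff_map, coeff_Lam, Basis.coord_apply]
  have h1 : (B.repr (coeff m u)).support ⊆ u.support.biUnion (fun m => (B.repr (coeff m u)).support) := by
    intro j hj
    have hm : m ∈ u.support := by
      rw [MvPolynomial.mem_support_iff]
      intro h0
      rw [h0, map_zero] at hj
      simp at hj
    exact Finset.mem_biUnion.mpr ⟨m, hm, hj⟩
  have h2 := B.linearCombination_repr (coeff m u)
  rw [Finsupp.linearCombination_apply, Finsupp.sum_of_support_subset _ h1 _ (by simp)] at h2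
  conv_lhs => rw [← h2]
  refine Finset.sum_congr rfl fun j _ => ?_
  rw [Algebra.smul_def, mul_comm]

lemma mem_map_of_coords {I : Ideal (MvPolynomial (Fin 3) K)} {u : MvPolynomial (Fin 3) L}
    (h : ∀ lam : L →ₗ[K] K, Lam lam u ∈ I) : u ∈ I.map (phi K L) := by
  obtain ⟨J, hJ⟩ := expansion (K := K) u
  rw [hJ]
  refine Ideal.sum_mem _ fun j _ => ?_
  exact Ideal.mul_mem_left _ _ (Ideal.mem_map_of_mem _ (h _))

lemma ne_zero_of_lam {c : L} (h : ∀ lam : L →ₗ[K] K, lam c = 0) : c = 0 := by
  exact (Module.forall_dual_apply_eq_zero_iff K c).mp h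

/-- Regular sequences stay regular. -/
theorem regSeq_map {a b c : MvPolynomial (Fin 3) K} (h : RegSeq a b c) :
    RegSeq (phi K L a) (phi K L b) (phi K L c) := by
  have hinj : Function.Injective (phi K L) := MvPolynomial.map_injective _ (algebraMap K L).injective
  refine ⟨?_, ?_, ?_⟩
  · intro h0
    exact h.h0 (hinj (by rw [h0, map_zero]))
  · intro u hu
    have h1 : ∀ lam : L →ₗ[K] K, Lam lam u ∈ Ideal.span {a} := by
      intro lam
      refine h.h1 _ ?_
      obtain ⟨y, hy⟩ := Ideal.mem_span_singleton'.mp hu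
      rw [← Lam_phi_mul, ← hy, mul_comm, Lam_phi_mul]
      exact Ideal.mul_mem_right _ _ (Ideal.mem_span_singleton_self _)
    have h2 := mem_map_of_coords h1
    rwa [Ideal.map_span, Set.image_singleton] at h2
  · intro u hu
    have h1 : ∀ lam : L →ₗ[K] K, Lam lam u ∈ Ideal.span {a, b} := by
      intro lam
      refine h.h2 _ ?_
      obtain ⟨x, y, hy⟩ := Ideal.mem_span_pair.mp hu
      rw [← Lam_phi_mul, ← hy, map_add, mul_comm x, mul_comm y, Lam_phi_mul, Lam_phi_mul]
      exact Ideal.mem_span_pair.mpr ⟨Lam lam x, Lam lam y, by ring⟩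
    have h2 := mem_map_of_coords h1
    rwa [Ideal.map_span, Set.image_pair] at h2

/-- The extension of a subspace. -/
noncomputable def ex (V : Submodule K (MvPolynomial (Fin 3) K)) :
    Submodule L (MvPolynomial (Fin 3) L) :=
  Submodule.span L (phi K L '' V)

lemma ex_mono {V W : Submodule K (MvPolynomial (Fin 3) K)} (h : V ≤ W) :
    ex (L := L) V ≤ ex W :=
  Submodule.span_mono (Set.image_mono h)

lemma ex_le_Hd {V : Submodule K (MvPolynomial (Fin 3) K)} {d : ℕ} (h : V ≤ Hd K d) :
    ex (L := L) V ≤ Hd L d := by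
  rw [ex, Submodule.span_le]
  rintro _ ⟨v, hv, rfl⟩
  exact IsHomogeneous.map (h hv) _

/-- The extension preserves dimensions. -/
theorem finrank_ex {V : Submodule K (MvPolynomial (Fin 3) K)} {d : ℕ} (h : V ≤ Hd K d) :
    finrank L (ex (L := L) V) = finrank K V := by
  have := fin_of_le h
  set n := finrank K V with hn
  let b := Module.finBasisOfFinrankEq K V hn.symm
  let u : Fin n → MvPolynomial (Fin 3) K := fun i => (b i).1
  have hli : LinearIndependent K u := b.linearIndependent.map' V.subtype (Submodule.ker_subtype V)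
  have hspan : Submodule.span K (Set.range u) = V := by
    have h1 := b.span_eq
    have h2 := congrArg (Submodule.map V.subtype) h1
    rw [Submodule.map_span, Submodule.map_top, Submodule.range_subtype] at h2
    rw [← h2]
    congr 1
    ext x
    simp [u]
  have hli2 : LinearIndependent L (fun i => phi K L (u i)) := by
    rw [Fintype.linearIndependent_iff]
    intro c hc i
    refine ne_zero_of_lam (K := K) fun lam => ?_
    have h1 := congrArg (Lam lam) hc
    rw [map_sum, map_zero] at h1
    have h2 : ∑ i, lam (c i) • u i = 0 := by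
      rw [← h1]
      refine Finset.sum_congr rfl fun i _ => ?_
      rw [smul_eq_C_mul _ (c i), Lam_C_mul]
    exact (Fintype.linearIndependent_iff.mp hli) (fun i => lam (c i)) h2 i
  have hspan2 : ex (L := L) V = Submodule.span L (Set.range (fun i => phi K L (u i))) := by
    apply le_antisymm
    · rw [ex, Submodule.span_le]
      rintro _ ⟨v, hv, rfl⟩
      rw [← hspan] at hv
      have hv' : v ∈ Submodule.span K (Set.range u) := hv
      induction hv' using Submodule.span_induction with
      | mem y hy =>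
        obtain ⟨i, rfl⟩ := hy
        exact Submodule.subset_span ⟨i, rfl⟩
      | zero =>
        rw [SetLike.mem_coe, map_zero]
        exact Submodule.zero_mem _
      | add a b ha hb iha ihb =>
        rw [SetLike.mem_coe, map_add]
        exact Submodule.add_mem _ (iha (Submodule.span_mono (by rfl) ha)) (ihb (Submodule.span_mono (by rfl) hb))
      | smul r a ha iha =>
        rw [SetLike.mem_coe, smul_eq_C_mul, map_mul, map_C, ← smul_eq_C_mul]
        exact Submodule.smul_mem _ _ (iha (Submodule.span_mono (by rfl) ha))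
    · rw [Submodule.span_le]
      rintro _ ⟨i, rfl⟩
      refine Submodule.subset_span ⟨u i, ?_, rfl⟩
      rw [← hspan]
      exact Submodule.subset_span ⟨i, rfl⟩
  rw [hspan2, finrank_span_eq_card hli2, Fintype.card_fin]

section Descent

variable {a b c : MvPolynomial (Fin 3) K} {e1 e2 e3 : ℕ}

lemma ex_F (h : RegSeq a b c) (ha : a ∈ Hd K e1) (hb : b ∈ Hd K e2) (hc : c ∈ Hd K e3)
    (he1 : 1 ≤ e1) (he2 : 1 ≤ e2) (n : ℕ) :
    ex (L := L) (degPart (Ideal.span {a, b, c}) n)
      = degPart (Ideal.span {phi K L a, phi K L b, phi K L c}) n := by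
  have hL := regSeq_map (L := L) h
  have ha' : phi K L a ∈ Hd L e1 := IsHomogeneous.map ha _
  have hb' : phi K L b ∈ Hd L e2 := IsHomogeneous.map hb _
  have hc' : phi K L c ∈ Hd L e3 := IsHomogeneous.map hc _
  have hle : ex (L := L) (degPart (Ideal.span {a, b, c}) n)
      ≤ degPart (Ideal.span {phi K L a, phi K L b, phi K L c}) n := by
    rw [ex, Submodule.span_le]
    rintro _ ⟨v, hv, rfl⟩
    obtain ⟨h1, h2⟩ := mem_degPart.mp hv
    refine mem_degPart.mpr ⟨?_, IsHomogeneous.map h2 _⟩
    obtain ⟨x, y, z, rfl⟩ := mem_span3.mp h1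
    rw [map_add, map_add, map_mul, map_mul, map_mul]
    exact mem_span3.mpr ⟨_, _, _, rfl⟩
  have h1 := (finrank_all h ha hb hc he1 he2 n).2.2
  have h2 := (finrank_all hL ha' hb' hc' he1 he2 n).2.2
  have h3 : finrank L (ex (L := L) (degPart (Ideal.span {a, b, c}) n))
      = finrank K (degPart (Ideal.span {a, b, c}) n) := finrank_ex inf_le_right
  exact eq_of_le_finrank inf_le_right hle (by omega)

lemma mul_ex (V : Submodule K (MvPolynomial (Fin 3) K)) :
    Hd L 1 * ex (L := L) V ≤ ex (Hd K 1 * V) := by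
  have e : Hd L 1 = Submodule.span L (Set.range X) := homogeneousSubmodule_one_eq_span_X
  rw [e, ex, Submodule.span_mul_span, Submodule.span_le]
  rintro _ ⟨_, ⟨i, rfl⟩, _, ⟨v, hv, rfl⟩, rfl⟩
  refine Submodule.subset_span ⟨X i * v, ?_, ?_⟩
  · exact Submodule.mul_mem_mul (X_mem_Hd i) hv
  · simp

/-- Growth descends from an extension field. -/
theorem growth_descent {G : ℕ → ℕ → ℕ} (h : RegSeq a b c) (ha : a ∈ Hd K e1) (hb : b ∈ Hd K e2)
    (hc : c ∈ Hd K e3) (he1 : 1 ≤ e1) (he2 : 1 ≤ e2) {d : ℕ}
    (hL : GrowthG G (phi K L a) (phi K L b) (phi K L c) d) : GrowthG G a b c d := by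
  intro V hV hFV
  have hex := fun n => ex_F (L := L) h ha hb hc he1 he2 n
  have h1 := hL (ex V) (ex_le_Hd hV) (by
    rw [← hex]
    exact ex_mono hFV)
  have hfr : ∀ n, finrank L (ex (L := L) (degPart (Ideal.span {a, b, c}) n))
      = finrank K (degPart (Ideal.span {a, b, c}) n) := fun n => finrank_ex inf_le_right
  rw [← hex, ← hex, hfr, hfr, finrank_ex hV] at h1
  have hW : Hd K 1 * V ⊔ degPart (Ideal.span {a, b, c}) (d + 1) ≤ Hd K (d + 1) :=
    sup_le (mul_le_Hd hV) inf_le_right
  refine h1.trans ?_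
  rw [← finrank_ex (L := L) hW]
  refine finrank_mono_Hd ?_ (ex_le_Hd hW)
  exact sup_le ((mul_ex V).trans (ex_mono le_sup_left)) (ex_mono le_sup_right)

end Descent

end Vale.Agent.Lib.P200.Fam
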