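import Vale.Agent.Lib.P200.Fam.Slice

namespace Vale.Agent.Lib.P200.Fam

open MvPolynomial Module

variable {K : Type*} [Field K] [Infinite K] {f : MvPolynomial (Fin 3) K} {α β : K}

omit [Infinite K] in
/-- The growth in degree one. -/
lemma base_numbers {V : Submodule K (MvPolynomial (Fin 3) K)} (hf : f ∈ Hd K 3)
    (hV : V ≤ Hd K 1) : mac 1 (finrank K V) ≤ finrank K ↥(Up f V 1) ∧ finrank K V ≤ 3 := by
  have h1 := macaulay (d := 1) (by omega) hV
  have h2 : Hd K 1 * V ≤ Up f V 1 := le_sup_left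
  have h3 := finrank_mono_Hd h2 (Up_le hf hV)
  have h4 := finrank_mono_Hd hV (le_refl _)
  rw [finrank_Hd] at h4
  exact ⟨h1.trans h3, h4⟩

/-- The relations between the dimensions of `V`, `Up f V`, and their slices. -/
lemma slice_numbers (c : K) (hf : f ∈ Hd K 3) (hQ : eval ![1, α, β] f ≠ 0)
    {V : Submodule K (MvPolynomial (Fin 3) K)} {e : ℕ} (hV : V ≤ Hd K (e + 2))
    (hFV : Fm f (e + 2) ≤ V) :
    let l := lF α β c
    let ρ := (rhoC f α β c).toLinearMap
    let U := Up f V (e + 2)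
    finrank K V + e.choose 2
        = finrank K (V.map ρ) + (e + 1).choose 2 + finrank K (slice l (e + 1) V) ∧
    finrank K U + (e + 1).choose 2
        = finrank K (U.map ρ) + (e + 2).choose 2 + finrank K (slice l (e + 2) U) ∧
    finrank K (V.map ρ) ≤ finrank K (U.map ρ) ∧ finrank K (U.map ρ) ≤ 3 ∧
    finrank K V ≤ finrank K (slice l (e + 2) U) ∧
    finrank K (Up f (slice l (e + 1) V) (e + 1)) ≤ finrank K (slice l (e + 2) U) ∧
    e.choose 2 ≤ finrank K (slice l (e + 1) V) := by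
  intro l ρ U
  have hf0 : f ≠ 0 := f_ne_zero_of hQ
  obtain ⟨h1, h2, h3, h4, -⟩ := step_numbers c hf hQ hV hFV
  have hU : U ≤ Hd K (e + 3) := Up_le hf hV
  have hFU : Fm f (e + 3) ≤ U := Fm_le_Up V (e + 2)
  have h5 := slice_dim c hf hQ hV hFV
  have h6 := slice_dim c hf hQ hU hFU
  rw [finrank_Fm_succ hf0, finrank_Fm_succ hf0] at h5 h6
  have hS : slice l (e + 2) U ≤ Hd K (e + 2) := slice_le _ _ _
  have h7 := finrank_mono_Hd h3 hS
  have h8 := finrank_mono_Hd h4 hS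
  have hFS : Fm f (e + 1) ≤ slice l (e + 1) V := Fm_le_slice c hf hFV
  have h9 := finrank_mono_Hd hFS (slice_le _ _ _)
  rw [finrank_Fm_succ hf0] at h9
  have hV2 : V.map ρ ≤ U.map ρ := h1
  have hfin : FiniteDimensional K (AQ f α β c) := by
    refine Module.finite_of_finrank_pos ?_
    rw [finrank_AQ c hf hQ]
    omega
  exact ⟨h5, h6, Submodule.finrank_mono hV2, h2, h7, h8, h9⟩

/-- The growth bound for subspaces containing the multiples of a cubic (Macaulay's bound). -/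
theorem C1 (hf : f ∈ Hd K 3) (hQ : eval ![1, α, β] f ≠ 0) (e : ℕ) :
    ∀ V : Submodule K (MvPolynomial (Fin 3) K), V ≤ Hd K (e + 1) → Fm f (e + 1) ≤ V →
    ∀ q, finrank K V = q + e.choose 2 →
      (1 ≤ q → q + 1 + (e + 1).choose 2 ≤ finrank K (Up f V (e + 1))) ∧
      (e + 1 ≤ q → q + 2 + (e + 1).choose 2 ≤ finrank K (Up f V (e + 1))) ∧
      (2 * (e + 1) ≤ q → q + 3 + (e + 1).choose 2 ≤ finrank K (Up f V (e + 1))) := by
  induction e with
  | zero =>
    intro V hV _ q hq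
    obtain ⟨h1, h2⟩ := base_numbers hf hV
    rw [show Nat.choose 0 2 = 0 from rfl, add_zero] at hq
    rw [hq] at h1 h2
    rw [show Nat.choose (0 + 1) 2 = 0 from rfl]
    change (1 ≤ q → q + 1 + 0 ≤ finrank K (Up f V 1)) ∧ (1 ≤ q → q + 2 + 0 ≤ finrank K (Up f V 1)) ∧
      (2 ≤ q → q + 3 + 0 ≤ finrank K (Up f V 1))
    interval_cases q <;> simp only [mac] at h1 <;> omega
  | succ e ih =>
    intro V hV hFV q hq
    obtain ⟨h1, h2, h3, h4, h5, h6, h7⟩ := slice_numbers 0 hf hQ hV hFV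
    have hS := slice_le (lF α β 0) (e + 1) V
    have hFS : Fm f (e + 1) ≤ slice (lF α β 0) (e + 1) V := Fm_le_slice 0 hf hFV
    obtain ⟨i1, i2, i3⟩ := ih _ hS hFS (finrank K (slice (lF α β 0) (e + 1) V) - e.choose 2)
      (by omega)
    change (1 ≤ q → q + 1 + (e + 2).choose 2 ≤ finrank K (Up f V (e + 2))) ∧
      (e + 2 ≤ q → q + 2 + (e + 2).choose 2 ≤ finrank K (Up f V (e + 2))) ∧
      (2 * (e + 2) ≤ q → q + 3 + (e + 2).choose 2 ≤ finrank K (Up f V (e + 2)))
    refine ⟨fun hq1 => ?_, fun hq1 => ?_, fun hq1 => ?_⟩ <;> omega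

end Vale.Agent.Lib.P200.Fam
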