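import Vale.Agent.Lib.P200.Fam.Two

namespace Vale.Agent.Lib.P200.Fam

open MvPolynomial Module

variable {K : Type*} [Field K]

/-- The restriction to the line of the pencil through `(1, α, β)` with parameter `c`. -/
noncomputable def piC (α β c : K) : MvPolynomial (Fin 3) K →ₐ[K] Polynomial K :=
  aeval ![Polynomial.X, Polynomial.C α * Polynomial.X + Polynomial.C c,
    Polynomial.C β * Polynomial.X + 1]

/-- The linear form which restricts to `1`. -/
noncomputable def tF (β : K) : MvPolynomial (Fin 3) K := X 2 - C β * X 0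

/-- The linear form defining the line. -/
noncomputable def lF (α β c : K) : MvPolynomial (Fin 3) K := X 1 - C α * X 0 - C c * tF β

section Basic

variable (α β c : K)

@[simp] lemma piC_X0 : piC α β c (X 0) = Polynomial.X := by simp [piC]
@[simp] lemma piC_X1 : piC α β c (X 1) = Polynomial.C α * Polynomial.X + Polynomial.C c := by
  simp [piC]
@[simp] lemma piC_X2 : piC α β c (X 2) = Polynomial.C β * Polynomial.X + 1 := by simp [piC]
@[simp] lemma piC_C (r : K) : piC α β c (C r) = Polynomial.C r := by
  rw [← MvPolynomial.algebraMap_eq, AlgHom.commutes]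
  rfl

lemma piC_tF : piC α β c (tF β) = 1 := by
  simp [tF]

lemma piC_lF : piC α β c (lF α β c) = 0 := by
  simp [lF, tF]

lemma tF_mem : tF β ∈ Hd K 1 := by
  refine Submodule.sub_mem _ (X_mem_Hd 2) ?_
  exact (homogeneousSubmodule (Fin 3) K 1).smul_mem β (X_mem_Hd 0) |> fun h => by
    rwa [MvPolynomial.smul_eq_C_mul] at h

lemma lF_mem : lF α β c ∈ Hd K 1 := by
  refine Submodule.sub_mem _ (Submodule.sub_mem _ (X_mem_Hd 1) ?_) ?_
  · exact (homogeneousSubmodule (Fin 3) K 1).smul_mem α (X_mem_Hd 0) |> fun h => by
      rwa [MvPolynomial.smul_eq_C_mul] at h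
  · exact (homogeneousSubmodule (Fin 3) K 1).smul_mem c (tF_mem β) |> fun h => by
      rwa [MvPolynomial.smul_eq_C_mul] at h

lemma tF_ne_zero : tF β ≠ 0 := by
  intro h
  have := piC_tF (0 : K) β 0
  rw [h, map_zero] at this
  exact zero_ne_one this

/-- Evaluating forms at scaled points. -/
lemma eval_scale {n : ℕ} {h : MvPolynomial (Fin 3) K} (hh : h ∈ Hd K n) (r : K) (P : Fin 3 → K) :
    eval (fun i => r * P i) h = r ^ n * eval P h := by
  classical
  rw [eval_eq', eval_eq', Finset.mul_sum]
  refine Finset.sum_congr rfl fun d hd => ?_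
  have hdeg : ∑ i, d i = n := by
    have h1 : d.degree = n := by
      by_contra h'
      exact mem_support_iff.mp hd (IsHomogeneous.coeff_eq_zero hh h')
    rwa [Finsupp.degree_eq_sum] at h1
  simp only [mul_pow]
  rw [Finset.prod_mul_distrib, Finset.prod_pow_eq_pow_sum, hdeg]
  ring

/-- Evaluating the restriction. -/
lemma eval_piC (h : MvPolynomial (Fin 3) K) (x : K) :
    (piC α β c h).eval x = eval ![x, α * x + c, β * x + 1] h := by
  have h1 : (Polynomial.evalRingHom x).comp (piC α β c).toRingHom
      = (eval ![x, α * x + c, β * x + 1]) := by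
    refine MvPolynomial.ringHom_ext (fun r => ?_) (fun i => ?_)
    · simp
    · fin_cases i <;> simp
  have h2 := RingHom.congr_fun h1 h
  simpa using h2

/-- Restrictions of forms: degree and leading coefficient. -/
lemma piC_lin {m : MvPolynomial (Fin 3) K} (hm : m ∈ Hd K 1) :
    (piC α β c m).natDegree ≤ 1 ∧ (piC α β c m).coeff 1 = eval ![1, α, β] m := by
  rw [mem_Hd] at hm
  have hm' : m ∈ Submodule.span K (Set.range (X : Fin 3 → MvPolynomial (Fin 3) K)) := by
    rw [← homogeneousSubmodule_one_eq_span_X]
    exact hm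
  clear hm
  induction hm' using Submodule.span_induction with
  | mem y hy =>
    obtain ⟨i, rfl⟩ := hy
    fin_cases i
    · simp [Polynomial.natDegree_X_le]
    · simp only [Fin.mk_one, piC_X1]
      refine ⟨?_, by simp⟩
      exact Polynomial.natDegree_linear_le
    · simp only [Fin.reduceFinMk, piC_X2]
      refine ⟨?_, by simp [Polynomial.coeff_one]⟩
      exact Polynomial.natDegree_add_le_of_degree_le
        ((Polynomial.natDegree_C_mul_le _ _).trans Polynomial.natDegree_X_le) (by simp)
  | zero => simp
  | add a b _ _ iha ihb =>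
    rw [map_add, map_add]
    exact ⟨Polynomial.natDegree_add_le_of_degree_le iha.1 ihb.1, by
      rw [Polynomial.coeff_add, iha.2, ihb.2]⟩
  | smul r a _ iha =>
    rw [map_smul, MvPolynomial.smul_eval]
    refine ⟨(Polynomial.natDegree_smul_le _ _).trans iha.1, ?_⟩
    rw [Polynomial.coeff_smul, iha.2]
    rfl

lemma piC_deg (n : ℕ) {h : MvPolynomial (Fin 3) K} (hh : h ∈ Hd K n) :
    (piC α β c h).natDegree ≤ n ∧ (piC α β c h).coeff n = eval ![1, α, β] h := by
  induction n generalizing h with
  | zero =>
    have hg' : h = C (coeff 0 h) := by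
      by_cases h0 : h = 0
      · simp [h0]
      · have := totalDegree_of_Hd hh h0
        exact totalDegree_eq_zero_iff_eq_C.mp this
    rw [hg']
    simp
  | succ n ih =>
    have h2 : h ∈ Hd K 1 * Hd K n := by
      rw [Hd_one_mul n]
      exact hh
    clear hh
    induction h2 using Submodule.mul_induction_on' with
    | mem_mul_mem m hm g hg =>
      obtain ⟨h3, h4⟩ := piC_lin α β c hm
      obtain ⟨h5, h6⟩ := ih hg
      rw [map_mul, map_mul]
      refine ⟨?_, ?_⟩
      · refine Polynomial.natDegree_mul_le.trans ?_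
        omega
      · rw [add_comm n 1, Polynomial.coeff_mul_add_eq_of_natDegree_le h3 h5, h4, h6]
    | add a _ b _ iha ihb =>
      rw [map_add, map_add]
      exact ⟨Polynomial.natDegree_add_le_of_degree_le iha.1 ihb.1, by
        rw [Polynomial.coeff_add, iha.2, ihb.2]⟩

/-- Every polynomial of degree at most `n` is the restriction of a form of degree `n`. -/
lemma piC_lift (n : ℕ) {A : Polynomial K} (hA : A.natDegree ≤ n) :
    ∃ h ∈ Hd K n, piC α β c h = A := by
  classical
  refine ⟨∑ i ∈ Finset.range (n + 1), C (A.coeff i) * (X 0 ^ i * tF β ^ (n - i)), ?_, ?_⟩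
  · refine Submodule.sum_mem _ fun i hi => ?_
    have hi' : i ≤ n := by
      have := Finset.mem_range.mp hi
      omega
    have h1 : (X 0 ^ i * tF β ^ (n - i) : MvPolynomial (Fin 3) K) ∈ Hd K n := by
      have := Hd_mul_mem (IsHomogeneous.pow (X_mem_Hd (K := K) 0) i)
        (IsHomogeneous.pow (tF_mem β) (n - i))
      rwa [show 1 * i + 1 * (n - i) = n by omega] at this
    have := (Hd K n).smul_mem (A.coeff i) h1
    rwa [MvPolynomial.smul_eq_C_mul] at this
  · rw [map_sum]
    conv_rhs => rw [A.as_sum_range' (n + 1) (by omega)]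
    refine Finset.sum_congr rfl fun i _ => ?_
    rw [map_mul, map_mul, map_pow, map_pow, piC_X0, piC_tF, one_pow, mul_one, piC_C,
      Polynomial.C_mul_X_pow_eq_monomial]

end Basic

section Kernel

variable [Infinite K] (α β c : K)

/-- The substitution onto the line. -/
noncomputable def psiC : MvPolynomial (Fin 3) K →ₐ[K] MvPolynomial (Fin 3) K :=
  aeval ![X 0, C α * X 0 + C c * tF β, X 2]

lemma lF_dvd_sub_psi (h : MvPolynomial (Fin 3) K) : lF α β c ∣ h - psiC α β c h := by
  rw [← Ideal.mem_span_singleton, ← Ideal.Quotient.eq]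
  have h1 : (Ideal.Quotient.mkₐ K (Ideal.span {lF α β c})).comp (psiC α β c)
      = Ideal.Quotient.mkₐ K (Ideal.span {lF α β c}) := by
    apply MvPolynomial.algHom_ext
    intro i
    fin_cases i
    · simp [psiC]
    · simp only [psiC, AlgHom.comp_apply, aeval_X]
      simp only [Fin.mk_one, Matrix.cons_val_one, Matrix.cons_val_zero]
      symm
      rw [Ideal.Quotient.mkₐ_eq_mk, Ideal.Quotient.eq, Ideal.mem_span_singleton]
      refine ⟨1, ?_⟩
      rw [lF, mul_one]
      ring
    · simp [psiC]
  have h2 := AlgHom.congr_fun h1 h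
  simp only [AlgHom.comp_apply, Ideal.Quotient.mkₐ_eq_mk] at h2
  exact h2.symm

lemma psi_eq_zero {n : ℕ} {h : MvPolynomial (Fin 3) K} (hh : h ∈ Hd K n)
    (h0 : piC α β c h = 0) : psiC α β c h = 0 := by
  have hkey : tF β * psiC α β c h = 0 := by
    apply MvPolynomial.funext
    intro P
    rw [map_mul, map_zero]
    by_cases ht : eval P (tF β) = 0
    · rw [ht, zero_mul]
    · refine mul_eq_zero_of_right _ ?_
      set τ := eval P (tF β) with hτ
      set x := P 0 / τ with hx
      have h1 : (fun i => τ * (![x, α * x + c, β * x + 1] : Fin 3 → K) i)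
          = ![P 0, α * P 0 + c * τ, P 2] := by
        funext i
        have hτ' : τ = P 2 - β * P 0 := by simp [hτ, tF]
        have hxτ : τ * x = P 0 := by
          rw [hx]
          field_simp
        fin_cases i
        · simpa using hxτ
        · simp only [Fin.mk_one, Matrix.cons_val_one, Matrix.cons_val_zero]
          linear_combination α * hxτ
        · simp only [Fin.reduceFinMk, Matrix.cons_val]
          rw [hτ'] at hxτ ⊢
          linear_combination β * hxτ
      have h2 : eval ![P 0, α * P 0 + c * τ, P 2] h = 0 := by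
        rw [← h1, eval_scale hh, ← eval_piC, h0]
        simp
      have h3 : eval P (psiC α β c h) = eval ![P 0, α * P 0 + c * τ, P 2] h := by
        have h4 : (eval P).comp (psiC α β c).toRingHom = eval ![P 0, α * P 0 + c * τ, P 2] := by
          refine MvPolynomial.ringHom_ext (fun r => ?_) (fun i => ?_)
          · simp [psiC]
          · fin_cases i <;> simp [psiC, hτ, tF]
        exact RingHom.congr_fun h4 h
      rw [h3, h2]
  exact (mul_eq_zero.mp hkey).resolve_left (tF_ne_zero β)

/-- A form vanishing on the line is divisible by the linear form. -/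
lemma lF_dvd_of_piC {n : ℕ} {h : MvPolynomial (Fin 3) K} (hh : h ∈ Hd K n)
    (h0 : piC α β c h = 0) : lF α β c ∣ h := by
  have := lF_dvd_sub_psi α β c h
  rwa [psi_eq_zero α β c hh h0, sub_zero] at this

end Kernel

end Vale.Agent.Lib.P200.Fam
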