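import Vale.Agent.Lib.P200.Fam.Crit

namespace Vale.Agent.Lib.P200.Fam

abbrev T3 := ℕ × ℕ × ℕ

lemma mem_out {e : T3} {d : ℕ} {t : T3} :
    t ∈ outE e d ↔ (t.1 < e.1 ∧ t.2.1 < e.2.1 ∧ t.2.2 < e.2.2) ∧ t.1 + t.2.1 + t.2.2 = d := by
  simp [outE, Finset.mem_filter, Finset.mem_product, Finset.mem_range]

lemma lexGT_irrefl (t : T3) : ¬ lexGT t t := by
  simp [lexGT]

lemma lexGT_trans {r s t : T3} (h1 : lexGT r s) (h2 : lexGT s t) : lexGT r t := by
  simp only [lexGT] at *
  omega

lemma lexGT_total {s t : T3} (h : s ≠ t) : lexGT s t ∨ lexGT t s := by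
  simp only [lexGT]
  have : ¬ (s.1 = t.1 ∧ s.2.1 = t.2.1 ∧ s.2.2 = t.2.2) := by
    rintro ⟨h1, h2, h3⟩
    exact h (Prod.ext h1 (Prod.ext h2 h3))
  omega

lemma rank_mono {e : T3} {d : ℕ} {s t : T3} (hs : s ∈ outE e d) (h : lexGT s t) :
    rankE e d s < rankE e d t := by
  refine Finset.card_lt_card ?_
  refine ⟨fun x hx => ?_, fun hsub => ?_⟩
  · rw [Finset.mem_filter] at hx ⊢
    exact ⟨hx.1, lexGT_trans hx.2 h⟩
  · have h1 : s ∈ (outE e d).filter (fun x => lexGT x t) := Finset.mem_filter.mpr ⟨hs, h⟩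
    have h2 := hsub h1
    exact lexGT_irrefl s (Finset.mem_filter.mp h2).2

lemma rank_le_of {e : T3} {d : ℕ} {s t : T3} (hs : s ∈ outE e d) (h : s = t ∨ lexGT s t) :
    rankE e d s ≤ rankE e d t := by
  rcases h with rfl | h
  · exact le_rfl
  · exact (rank_mono hs h).le

lemma rank_lt_card {e : T3} {d : ℕ} {t : T3} (ht : t ∈ outE e d) :
    rankE e d t < (outE e d).card := by
  refine Finset.card_lt_card ⟨Finset.filter_subset _ _, fun hsub => ?_⟩
  exact lexGT_irrefl t (Finset.mem_filter.mp (hsub ht)).2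

lemma rank_inj {e : T3} {d : ℕ} {s t : T3} (hs : s ∈ outE e d) (ht : t ∈ outE e d)
    (h : rankE e d s = rankE e d t) : s = t := by
  by_contra hne
  rcases lexGT_total hne with h1 | h1
  · have := rank_mono hs h1
    omega
  · have := rank_mono ht h1
    omega

/-- The set of the `q` lexicographically greatest monomials. -/
def topSet (e : T3) (d q : ℕ) : Finset T3 := (outE e d).filter (fun t => rankE e d t < q)

lemma mem_topSet {e : T3} {d q : ℕ} {t : T3} :
    t ∈ topSet e d q ↔ t ∈ outE e d ∧ rankE e d t < q := by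
  simp [topSet]

lemma card_topSet (e : T3) (d q : ℕ) : (topSet e d q).card = min q (outE e d).card := by
  have h1 : (outE e d).image (rankE e d) = Finset.range (outE e d).card := by
    refine Finset.eq_of_subset_of_card_le ?_ ?_
    · intro x hx
      obtain ⟨t, ht, rfl⟩ := Finset.mem_image.mp hx
      exact Finset.mem_range.mpr (rank_lt_card ht)
    · rw [Finset.card_range, Finset.card_image_of_injOn]
      intro s hs t ht h
      exact rank_inj hs ht h
  have h2 : (topSet e d q).image (rankE e d) = Finset.range (min q (outE e d).card) := by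
    ext x
    rw [Finset.mem_image, Finset.mem_range]
    constructor
    · rintro ⟨t, ht, rfl⟩
      obtain ⟨h3, h4⟩ := mem_topSet.mp ht
      have := rank_lt_card h3
      omega
    · intro hx
      have hx' : x ∈ (outE e d).image (rankE e d) := by
        rw [h1, Finset.mem_range]
        omega
      obtain ⟨t, ht, rfl⟩ := Finset.mem_image.mp hx'
      exact ⟨t, mem_topSet.mpr ⟨ht, by omega⟩, rfl⟩
  rw [← Finset.card_range (min q (outE e d).card), ← h2, Finset.card_image_of_injOn]
  intro s hs t ht h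
  exact rank_inj (mem_topSet.mp hs).1 (mem_topSet.mp ht).1 h

/-- The greatest divisor of degree one less. -/
def Ldiv (u : T3) : T3 :=
  if 0 < u.2.2 then (u.1, u.2.1, u.2.2 - 1)
  else if 0 < u.2.1 then (u.1, u.2.1 - 1, 0) else (u.1 - 1, 0, 0)

lemma Ldiv_mem {e : T3} {d : ℕ} {u : T3} (hu : u ∈ outE e (d + 1)) : Ldiv u ∈ outE e d := by
  obtain ⟨⟨h1, h2, h3⟩, h4⟩ := mem_out.mp hu
  rw [mem_out, Ldiv]
  split_ifs <;> simp <;> omega

/-- Multiplication by a variable on exponent vectors. -/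
lemma Ldiv_bump (i : Fin 3) (t : T3) : Ldiv (bump i t) = t ∨ lexGT (Ldiv (bump i t)) t := by
  obtain ⟨a, b, c⟩ := t
  fin_cases i <;> simp [Ldiv, bump, lexGT]
  · split_ifs <;> simp <;> omega
  · split_ifs <;> simp <;> omega

lemma Ldiv_mono {u v : T3} (hdeg : u.1 + u.2.1 + u.2.2 = v.1 + v.2.1 + v.2.2) (huv : lexGT u v) :
    Ldiv u = Ldiv v ∨ lexGT (Ldiv u) (Ldiv v) := by
  obtain ⟨a, b, c⟩ := u
  obtain ⟨a', b', c'⟩ := v
  simp only [lexGT, Ldiv] at *
  split_ifs <;> simp <;> omega

/-- The upper shadow of the `q` lexicographically greatest monomials. -/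
def SH (e : T3) (d q : ℕ) : Finset T3 :=
  (outE e (d + 1)).filter (fun u => rankE e d (Ldiv u) < q)

/-- The size of the upper shadow of the `q` lexicographically greatest monomials. -/
def GS (e : T3) (d q : ℕ) : ℕ := (SH e d q).card

lemma mem_SH {e : T3} {d q : ℕ} {u : T3} :
    u ∈ SH e d q ↔ u ∈ outE e (d + 1) ∧ rankE e d (Ldiv u) < q := by
  simp [SH]

lemma SH_of_bump {e : T3} {d q : ℕ} {t : T3} {i : Fin 3} (ht : rankE e d t < q)
    (hu : bump i t ∈ outE e (d + 1)) : bump i t ∈ SH e d q := by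
  refine mem_SH.mpr ⟨hu, lt_of_le_of_lt (rank_le_of (Ldiv_mem hu) (Ldiv_bump i t)) ht⟩

lemma rank_lt_GS {e : T3} {d q : ℕ} {u : T3} (hu : u ∈ SH e d q) :
    rankE e (d + 1) u < GS e d q := by
  obtain ⟨h1, h2⟩ := mem_SH.mp hu
  refine Finset.card_lt_card ⟨fun x hx => ?_, fun hsub => ?_⟩
  · obtain ⟨h3, h4⟩ := Finset.mem_filter.mp hx
    refine mem_SH.mpr ⟨h3, ?_⟩
    obtain ⟨⟨_, _, _⟩, h5⟩ := mem_out.mp h1
    obtain ⟨⟨_, _, _⟩, h6⟩ := mem_out.mp h3
    exact lt_of_le_of_lt (rank_le_of (Ldiv_mem h3) (Ldiv_mono (by omega) h4)) h2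
  · exact lexGT_irrefl u (Finset.mem_filter.mp (hsub hu)).2

lemma GS_mono (e : T3) (d : ℕ) {q q' : ℕ} (h : q ≤ q') : GS e d q ≤ GS e d q' := by
  refine Finset.card_le_card fun u hu => ?_
  obtain ⟨h1, h2⟩ := mem_SH.mp hu
  exact mem_SH.mpr ⟨h1, by omega⟩

lemma GS_le_card (e : T3) (d q : ℕ) : GS e d q ≤ (outE e (d + 1)).card :=
  Finset.card_le_card (Finset.filter_subset _ _)

lemma GS_zero (e : T3) (d : ℕ) : GS e d 0 = 0 := by
  rw [GS, Finset.card_eq_zero, SH, Finset.filter_eq_empty_iff]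
  intro u _
  omega

/-- The complement in the socle monomial. -/
def cmpl (e t : T3) : T3 := (e.1 - 1 - t.1, e.2.1 - 1 - t.2.1, e.2.2 - 1 - t.2.2)

section Dual

variable {e : T3} {s : ℕ}

lemma cmpl_mem (hs : e.1 + e.2.1 + e.2.2 = s + 3) {n n' : ℕ} (hn : n + n' = s) {t : T3}
    (ht : t ∈ outE e n) : cmpl e t ∈ outE e n' := by
  obtain ⟨⟨h1, h2, h3⟩, h4⟩ := mem_out.mp ht
  rw [mem_out, cmpl]
  simp only
  omega

lemma cmpl_cmpl {n : ℕ} {t : T3} (ht : t ∈ outE e n) : cmpl e (cmpl e t) = t := by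
  obtain ⟨⟨h1, h2, h3⟩, h4⟩ := mem_out.mp ht
  rw [cmpl, cmpl]
  ext <;> simp <;> omega

lemma cmpl_lex {n n' : ℕ} {a b : T3} (ha : a ∈ outE e n) (hb : b ∈ outE e n') :
    lexGT (cmpl e a) (cmpl e b) ↔ lexGT b a := by
  obtain ⟨⟨h1, h2, h3⟩, h4⟩ := mem_out.mp ha
  obtain ⟨⟨h5, h6, h7⟩, h8⟩ := mem_out.mp hb
  simp only [lexGT, cmpl]
  omega

lemma card_symm (hs : e.1 + e.2.1 + e.2.2 = s + 3) {n n' : ℕ} (hn : n + n' = s) :
    (outE e n).card = (outE e n').card := by
  refine Finset.card_bij' (fun t _ => cmpl e t) (fun t _ => cmpl e t) ?_ ?_ ?_ ?_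
  · intro t ht
    exact cmpl_mem hs hn ht
  · intro t ht
    exact cmpl_mem hs (by omega) ht
  · intro t ht
    exact cmpl_cmpl ht
  · intro t ht
    exact cmpl_cmpl ht

lemma rank_cmpl (hs : e.1 + e.2.1 + e.2.2 = s + 3) {n n' : ℕ} (hn : n + n' = s) {y : T3}
    (hy : y ∈ outE e n) :
    rankE e n y + rankE e n' (cmpl e y) + 1 = (outE e n).card := by
  have hlow : ((outE e n).filter (fun x => lexGT y x)).card = rankE e n' (cmpl e y) := by
    refine Finset.card_bij' (fun t _ => cmpl e t) (fun t _ => cmpl e t) ?_ ?_ ?_ ?_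
    · intro t ht
      obtain ⟨h1, h2⟩ := Finset.mem_filter.mp ht
      exact Finset.mem_filter.mpr ⟨cmpl_mem hs hn h1, (cmpl_lex h1 hy).mpr h2⟩
    · intro t ht
      obtain ⟨h1, h2⟩ := Finset.mem_filter.mp ht
      refine Finset.mem_filter.mpr ⟨cmpl_mem hs (by omega) h1, ?_⟩
      have h3 := cmpl_mem hs (by omega : n' + n = s) h1
      refine (cmpl_lex h3 hy).mp ?_
      rwa [cmpl_cmpl h1]
    · intro t ht
      exact cmpl_cmpl (Finset.mem_filter.mp ht).1
    · intro t ht
      exact cmpl_cmpl (Finset.mem_filter.mp ht).1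
  rw [← hlow, rankE]
  have hpart : (outE e n) = ((outE e n).filter (fun x => lexGT x y))
      ∪ ((outE e n).filter (fun x => lexGT y x) ∪ {y}) := by
    ext x
    simp only [Finset.mem_union, Finset.mem_filter, Finset.mem_singleton]
    constructor
    · intro hx
      by_cases hxy : x = y
      · exact Or.inr (Or.inr hxy)
      · rcases lexGT_total hxy with h | h
        · exact Or.inl ⟨hx, h⟩
        · exact Or.inr (Or.inl ⟨hx, h⟩)
    · rintro (⟨h, _⟩ | ⟨h, _⟩ | rfl)
      · exact h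
      · exact h
      · exact hy
  have hd1 : Disjoint ((outE e n).filter (fun x => lexGT x y))
      ((outE e n).filter (fun x => lexGT y x) ∪ {y}) := by
    rw [Finset.disjoint_left]
    intro x h1 h2
    obtain ⟨_, h3⟩ := Finset.mem_filter.mp h1
    rcases Finset.mem_union.mp h2 with h4 | h4
    · exact lexGT_irrefl x (lexGT_trans h3 (Finset.mem_filter.mp h4).2)
    · rw [Finset.mem_singleton.mp h4] at h3
      exact lexGT_irrefl y h3
  have hd2 : Disjoint ((outE e n).filter (fun x => lexGT y x)) {y} := by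
    rw [Finset.disjoint_singleton_right]
    intro h
    exact lexGT_irrefl y (Finset.mem_filter.mp h).2
  conv_rhs => rw [hpart, Finset.card_union_of_disjoint hd1, Finset.card_union_of_disjoint hd2,
    Finset.card_singleton]
  omega

lemma exists_bump_Ldiv {u : T3} (hu : 0 < u.1 + u.2.1 + u.2.2) : ∃ i, bump i (Ldiv u) = u := by
  obtain ⟨a, b, c⟩ := u
  simp only [Ldiv]
  simp only at hu
  split_ifs with h1 h2
  · refine ⟨2, ?_⟩
    simp [bump]
    omega
  · refine ⟨1, ?_⟩
    simp [bump]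
    omega
  · refine ⟨0, ?_⟩
    simp [bump]
    omega

lemma cmpl_bump {w : T3} {i : Fin 3} (h1 : (bump i w).1 < e.1) (h2 : (bump i w).2.1 < e.2.1)
    (h3 : (bump i w).2.2 < e.2.2) : cmpl e w = bump i (cmpl e (bump i w)) := by
  obtain ⟨a, b, c⟩ := w
  fin_cases i <;> simp only [bump, cmpl] at * <;> ext <;> simp <;> omega

/-- The numerical duality of the upper shadows. -/
theorem GS_dual (hs : e.1 + e.2.1 + e.2.2 = s + 3) {d d' : ℕ} (hd : d + 1 + d' = s) {v t : ℕ}
    (ht : t ≤ (outE e d').card) (hg : GS e d' t + v ≤ (outE e (d' + 1)).card) :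
    GS e d v + t ≤ (outE e d').card := by
  classical
  have hcd : (outE e (d + 1)).card = (outE e d').card := card_symm hs hd
  have hcd2 : (outE e d).card = (outE e (d' + 1)).card := card_symm hs (by omega)
  let S2 := (topSet e d' t).image (cmpl e)
  have hS2 : S2.card = t := by
    rw [Finset.card_image_of_injOn, card_topSet]
    · omega
    · intro a ha b hb hab
      have h1 := congrArg (cmpl e) hab
      rwa [cmpl_cmpl (mem_topSet.mp ha).1, cmpl_cmpl (mem_topSet.mp hb).1] at h1
  have hsub : SH e d v ∪ S2 ⊆ outE e (d + 1) := by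
    refine Finset.union_subset (Finset.filter_subset _ _) fun x hx => ?_
    obtain ⟨a, ha, rfl⟩ := Finset.mem_image.mp hx
    exact cmpl_mem hs (by omega) (mem_topSet.mp ha).1
  have hdisj : Disjoint (SH e d v) S2 := by
    rw [Finset.disjoint_left]
    intro u hu hu2
    obtain ⟨a, ha, rfl⟩ := Finset.mem_image.mp hu2
    obtain ⟨ha1, ha2⟩ := mem_topSet.mp ha
    obtain ⟨hu1, hu3⟩ := mem_SH.mp hu
    set u := cmpl e a with hudef
    have hy := Ldiv_mem hu1
    obtain ⟨⟨_, _, _⟩, hdeg⟩ := mem_out.mp hu1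
    obtain ⟨i, hi⟩ := exists_bump_Ldiv (u := u) (by omega)
    have hx := cmpl_mem hs (by omega : d + (d' + 1) = s) hy
    have hbump : cmpl e (Ldiv u) = bump i a := by
      have h3 : cmpl e u = a := cmpl_cmpl ha1
      obtain ⟨⟨z1, z2, z3⟩, _⟩ := mem_out.mp hu1
      have h4 := cmpl_bump (e := e) (w := Ldiv u) (i := i) (by rwa [hi]) (by rwa [hi]) (by rwa [hi])
      rwa [hi, h3] at h4
    rw [hbump] at hx
    have h4 := rank_lt_GS (SH_of_bump ha2 hx)
    have h5 := rank_cmpl hs (by omega : d + (d' + 1) = s) hy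
    rw [hbump] at h5
    omega
  have h1 := Finset.card_le_card hsub
  rw [Finset.card_union_of_disjoint hdisj, hS2, hcd] at h1
  exact h1

end Dual

section Bound

variable {a d : ℕ}

/-- Monomials in the row of exponent two. -/
def row2 (d : ℕ) : Finset T3 := (Finset.range (d - 1)).image (fun j => (2, j, d - 2 - j))

/-- Monomials in the row of exponent one. -/
def row1 (d : ℕ) : Finset T3 := (Finset.range d).image (fun j => (1, j, d - 1 - j))

lemma card_row2 (d : ℕ) : (row2 d).card = d - 1 := by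
  rw [row2, Finset.card_image_of_injOn, Finset.card_range]
  intro x _ y _ h
  simp only [Prod.mk.injEq] at h
  exact h.2.1

lemma card_row1 (d : ℕ) : (row1 d).card = d := by
  rw [row1, Finset.card_image_of_injOn, Finset.card_range]
  intro x _ y _ h
  simp only [Prod.mk.injEq] at h
  exact h.2.1

lemma row2_sub (hd : d < a + 1) : row2 d ⊆ outE (3, a, a) d := by
  intro t ht
  obtain ⟨j, hj, rfl⟩ := Finset.mem_image.mp ht
  have := Finset.mem_range.mp hj
  rw [mem_out]
  simp only
  omega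

lemma row1_sub (hd : d < a + 1) : row1 d ⊆ outE (3, a, a) d := by
  intro t ht
  obtain ⟨j, hj, rfl⟩ := Finset.mem_image.mp ht
  have := Finset.mem_range.mp hj
  rw [mem_out]
  simp only
  omega

lemma rank_ge1 (hd : d < a + 1) (h1 : 1 ≤ d) : d ≤ rankE (3, a, a) d (1, d - 1, 0) + 1 := by
  have hsub : row2 d ⊆ (outE (3, a, a) d).filter (fun s => lexGT s (1, d - 1, 0)) := by
    intro t ht
    refine Finset.mem_filter.mpr ⟨row2_sub hd ht, ?_⟩
    obtain ⟨j, _, rfl⟩ := Finset.mem_image.mp ht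
    simp [lexGT]
  have h2 : (row2 d).card ≤ rankE (3, a, a) d (1, d - 1, 0) := Finset.card_le_card hsub
  rw [card_row2] at h2
  omega

lemma rank_ge2 (hd : d < a + 1) (h1 : 1 ≤ d) : 2 * d ≤ rankE (3, a, a) d (0, d, 0) + 1 := by
  have hsub : row2 d ∪ row1 d ⊆ (outE (3, a, a) d).filter (fun s => lexGT s (0, d, 0)) := by
    refine Finset.union_subset (fun t ht => ?_) (fun t ht => ?_)
    · refine Finset.mem_filter.mpr ⟨row2_sub hd ht, ?_⟩
      obtain ⟨j, _, rfl⟩ := Finset.mem_image.mp ht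
      simp [lexGT]
    · refine Finset.mem_filter.mpr ⟨row1_sub hd ht, ?_⟩
      obtain ⟨j, _, rfl⟩ := Finset.mem_image.mp ht
      simp [lexGT]
  have hdisj : Disjoint (row2 d) (row1 d) := by
    rw [Finset.disjoint_left]
    intro t h2 h3
    obtain ⟨j, _, rfl⟩ := Finset.mem_image.mp h2
    obtain ⟨j', _, hj'⟩ := Finset.mem_image.mp h3
    simp at hj'
  have h2 : (row2 d ∪ row1 d).card ≤ rankE (3, a, a) d (0, d, 0) := Finset.card_le_card hsub
  rw [Finset.card_union_of_disjoint hdisj, card_row2, card_row1] at h2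
  omega

/-- The bound for the size of the shadow for the type `(3, a, a)`. -/
theorem GS_bound (hd : d + 1 ≤ a) (h1 : 1 ≤ d) (q : ℕ) :
    GS (3, a, a) d q ≤ q + (if 1 ≤ q then 1 else 0) + (if d ≤ q then 1 else 0)
      + (if 2 * d ≤ q ∧ d + 1 < a then 1 else 0) := by
  classical
  set e : T3 := (3, a, a) with he
  have hsplit := Finset.card_filter_add_card_filter_not (s := SH e d q) (fun u => 0 < u.2.2)
  have h2 : ((SH e d q).filter (fun u => 0 < u.2.2)).card ≤ q := by
    have h3 : ((SH e d q).filter (fun u => 0 < u.2.2)).card ≤ (topSet e d q).card := by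
      refine Finset.card_le_card_of_injOn Ldiv ?_ ?_
      · intro u hu
        obtain ⟨h4, _⟩ := Finset.mem_filter.mp hu
        obtain ⟨h5, h6⟩ := mem_SH.mp h4
        exact mem_topSet.mpr ⟨Ldiv_mem h5, h6⟩
      · intro u hu v hv huv
        have h4 := (Finset.mem_filter.mp hu).2
        have h5 := (Finset.mem_filter.mp hv).2
        simp only [Ldiv, if_pos h4, if_pos h5, Prod.mk.injEq] at huv
        ext
        · exact huv.1
        · exact huv.2.1
        · omega
    rw [card_topSet] at h3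
    omega
  have h3 : ((SH e d q).filter (fun u => ¬ 0 < u.2.2)).card
      ≤ (if 1 ≤ q then 1 else 0) + (if d ≤ q then 1 else 0)
        + (if 2 * d ≤ q ∧ d + 1 < a then 1 else 0) := by
    have hsub : (SH e d q).filter (fun u => ¬ 0 < u.2.2) ⊆
        ((if 1 ≤ q then {(2, d - 1, 0)} else ∅) ∪ (if d ≤ q then {(1, d, 0)} else ∅)) ∪
          (if 2 * d ≤ q ∧ d + 1 < a then {(0, d + 1, 0)} else ∅) := by
      intro u hu
      obtain ⟨h4, h5⟩ := Finset.mem_filter.mp hu
      obtain ⟨h6, h7⟩ := mem_SH.mp h4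
      obtain ⟨⟨h8, h9, h10⟩, h11⟩ := mem_out.mp h6
      rw [he] at h8 h9 h10
      simp only at h8 h9 h10
      obtain ⟨i, j, k⟩ := u
      simp only at h5 h7 h8 h9 h10 h11
      have hk : k = 0 := by omega
      subst hk
      have hi : i = 0 ∨ i = 1 ∨ i = 2 := by omega
      rcases hi with rfl | rfl | rfl
      · have hj : j = d + 1 := by omega
        subst hj
        have h12 : 2 * d ≤ rankE e d (0, d, 0) + 1 := rank_ge2 (a := a) (d := d) (by omega) h1
        have h13 : Ldiv (0, d + 1, 0) = (0, d, 0) := by simp [Ldiv]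
        rw [h13] at h7
        refine Finset.mem_union_right _ ?_
        rw [if_pos ⟨by omega, by omega⟩]
        exact Finset.mem_singleton_self _
      · have hj : j = d := by omega
        subst hj
        have h12 : j ≤ rankE e j (1, j - 1, 0) + 1 := rank_ge1 (a := a) (d := j) (by omega) h1
        have h13 : Ldiv (1, j, 0) = (1, j - 1, 0) := by
          simp only [Ldiv]
          rw [if_neg (by simp), if_pos (by omega)]
        rw [h13] at h7
        refine Finset.mem_union_left _ (Finset.mem_union_right _ ?_)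
        rw [if_pos (by omega)]
        exact Finset.mem_singleton_self _
      · have hj : j = d - 1 := by omega
        subst hj
        refine Finset.mem_union_left _ (Finset.mem_union_left _ ?_)
        rw [if_pos (by omega)]
        exact Finset.mem_singleton_self _
    refine (Finset.card_le_card hsub).trans ?_
    refine (Finset.card_union_le _ _).trans ?_
    refine Nat.add_le_add ((Finset.card_union_le _ _).trans (Nat.add_le_add ?_ ?_)) ?_ <;>
      split_ifs <;> simp
  unfold GS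
  omega

end Bound

end Vale.Agent.Lib.P200.Fam
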