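import Vale.Agent.Lib.P200.Fam.Star

namespace Vale.Agent.Lib.P200.Fam

open MvPolynomial Module

variable {K : Type*} [Field K] [Infinite K] {f g1 g2 : MvPolynomial (Fin 3) K} {α β : K}

/-- The growth bound in the critical degree. -/
theorem crit [IsAlgClosed K] (hf : f ∈ Hd K 3) (hQ : eval ![1, α, β] f ≠ 0)
    (hreg : RegSeq f g1 g2) {e : ℕ}
    (hg1 : g1 ∈ Hd K (e + 3)) (hg2 : g2 ∈ Hd K (e + 3)) {V : Submodule K (MvPolynomial (Fin 3) K)}
    (hV : V ≤ Hd K (e + 2)) (hFV : Fm f (e + 2) ≤ V) {q : ℕ}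
    (hq : finrank K V = q + (e + 1).choose 2) :
    (1 ≤ q → q + 3 + (e + 2).choose 2
        ≤ finrank K ↥(Up f V (e + 2) ⊔ Submodule.span K {g1, g2})) ∧
    (e + 2 ≤ q → q + 1 ≤ 3 * (e + 2) → q + 4 + (e + 2).choose 2
        ≤ finrank K ↥(Up f V (e + 2) ⊔ Submodule.span K {g1, g2})) := by
  have hf0 : f ≠ 0 := f_ne_zero_of hQ
  set U := Up f V (e + 2) with hUdef
  set G := Submodule.span K {g1, g2} with hGdef
  have hUle : U ≤ Hd K (e + 3) := Up_le hf hV
  have hGle : G ≤ Hd K (e + 3) := by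
    rw [Submodule.span_le]
    rintro y (rfl | rfl)
    · exact hg1
    · exact hg2
  have hWle : U ⊔ G ≤ Hd K (e + 3) := sup_le hUle hGle
  have hmono : finrank K U ≤ finrank K ↥(U ⊔ G) := finrank_mono_Hd le_sup_left hWle
  have hg1G : g1 ∈ G := Submodule.subset_span (by simp)
  have hg2G : g2 ∈ G := Submodule.subset_span (by simp)
  obtain ⟨c1', c2', -⟩ := C1 hf hQ (e + 1) V hV hFV q hq
  have c1 : 1 ≤ q → q + 1 + (e + 2).choose 2 ≤ finrank K U := c1'
  have c2 : e + 2 ≤ q → q + 2 + (e + 2).choose 2 ≤ finrank K U := c2'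
  have hE : NC f V → (1 ≤ q → q + 2 + (e + 2).choose 2 ≤ finrank K U) ∧
      (2 ≤ q → q + 3 + (e + 2).choose 2 ≤ finrank K U) :=
    fun h => E_lemma hf hQ (e + 1) V hV hFV h q hq
  -- the two forms lie in `U` when the dimension does not grow
  have hinU : finrank K ↥(U ⊔ G) ≤ finrank K U → g1 ∈ U ∧ g2 ∈ U := by
    intro hle
    have := le_of_finrank_sup hUle hGle hle
    exact ⟨this hg1G, this hg2G⟩
  -- the contradiction from a common factor when only one more form is available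
  have hfactor : finrank K ↥(U ⊔ G) ≤ finrank K U + 1 → ¬ NC f V → False := by
    intro hle hNC
    unfold NC at hNC
    push Not at hNC
    obtain ⟨c₀, hc₁, hc₂, hc₃⟩ := hNC
    obtain ⟨a, ha1, _, ha3, ha4⟩ := homog_of_dvd hf hf0 hc₂ hc₁
    obtain ⟨w, hw, hw0, hle2⟩ := one_complement hUle hGle hle
    have hmem : ∀ {y}, y ∈ U ⊔ Submodule.span K {w} → y ∈ Ideal.span {c₀, w} := by
      intro y hy
      obtain ⟨x, hx, z, hz, rfl⟩ := Submodule.mem_sup.mp hy
      refine Ideal.add_mem _ ?_ ?_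
      · obtain ⟨t, rfl⟩ := dvd_Up hc₂ hc₃ hx
        exact Ideal.mem_span_pair.mpr ⟨t, 0, by ring⟩
      · obtain ⟨t, rfl⟩ := Submodule.mem_span_singleton.mp hz
        rw [smul_eq_C_mul]
        exact Ideal.mul_mem_left _ _ (Ideal.subset_span (by simp))
    have hfJ : f ∈ Ideal.span {c₀, w} := by
      obtain ⟨z, rfl⟩ := hc₂
      exact Ideal.mem_span_pair.mpr ⟨z, 0, by ring⟩
    exact no_two hreg hf hg1 hg2 (by omega) (by omega) (by omega) ha3 hw ha4 hw0 ha1 (by omega)
      hfJ (hmem (hle2 hg1G)) (hmem (hle2 hg2G))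
  have hq2 : q + (e + 1).choose 2 = finrank K V := hq.symm
  constructor
  · intro hq1
    by_contra hcon
    have h1 := c1 hq1
    by_cases hNC : NC f V
    · have h2 := (hE hNC).1 hq1
      obtain ⟨hg1U, hg2U⟩ := hinU (by omega)
      by_cases hq3 : q = 1
      · -- a single form modulo the multiples of `f`
        have hF : finrank K (Fm f (e + 1 + 1)) = (e + 1).choose 2 := finrank_Fm_succ hf0 (e + 1)
        have h4 : finrank K ↥(Fm f (e + 1 + 1) ⊔ V) ≤ finrank K (Fm f (e + 1 + 1)) + 1 := by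
          rw [sup_eq_right.mpr hFV]
          omega
        obtain ⟨w, hw, hw0, hle⟩ := one_complement (Fm_le hf _) hV h4
        have hfJ : f ∈ Ideal.span {w, f} := Ideal.subset_span (by simp)
        refine pair_contra hf hreg hg1 hg2 hg1U hg2U hw hf hw0 hf0 (by omega) (by omega) hfJ ?_
        intro y hy
        obtain ⟨a, ha, z, hz, rfl⟩ := Submodule.mem_sup.mp (hle hy)
        refine Ideal.add_mem _ ?_ ?_
        · exact Ideal.span_mono (by simp) (Ideal.mem_span_singleton.mpr (Fm_dvd ha))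
        · obtain ⟨t, rfl⟩ := Submodule.mem_span_singleton.mp hz
          rw [smul_eq_C_mul]
          exact Ideal.mul_mem_left _ _ (Ideal.subset_span (by simp))
      · have h5 := (hE hNC).2 (by omega)
        omega
    · exact hfactor (by omega) hNC
  · intro hq1 hq3
    by_contra hcon
    have h1 := c2 hq1
    by_cases hNC : NC f V
    · have h2 := (hE hNC).2 (by omega)
      obtain ⟨hg1U, hg2U⟩ := hinU (by omega)
      have hU3 : finrank K U = q + 3 + (e + 2).choose 2 := by omega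
      exact star_B hf hQ hreg hg1 hg2 hV hFV hq hq1 hq3 hU3 hg1U hg2U
    · exact hfactor (by omega) hNC

end Vale.Agent.Lib.P200.Fam
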