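import Vale.Agent.Lib.P200.Defs

namespace Vale.Agent.Lib.P200.Fam

open MvPolynomial Module

/-- The degree `d` part of the ideal `P = (x_1^A, x_2^B, x_3^C)`, for `e = (A, B, C)`: the span of
the monomials of degree `d` with an exponent reaching the corresponding entry of `e`. -/
noncomputable def PdE (K : Type*) [Field K] (e : ℕ × ℕ × ℕ) (d : ℕ) :
    Submodule K (MvPolynomial (Fin 3) K) :=
  Submodule.span K (mon K '' {t : ℕ × ℕ × ℕ | t.1 + t.2.1 + t.2.2 = d ∧
    (e.1 ≤ t.1 ∨ e.2.1 ≤ t.2.1 ∨ e.2.2 ≤ t.2.2)})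

/-- The exponent vectors of the monomials of degree `d` outside `P`. -/
def outE (e : ℕ × ℕ × ℕ) (d : ℕ) : Finset (ℕ × ℕ × ℕ) :=
  (Finset.range e.1 ×ˢ Finset.range e.2.1 ×ˢ Finset.range e.2.2).filter
    (fun t => t.1 + t.2.1 + t.2.2 = d)

/-- The number of monomials of degree `d` outside `P` which are lexicographically greater than `t`. -/
def rankE (e : ℕ × ℕ × ℕ) (d : ℕ) (t : ℕ × ℕ × ℕ) : ℕ :=
  ((outE e d).filter (fun s => lexGT s t)).card

/-- The number `q_d = dim I_d - dim P_d`. -/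
noncomputable def qE {K : Type*} [Field K] (e : ℕ × ℕ × ℕ) (I : Ideal (MvPolynomial (Fin 3) K))
    (d : ℕ) : ℕ :=
  finrank K (degPart I d) - finrank K (PdE K e d)

/-- The span `J_d` of `P_d` and of the `q_d` lexicographically greatest monomials of degree `d`
outside `P`. -/
noncomputable def JE {K : Type*} [Field K] (e : ℕ × ℕ × ℕ) (I : Ideal (MvPolynomial (Fin 3) K))
    (d : ℕ) : Submodule K (MvPolynomial (Fin 3) K) :=
  PdE K e d ⊔ Submodule.span K
    (mon K '' {t : ℕ × ℕ × ℕ | t ∈ outE e d ∧ rankE e d t < qE e I d})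

end Vale.Agent.Lib.P200.Fam
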