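import Vale.Agent.Lib.P200.Fam.Good

namespace Vale.Agent.Lib.P200.Fam

open MvPolynomial Module

variable {K : Type*} [Field K] [Infinite K] {f : MvPolynomial (Fin 3) K} {α β : K}

omit [Infinite K] in
/-- A common factor of `f` and of `V` divides everything in `Up f V d`. -/
lemma dvd_Up {c₀ : MvPolynomial (Fin 3) K} {V : Submodule K (MvPolynomial (Fin 3) K)} {d : ℕ}
    (h1 : c₀ ∣ f) (h2 : ∀ v ∈ V, c₀ ∣ v) {x : MvPolynomial (Fin 3) K} (hx : x ∈ Up f V d) :
    c₀ ∣ x := by
  let I : Submodule K (MvPolynomial (Fin 3) K) := (Ideal.span {c₀}).restrictScalars K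
  have hI : ∀ y, y ∈ I ↔ c₀ ∣ y := fun y => Ideal.mem_span_singleton
  have hle : Up f V d ≤ I := by
    refine sup_le ?_ ?_
    · rw [Submodule.mul_le]
      intro m _ v hv
      exact (hI _).mpr (Dvd.dvd.mul_left (h2 v hv) m)
    · intro y hy
      exact (hI _).mpr (h1.trans (Fm_dvd hy))
  exact (hI x).mp (hle hx)

omit [Infinite K] in
lemma rel_ne_zero (hf : f ∈ Hd K 3) (hf0 : f ≠ 0) {v₀ : MvPolynomial (Fin 3) K}
    (hrel : IsRelPrime f v₀) : v₀ ≠ 0 := by
  rintro rfl
  have h1 := hrel (dvd_refl f) (dvd_zero f)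
  have h2 := (isUnit_iff_totalDegree_of_isReduced).mp h1
  have h3 := totalDegree_of_Hd hf hf0
  omega

/-- The numerical consequences of a line missing the zeros of `v₀`. -/
lemma good_numbers (c : K) (hf : f ∈ Hd K 3) (hQ : eval ![1, α, β] f ≠ 0)
    {V : Submodule K (MvPolynomial (Fin 3) K)} {e : ℕ} (hV : V ≤ Hd K (e + 2))
    (hFV : Fm f (e + 2) ≤ V) {v₀ : MvPolynomial (Fin 3) K} (hv₀ : v₀ ∈ V)
    (hu : IsUnit (rhoC f α β c v₀)) :
    1 ≤ finrank K (V.map (rhoC f α β c).toLinearMap) ∧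
    (finrank K (V.map (rhoC f α β c).toLinearMap) = 3 ∨
      finrank K (V.map (rhoC f α β c).toLinearMap) + 1
        ≤ finrank K ((Up f V (e + 2)).map (rhoC f α β c).toLinearMap)) := by
  have hfin : FiniteDimensional K (AQ f α β c) := by
    refine Module.finite_of_finrank_pos ?_
    rw [finrank_AQ c hf hQ]
    omega
  have hnt : Nontrivial (AQ f α β c) := by
    refine Module.nontrivial_of_finrank_pos (R := K) ?_
    rw [finrank_AQ c hf hQ]
    omega
  obtain ⟨-, -, -, -, h5⟩ := step_numbers c hf hQ hV hFV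
  have hy : rhoC f α β c v₀ ∈ V.map (rhoC f α β c).toLinearMap :=
    Submodule.mem_map_of_mem hv₀
  constructor
  · refine Nat.one_le_iff_ne_zero.mpr fun h0 => ?_
    have h6 := Submodule.finrank_eq_zero.mp h0
    rw [h6] at hy
    have h7 : rhoC f α β c v₀ = 0 := (Submodule.mem_bot K).mp hy
    rw [h7] at hu
    exact not_isUnit_zero hu
  · by_cases htop : V.map (rhoC f α β c).toLinearMap = ⊤
    · left
      rw [htop, finrank_top]
      exact finrank_AQ c hf hQ
    · right
      exact h5 _ hy hu htop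

omit [Infinite K] in
lemma eq_of_le_finrank {A B : Submodule K (MvPolynomial (Fin 3) K)} {d : ℕ} (hB : B ≤ Hd K d)
    (h : A ≤ B) (h2 : finrank K B ≤ finrank K A) : A = B := by
  have := fin_of_le hB
  exact Submodule.eq_of_le_of_finrank_le h h2

/-- The growth bound in the absence of a common factor. -/
theorem E_lemma [IsAlgClosed K] (hf : f ∈ Hd K 3) (hQ : eval ![1, α, β] f ≠ 0) (e : ℕ) :
    ∀ V : Submodule K (MvPolynomial (Fin 3) K), V ≤ Hd K (e + 1) → Fm f (e + 1) ≤ V → NC f V →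
    ∀ q, finrank K V = q + e.choose 2 →
      (1 ≤ q → q + 2 + (e + 1).choose 2 ≤ finrank K (Up f V (e + 1))) ∧
      (2 ≤ q → q + 3 + (e + 1).choose 2 ≤ finrank K (Up f V (e + 1))) := by
  have hf0 : f ≠ 0 := f_ne_zero_of hQ
  induction e with
  | zero =>
    intro V hV _ _ q hq
    obtain ⟨h1, h2⟩ := base_numbers hf hV
    rw [show Nat.choose 0 2 = 0 from rfl, add_zero] at hq
    rw [hq] at h1 h2
    rw [show Nat.choose (0 + 1) 2 = 0 from rfl]
    change (1 ≤ q → q + 2 + 0 ≤ finrank K (Up f V 1)) ∧ (2 ≤ q → q + 3 + 0 ≤ finrank K (Up f V 1))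
    interval_cases q <;> simp only [mac] at h1 <;> omega
  | succ e ih =>
    intro V hV hFV hNC q hq
    change (1 ≤ q → q + 2 + (e + 2).choose 2 ≤ finrank K (Up f V (e + 2))) ∧
      (2 ≤ q → q + 3 + (e + 2).choose 2 ≤ finrank K (Up f V (e + 2)))
    obtain ⟨v₀, hv₀, hrel⟩ := exists_relPrime hf0 hNC
    have hv00 := rel_ne_zero hf hf0 hrel
    obtain ⟨c, hc⟩ := exists_good hf hQ (hV hv₀) hv00 hrel
    obtain ⟨g1, g2⟩ := good_numbers c hf hQ hV hFV hv₀ hc
    obtain ⟨h1, h2, h3, h4, h5, h6, h7⟩ := slice_numbers c hf hQ hV hFV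
    refine ⟨fun hq1 => by omega, fun hq2 => ?_⟩
    by_contra hcon
    set l := lF α β c with hl
    set U := Up f V (e + 2) with hU
    have hS := slice_le l (e + 1) V
    have hFS : Fm f (e + 1) ≤ slice l (e + 1) V := Fm_le_slice c hf hFV
    obtain ⟨-, -, h81, h82, -⟩ := step_numbers c hf hQ hV hFV
    have h81' : V ≤ slice l (e + 2) U := h81
    have h82' : Up f (slice l (e + 1) V) (e + 1) ≤ slice l (e + 2) U := h82
    have hUV : slice l (e + 2) U = V :=
      (eq_of_le_finrank (slice_le _ _ _) h81' (by omega)).symm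
    have hUpV : Up f (slice l (e + 1) V) (e + 1) ≤ V := by
      rwa [hUV] at h82'
    have hq' : finrank K (slice l (e + 1) V)
        = (finrank K (slice l (e + 1) V) - e.choose 2) + e.choose 2 := by omega
    have hfr := finrank_mono_Hd hUpV hV
    by_cases hNC' : NC f (slice l (e + 1) V)
    · obtain ⟨i1, -⟩ := ih _ hS hFS hNC' _ hq'
      have := i1 (by omega)
      omega
    · unfold NC at hNC'
      push Not at hNC'
      obtain ⟨c₀, hc₁, hc₂, hc₃⟩ := hNC'
      obtain ⟨i1, -, -⟩ := C1 hf hQ e _ hS hFS _ hq'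
      have h8 := i1 (by omega)
      have h9 : Up f (slice l (e + 1) V) (e + 1) = V := by
        refine eq_of_le_finrank hV hUpV ?_
        omega
      refine hNC c₀ hc₁ hc₂ fun v hv => ?_
      rw [← h9] at hv
      exact dvd_Up hc₂ hc₃ hv

end Vale.Agent.Lib.P200.Fam
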