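import Vale.Agent.Lib.P200.Fam.C1

namespace Vale.Agent.Lib.P200.Fam

open MvPolynomial Module

variable {K : Type*} [Field K] [Infinite K] {f : MvPolynomial (Fin 3) K} {α β : K}

/-- No common factor: no non-unit divides `f` and all the elements of `V`. -/
def NC (f : MvPolynomial (Fin 3) K) (V : Submodule K (MvPolynomial (Fin 3) K)) : Prop :=
  ∀ c, ¬ IsUnit c → c ∣ f → ¬ ∀ v ∈ V, c ∣ v

/-- Without a common factor, some element of `V` is relatively prime to `f`. -/
theorem exists_relPrime (hf0 : f ≠ 0) {V : Submodule K (MvPolynomial (Fin 3) K)} (hNC : NC f V) :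
    ∃ v₀ ∈ V, IsRelPrime f v₀ := by
  classical
  obtain ⟨w, hw1, hw2⟩ := UniqueFactorizationMonoid.exists_prime_factors f hf0
  let ι := {p // p ∈ w.toFinset}
  let s : ι → Subspace K V :=
    fun p => ((Ideal.span {p.1}).restrictScalars K).comap V.subtype
  by_contra hno
  push Not at hno
  have hcov : ⋃ i, (s i : Set V) = Set.univ := by
    rw [Set.eq_univ_iff_forall]
    intro v
    have h1 := hno v.1 v.2
    unfold IsRelPrime at h1
    push Not at h1
    obtain ⟨d, hd1, hd2, hd3⟩ := h1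
    have hd0 : d ≠ 0 := by
      rintro rfl
      exact hf0 (zero_dvd_iff.mp hd1)
    obtain ⟨i, hi1, hi2⟩ := WfDvdMonoid.exists_irreducible_factor hd3 hd0
    have hi3 : Prime i := UniqueFactorizationMonoid.irreducible_iff_prime.mp hi1
    have hi4 : i ∣ w.prod := (hi2.trans hd1).trans hw2.symm.dvd
    obtain ⟨p, hp1, hp2⟩ := hi3.exists_mem_multiset_dvd hi4
    have hp3 : p ∣ i := (hi1.dvd_symm (hw1 p hp1).irreducible hp2)
    refine Set.mem_iUnion.mpr ⟨⟨p, Multiset.mem_toFinset.mpr hp1⟩, ?_⟩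
    show v.1 ∈ Ideal.span {p}
    exact Ideal.mem_span_singleton.mpr (hp3.trans (hi2.trans hd2))
  obtain ⟨i, hi⟩ := Subspace.exists_eq_top_of_iUnion_eq_univ hcov
  have hp := hw1 i.1 (Multiset.mem_toFinset.mp i.2)
  refine hNC i.1 hp.not_unit ?_ ?_
  · exact (Multiset.dvd_prod (Multiset.mem_toFinset.mp i.2)).trans hw2.dvd
  · intro v hv
    have h2 : (⟨v, hv⟩ : V) ∈ s i := by
      rw [hi]
      trivial
    exact Ideal.mem_span_singleton.mp h2

omit [Infinite K] in
/-- The dimension count for two relatively prime forms. -/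
lemma finrank_two {v₀ : MvPolynomial (Fin 3) K} {u : ℕ} (hf : f ∈ Hd K 3) (hf0 : f ≠ 0)
    (hv : v₀ ∈ Hd K u) (hv0 : v₀ ≠ 0) (hrel : IsRelPrime f v₀) (x : ℕ) :
    (x + u + 3 + 2).choose 2
      ≤ finrank K ↥(gmul f (Pt K (x + u + 3) 3) ⊔ gmul v₀ (Pt K (x + u + 3) u)) + 3 * u := by
  set N := x + u + 3 with hN
  have hA : gmul f (Pt K N 3) ≤ Hd K N := gmul_Pt_le hf
  have hB : gmul v₀ (Pt K N u) ≤ Hd K N := gmul_Pt_le hv
  have := fin_of_le hA
  have := fin_of_le hB
  have h1 := Submodule.finrank_sup_add_finrank_inf_eq (gmul f (Pt K N 3)) (gmul v₀ (Pt K N u))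
  have hP1 : finrank K (Pt K N 3) = (x + u + 2).choose 2 := by
    rw [Pt_of_le (by omega), finrank_Hd, show N - 3 = x + u by omega]
  have hP2 : finrank K (Pt K N u) = (x + 3 + 2).choose 2 := by
    rw [Pt_of_le (by omega), finrank_Hd, show N - u = x + 3 by omega]
  rw [finrank_gmul hf0, finrank_gmul hv0, hP1, hP2] at h1
  have h2 : gmul f (Pt K N 3) ⊓ gmul v₀ (Pt K N u) ≤ gmul (f * v₀) (Pt K N (u + 3)) := by
    rintro y ⟨hy1, hy2⟩
    obtain ⟨a, _, rfl⟩ := mem_gmul.mp hy1
    obtain ⟨b, hb, hab⟩ := mem_gmul.mp hy2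
    have h3 : f ∣ v₀ * b := ⟨a, hab⟩
    obtain ⟨b₁, hb₁⟩ := hrel.dvd_of_dvd_mul_left h3
    have h4 := cp_mul (n := N) (e := u) hf b₁
    rw [mul_comm b₁, ← hb₁, cp_of_mem hb] at h4
    refine mem_gmul.mpr ⟨_, cp_mem N (u + 3) b₁, ?_⟩
    rw [← hab, h4]
    ring
  have h3 : finrank K ↥(gmul f (Pt K N 3) ⊓ gmul v₀ (Pt K N u)) ≤ (x + 2).choose 2 := by
    have h4 : gmul (f * v₀) (Pt K N (u + 3)) ≤ Hd K N := by
      have := gmul_Pt_le (n := N) (Hd_mul_mem hf hv)
      rwa [add_comm 3 u] at this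
    have h5 := finrank_mono_Hd h2 h4
    have hP3 : finrank K (Pt K N (u + 3)) = (x + 2).choose 2 := by
      rw [Pt_of_le (by omega), finrank_Hd, show N - (u + 3) = x by omega]
    rw [finrank_gmul (mul_ne_zero hf0 hv0), hP3] at h5
    exact h5
  have h6 := two_mul_choose (x + u + 3)
  have h7 := two_mul_choose (x + u)
  have h8 := two_mul_choose (x + 3)
  have h9 := two_mul_choose x
  have h10 : (x + u + 3 + 2).choose 2 + (x + 2).choose 2
      = (x + u + 2).choose 2 + (x + 3 + 2).choose 2 + 3 * u := by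
    nlinarith
  have h11 : (N + 2).choose 2 = (x + u + 3 + 2).choose 2 := by rw [hN]
  omega

/-- A line of the pencil avoiding the common zeros of two relatively prime forms. -/
theorem exists_good [IsAlgClosed K] (hf : f ∈ Hd K 3) (hQ : eval ![1, α, β] f ≠ 0)
    {v₀ : MvPolynomial (Fin 3) K} {u : ℕ} (hv : v₀ ∈ Hd K u) (hv0 : v₀ ≠ 0)
    (hrel : IsRelPrime f v₀) : ∃ c, IsUnit (rhoC f α β c v₀) := by
  classical
  have hf0 : f ≠ 0 := f_ne_zero_of hQ
  by_contra hno
  push Not at hno
  have hroot : ∀ c : K, ∃ γ, eval ![γ, α * γ + c, β * γ + 1] f = 0 ∧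
      eval ![γ, α * γ + c, β * γ + 1] v₀ = 0 := by
    intro c
    by_contra hc
    push Not at hc
    apply hno c
    have h1 : IsCoprime (piC α β c f) (piC α β c v₀) := by
      rw [Polynomial.isCoprime_iff_aeval_ne_zero_of_isAlgClosed K K]
      intro a
      by_cases h2 : eval ![a, α * a + c, β * a + 1] f = 0
      · right
        have := hc a h2
        rw [← eval_piC] at this
        simpa using this
      · left
        rw [← eval_piC] at h2
        simpa using h2
    obtain ⟨A, B, hAB⟩ := h1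
    refine IsUnit.of_mul_eq_one (Ideal.Quotient.mk _ B) ?_
    have h3 : (rhoC f α β c) v₀ = Ideal.Quotient.mk _ (piC α β c v₀) := by
      simp [rhoC]
    rw [h3, ← map_mul, mul_comm, ← map_one (Ideal.Quotient.mk (Ideal.span {piC α β c f})), ← hAB,
      Ideal.Quotient.eq]
    refine Ideal.mem_span_singleton'.mpr ⟨-A, ?_⟩
    ring
  choose γ hγ1 hγ2 using hroot
  set n := 3 * u + 1 with hn
  let c : Fin n → K := fun i => Infinite.natEmbedding K i.1
  have hc : Function.Injective c := fun i j hij =>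
    Fin.ext ((Infinite.natEmbedding K).injective hij)
  let P : Fin n → Fin 3 → K := fun i => ![γ (c i), α * γ (c i) + c i, β * γ (c i) + 1]
  have hPf : ∀ i, eval (P i) f = 0 := fun i => hγ1 (c i)
  have hPv : ∀ i, eval (P i) v₀ = 0 := fun i => hγ2 (c i)
  have hPt : ∀ i, eval (P i) (tF β) = 1 := by
    intro i
    simp [P, tF]
  have hPl : ∀ i j, eval (P i) (lF α β (c j)) = c i - c j := by
    intro i j
    simp [P, lF, tF]
  set N := n + u + 3 with hN
  -- forms separating the points
  have hsep : ∀ i, ∃ x ∈ Hd K N, ∀ k, eval (P k) x = if k = i then 1 else 0 := by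
    intro i
    let w := tF β ^ (N - (n - 1)) * ∏ j ∈ Finset.univ.erase i, lF α β (c j)
    have hw : w ∈ Hd K N := by
      have h1 : (∏ j ∈ Finset.univ.erase i, lF α β (c j)) ∈ Hd K (n - 1) := by
        have := IsHomogeneous.prod (Finset.univ.erase i) (fun j => lF α β (c j)) (fun _ => 1)
          (fun j _ => lF_mem α β (c j))
        rw [Finset.sum_const, Finset.card_erase_of_mem (Finset.mem_univ i), Finset.card_univ,
          Fintype.card_fin, smul_eq_mul, mul_one] at this
        exact this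
      have h2 := Hd_mul_mem (IsHomogeneous.pow (tF_mem β) (N - (n - 1))) h1
      rwa [show 1 * (N - (n - 1)) + (n - 1) = N by omega] at h2
    have hwi : eval (P i) w ≠ 0 := by
      simp only [w, map_mul, map_pow, hPt, one_pow, one_mul, map_prod, hPl]
      refine Finset.prod_ne_zero_iff.mpr fun j hj => ?_
      exact sub_ne_zero.mpr (fun h => (Finset.ne_of_mem_erase hj) (hc h).symm)
    have hwk : ∀ k, k ≠ i → eval (P k) w = 0 := by
      intro k hk
      simp only [w, map_mul, map_prod, hPl]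
      refine mul_eq_zero_of_right _ (Finset.prod_eq_zero (Finset.mem_erase.mpr ⟨hk, Finset.mem_univ k⟩) ?_)
      rw [sub_self]
    refine ⟨(eval (P i) w)⁻¹ • w, (Hd K N).smul_mem _ hw, fun k => ?_⟩
    rw [MvPolynomial.smul_eval]
    by_cases hki : k = i
    · rw [if_pos hki, hki]
      exact inv_mul_cancel₀ hwi
    · rw [if_neg hki, hwk k hki, mul_zero]
  -- the evaluation map
  let E : MvPolynomial (Fin 3) K →ₗ[K] (Fin n → K) :=
    LinearMap.pi (fun i => (aeval (P i) : MvPolynomial (Fin 3) K →ₐ[K] K).toLinearMap)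
  have hE : ∀ x i, E x i = eval (P i) x := by
    intro x i
    simp [E, aeval_eq_eval]
  have hr := LinearMap.finrank_range_add_finrank_ker (E.domRestrict (Hd K N))
  have hrange : LinearMap.range (E.domRestrict (Hd K N)) = ⊤ := by
    rw [LinearMap.range_eq_top]
    intro y
    choose x hx1 hx2 using hsep
    refine ⟨⟨∑ i, y i • x i, Submodule.sum_mem _ fun i _ => (Hd K N).smul_mem _ (hx1 i)⟩, ?_⟩
    funext k
    rw [LinearMap.domRestrict_apply, hE, map_sum]
    simp only [MvPolynomial.smul_eval, hx2]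
    simp
  rw [hrange, finrank_top, Module.finrank_fin_fun, LinearMap.ker_domRestrict, finrank_Hd] at hr
  have hle : gmul f (Pt K N 3) ⊔ gmul v₀ (Pt K N u) ≤ Hd K N ⊓ LinearMap.ker E := by
    refine le_inf (sup_le (gmul_Pt_le hf) (gmul_Pt_le hv)) (sup_le ?_ ?_)
    · intro y hy
      obtain ⟨a, _, rfl⟩ := mem_gmul.mp hy
      rw [LinearMap.mem_ker]
      funext i
      rw [hE, map_mul, hPf, zero_mul]
      rfl
    · intro y hy
      obtain ⟨a, _, rfl⟩ := mem_gmul.mp hy
      rw [LinearMap.mem_ker]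
      funext i
      rw [hE, map_mul, hPv, zero_mul]
      rfl
  have h2 : finrank K ↥((LinearMap.ker E).comap (Hd K N).subtype)
      = finrank K ↥(Hd K N ⊓ LinearMap.ker E) := by
    have h3 : (LinearMap.ker E).comap (Hd K N).subtype
        = (Hd K N ⊓ LinearMap.ker E).comap (Hd K N).subtype := by
      ext x
      simp
    rw [h3]
    exact (Submodule.comapSubtypeEquivOfLe inf_le_left).finrank_eq
  have h4 := finrank_mono_Hd hle inf_le_left
  have h5 := finrank_two (x := n) hf hf0 hv hv0 hrel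
  rw [← hN] at h5
  rw [h2] at hr
  omega

end Vale.Agent.Lib.P200.Fam
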