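import Vale.Agent.Lib.P200.Fam.Comb

namespace Vale.Agent.Lib.P200.Fam

open MvPolynomial Module

variable {K : Type*} [Field K] {f g1 g2 : MvPolynomial (Fin 3) K} {a : ℕ}

section Parts

variable (hf : f ∈ Hd K 3) (hg1 : g1 ∈ Hd K a) (hg2 : g2 ∈ Hd K a)

include hf hg1 hg2

lemma degPart_eq (n : ℕ) : degPart (Ideal.span {f, g1, g2}) n
    = Fm f n ⊔ gmul g1 (Pt K n a) ⊔ gmul g2 (Pt K n a) := by
  rw [degPart_abc hf hg1 hg2, degPart_ab hf hg1, degPart_a hf]
  rfl

lemma degPart_low {n : ℕ} (hn : n < a) : degPart (Ideal.span {f, g1, g2}) n = Fm f n := by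
  rw [degPart_eq hf hg1 hg2, Pt_of_lt hn]
  have h3 : ∀ g : MvPolynomial (Fin 3) K, gmul g (⊥ : Submodule K (MvPolynomial (Fin 3) K)) = ⊥ := by
    intro g
    simp [gmul]
  rw [h3, h3, sup_bot_eq, sup_bot_eq]

lemma degPart_top : degPart (Ideal.span {f, g1, g2}) a
    = Fm f a ⊔ Submodule.span K {g1, g2} := by
  rw [degPart_eq hf hg1 hg2, Pt_of_le le_rfl, Nat.sub_self]
  have h3 : ∀ g : MvPolynomial (Fin 3) K, gmul g (Hd K 0) = Submodule.span K {g} := by
    intro g
    refine le_antisymm ?_ span_le_gmul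
    intro x hx
    obtain ⟨u, hu, rfl⟩ := mem_gmul.mp hx
    have hu' : u = C (coeff 0 u) := by
      by_cases h0 : u = 0
      · simp [h0]
      · exact totalDegree_eq_zero_iff_eq_C.mp (totalDegree_of_Hd hu h0)
    rw [hu', mul_comm, ← smul_eq_C_mul]
    exact Submodule.smul_mem _ _ (Submodule.mem_span_singleton_self g)
  rw [h3, h3, sup_assoc, ← Submodule.span_union]
  rfl

end Parts

lemma finrank_pair_le (g1 g2 : MvPolynomial (Fin 3) K) :
    finrank K (Submodule.span K {g1, g2}) ≤ 2 := by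
  classical
  have h1 := finrank_span_finset_le_card (R := K) ({g1, g2} : Finset (MvPolynomial (Fin 3) K))
  have h2 : ((({g1, g2} : Finset (MvPolynomial (Fin 3) K)) : Set (MvPolynomial (Fin 3) K)))
      = {g1, g2} := by simp
  rw [h2] at h1
  exact h1.trans Finset.card_le_two

lemma exists_Q [Infinite K] (hf : f ∈ Hd K 3) (hf0 : f ≠ 0) :
    ∃ α β : K, eval ![1, α, β] f ≠ 0 := by
  have h1 : (X 0 : MvPolynomial (Fin 3) K) * f ≠ 0 := mul_ne_zero (X_ne_zero 0) hf0
  have h2 : ∃ P, eval P ((X 0 : MvPolynomial (Fin 3) K) * f) ≠ 0 := by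
    by_contra hcon
    push Not at hcon
    exact h1 (MvPolynomial.funext (fun P => by rw [hcon P, map_zero]))
  obtain ⟨P, hP⟩ := h2
  rw [map_mul, eval_X] at hP
  have hP0 : P 0 ≠ 0 := left_ne_zero_of_mul hP
  have hPf : eval P f ≠ 0 := right_ne_zero_of_mul hP
  refine ⟨P 1 / P 0, P 2 / P 0, fun h0 => hPf ?_⟩
  have h3 : (fun i => P 0 * (![1, P 1 / P 0, P 2 / P 0] : Fin 3 → K) i) = P := by
    funext i
    fin_cases i
    · simp
    · simp only [Fin.mk_one, Matrix.cons_val_one, Matrix.cons_val_zero]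
      field_simp
    · simp only [Fin.reduceFinMk, Matrix.cons_val]
      field_simp
  rw [← h3, eval_scale hf, h0, mul_zero]

section Growth

variable [IsAlgClosed K] (hf : f ∈ Hd K 3) (hg1 : g1 ∈ Hd K a) (hg2 : g2 ∈ Hd K a)
  (hreg : RegSeq f g1 g2) (ha : 3 ≤ a)

include hf hg1 hg2 hreg ha

/-- The trivial cases of growth. -/
lemma growth_full {d : ℕ} {V : Submodule K (MvPolynomial (Fin 3) K)} (hV : V = Hd K d) (q : ℕ) :
    finrank K (degPart (Ideal.span {f, g1, g2}) (d + 1)) + GS (3, a, a) d q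
      ≤ finrank K ↥(Hd K 1 * V ⊔ degPart (Ideal.span {f, g1, g2}) (d + 1)) := by
  subst hV
  have hle : degPart (Ideal.span {f, g1, g2}) (d + 1) ≤ Hd K (d + 1) := inf_le_right
  rw [Hd_one_mul, sup_eq_left.mpr hle]
  have h1 := (finrank_all hreg hf hg1 hg2 (by omega) (by omega) (d + 1)).2.2
  have h2 := GS_le_card (3, a, a) d q
  rw [outsideP_eq] at h2
  rw [finrank_Hd]
  omega

lemma growth_triv {d : ℕ} {V : Submodule K (MvPolynomial (Fin 3) K)} {q : ℕ} (hV : V ≤ Hd K d)
    (hGS : GS (3, a, a) d q = 0) :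
    finrank K (degPart (Ideal.span {f, g1, g2}) (d + 1)) + GS (3, a, a) d q
      ≤ finrank K ↥(Hd K 1 * V ⊔ degPart (Ideal.span {f, g1, g2}) (d + 1)) := by
  rw [hGS, add_zero]
  exact finrank_mono_Hd le_sup_right (sup_le (mul_le_Hd hV) inf_le_right)

/-- Growth in degree zero. -/
lemma growth_zero : GrowthG (GS (3, a, a)) f g1 g2 0 := by
  intro V hV _
  have h1 := finrank_mono_Hd hV (le_refl _)
  rw [finrank_Hd] at h1
  have h2 : (0 + 2).choose 2 = 1 := rfl
  rw [h2] at h1
  have h3 : finrank K V = 0 ∨ finrank K V = 1 := by omega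
  rcases h3 with h3 | h3
  · refine growth_triv hf hg1 hg2 hreg ha hV ?_
    have : finrank K ↥V - finrank K ↥(degPart (Ideal.span {f, g1, g2}) 0) = 0 := by omega
    rw [this, GS_zero]
  · have hVeq : V = Hd K 0 := eq_of_le_finrank (le_refl _) hV (by
      rw [finrank_Hd, h3]
      exact h2.le)
    exact growth_full hf hg1 hg2 hreg ha hVeq _

/-- Growth in the degrees below the critical one. -/
lemma growth_mid {e' : ℕ} (hd : e' + 2 < a) : GrowthG (GS (3, a, a)) f g1 g2 (e' + 1) := by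
  intro V hV hFV
  have hf0 := hreg.h0
  obtain ⟨α, β, hQ⟩ := exists_Q hf hf0
  rw [degPart_low hf hg1 hg2 (by omega : e' + 1 < a)] at hFV ⊢
  rw [degPart_low hf hg1 hg2 (by omega : e' + 1 + 1 < a)]
  have hF1 : finrank K (Fm f (e' + 1)) = e'.choose 2 := finrank_Fm_succ hf0 e'
  have hF2 : finrank K (Fm f (e' + 1 + 1)) = (e' + 1).choose 2 := finrank_Fm_succ hf0 (e' + 1)
  rw [hF1, hF2]
  have h1 := finrank_mono_Hd hFV hV
  rw [hF1] at h1
  set q := finrank K V - e'.choose 2 with hq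
  obtain ⟨c1, c2, c3⟩ := C1 hf hQ e' V hV hFV q (by omega)
  have hb := GS_bound (a := a) (d := e' + 1) (by omega) (by omega) q
  change (e' + 1).choose 2 + GS (3, a, a) (e' + 1) q ≤ finrank K (Up f V (e' + 1))
  have hF3 := finrank_mono_Hd (Fm_le_Up V (e' + 1)) (Up_le hf hV)
  rw [hF2] at hF3
  split_ifs at hb <;> omega

/-- Growth in the critical degree. -/
lemma growth_crit {e' : ℕ} (hd : a = e' + 3) : GrowthG (GS (3, a, a)) f g1 g2 (e' + 2) := by
  subst hd
  intro V hV hFV
  have hf0 := hreg.h0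
  obtain ⟨α, β, hQ⟩ := exists_Q hf hf0
  rw [degPart_low hf hg1 hg2 (by omega : e' + 2 < e' + 3)] at hFV ⊢
  have hF1 : finrank K (Fm f (e' + 2)) = (e' + 1).choose 2 := finrank_Fm_succ hf0 (e' + 1)
  rw [hF1]
  have h1 := finrank_mono_Hd hFV hV
  rw [hF1] at h1
  set q := finrank K V - (e' + 1).choose 2 with hq
  have hV2 : finrank K V = q + (e' + 1).choose 2 := by omega
  have htop := degPart_top hf hg1 hg2
  rw [show e' + 2 + 1 = e' + 3 from rfl, htop]
  have hGle : Submodule.span K {g1, g2} ≤ Hd K (e' + 3) := by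
    rw [Submodule.span_le]
    rintro y (rfl | rfl)
    · exact hg1
    · exact hg2
  have hFtop : finrank K ↥(Fm f (e' + 3) ⊔ Submodule.span K {g1, g2}) ≤ (e' + 2).choose 2 + 2 := by
    have := fin_of_le (Fm_le hf (e' + 3))
    have := fin_of_le hGle
    have h2 := Submodule.finrank_add_le_finrank_add_finrank (Fm f (e' + 3))
      (Submodule.span K {g1, g2})
    have h3 := finrank_pair_le g1 g2
    have h4 : finrank K (Fm f (e' + 3)) = (e' + 2).choose 2 := finrank_Fm_succ hf0 (e' + 2)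
    omega
  have hW : Hd K 1 * V ⊔ (Fm f (e' + 3) ⊔ Submodule.span K {g1, g2})
      = Up f V (e' + 2) ⊔ Submodule.span K {g1, g2} := by
    rw [← sup_assoc]
    rfl
  rw [hW]
  have hmono : finrank K ↥(Fm f (e' + 3) ⊔ Submodule.span K {g1, g2})
      ≤ finrank K ↥(Up f V (e' + 2) ⊔ Submodule.span K {g1, g2}) :=
    finrank_mono_Hd (sup_le_sup_right (Fm_le_Up V (e' + 2)) _)
      (sup_le (Up_le hf hV) hGle)
  obtain ⟨c1, c2⟩ := crit hf hQ hreg hg1 hg2 hV hFV hV2
  -- the top value of `q`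
  have hle := finrank_mono_Hd hV (le_refl _)
  rw [finrank_Hd] at hle
  have hc1 := choose_step (e' + 1)
  have hc2 := choose_step (e' + 2)
  have hc3 := choose_step (e' + 3)
  rw [show e' + 1 + 1 = e' + 2 from rfl] at hc1
  rw [show e' + 2 + 1 = e' + 3 from rfl] at hc2
  rw [show e' + 3 + 1 = e' + 2 + 2 from rfl] at hc3
  by_cases hqtop : q = 3 * (e' + 2)
  · have hVeq : V = Hd K (e' + 2) := eq_of_le_finrank (le_refl _) hV (by
      rw [finrank_Hd]
      omega)
    have hfull := growth_full (d := e' + 2) hf hg1 hg2 hreg ha hVeq q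
    rw [show e' + 2 + 1 = e' + 3 from rfl, htop, hW] at hfull
    exact hfull
  · have hb := GS_bound (a := e' + 3) (d := e' + 2) (by omega) (by omega) q
    split_ifs at hb <;> omega

/-- Growth in all degrees. -/
theorem growth_closed (d : ℕ) : GrowthG (GS (3, a, a)) f g1 g2 d := by
  have hlow : ∀ d, d + 1 ≤ a → GrowthG (GS (3, a, a)) f g1 g2 d := by
    intro d hd
    match d, hd with
    | 0, _ => exact growth_zero hf hg1 hg2 hreg ha
    | 1, _ => exact growth_mid hf hg1 hg2 hreg ha (e' := 0) (by omega)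
    | e' + 2, hd =>
      by_cases h : e' + 3 < a
      · exact growth_mid hf hg1 hg2 hreg ha (e' := e' + 1) (by omega)
      · exact growth_crit hf hg1 hg2 hreg ha (e' := e') (by omega)
  by_cases hd : d + 1 ≤ a
  · exact hlow d hd
  by_cases hd2 : d + 1 ≤ 2 * a
  · obtain ⟨e', he'⟩ : ∃ e', d + 1 + e' = 2 * a := ⟨2 * a - (d + 1), by omega⟩
    refine growth_dualG hreg hf hg1 hg2 (by omega) (by omega) (by omega)
      (by omega : 3 + a + a = 2 * a + 3) he' ?_ (hlow e' (by omega))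
    intro v t _ ht hg
    have := GS_dual (e := (3, a, a)) (s := 2 * a) (by simp only; omega) he' (v := v) (t := t)
    rw [outsideP_eq, outsideP_eq] at this
    exact this ht hg
  · intro V hV _
    refine growth_triv hf hg1 hg2 hreg ha hV ?_
    have h1 := GS_le_card (3, a, a) d (finrank K ↥V - finrank K ↥(degPart (Ideal.span {f, g1, g2}) d))
    have h2 : outE (3, a, a) (d + 1) = ∅ := by
      rw [Finset.eq_empty_iff_forall_notMem]
      intro t ht
      obtain ⟨⟨_, _, _⟩, h3⟩ := mem_out.mp ht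
      simp only at *
      omega
    rw [h2, Finset.card_empty] at h1
    omega

end Growth

end Vale.Agent.Lib.P200.Fam
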