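import Vale.Agent.Lib.P200.Fam.Defs
import Vale.Agent.Lib.P200.Main

namespace Vale.Agent.Lib.P200.Fam

open MvPolynomial Module

variable {K : Type*} [Field K]

/-- Forms of degree `n - e`, and zero when `e > n`. -/
noncomputable def Pt (K : Type*) [Field K] (n e : ℕ) : Submodule K (MvPolynomial (Fin 3) K) :=
  if e ≤ n then Hd K (n - e) else ⊥

/-- The component of degree `n - e`, and zero when `e > n`. -/
noncomputable def cp (n e : ℕ) (x : MvPolynomial (Fin 3) K) : MvPolynomial (Fin 3) K :=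
  if e ≤ n then homogeneousComponent (n - e) x else 0

lemma cp_mem (n e : ℕ) (x : MvPolynomial (Fin 3) K) : cp n e x ∈ Pt K n e := by
  unfold cp Pt
  split_ifs with h
  · exact homogeneousComponent_mem _ _
  · exact Submodule.zero_mem _

lemma cp_of_mem {n e : ℕ} {x : MvPolynomial (Fin 3) K} (hx : x ∈ Pt K n e) : cp n e x = x := by
  unfold cp
  unfold Pt at hx
  split_ifs at hx ⊢ with h
  · exact homogeneousComponent_eq_self hx
  · simpa using hx.symm

lemma cp_add (n e : ℕ) (x y : MvPolynomial (Fin 3) K) : cp n e (x + y) = cp n e x + cp n e y := by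
  unfold cp
  split_ifs
  · rw [map_add]
  · simp

lemma cp_sub (n e : ℕ) (x y : MvPolynomial (Fin 3) K) : cp n e (x - y) = cp n e x - cp n e y := by
  unfold cp
  split_ifs
  · rw [map_sub]
  · simp

lemma cp_neg (n e : ℕ) (x : MvPolynomial (Fin 3) K) : cp n e (-x) = - cp n e x := by
  unfold cp
  split_ifs
  · rw [map_neg]
  · simp

lemma cp_mul {n e e' : ℕ} {g : MvPolynomial (Fin 3) K} (hg : g ∈ Hd K e')
    (x : MvPolynomial (Fin 3) K) : cp n e (x * g) = cp n (e + e') x * g := by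
  unfold cp
  by_cases h1 : e + e' ≤ n
  · rw [if_pos (by omega), if_pos h1, mul_comm x g, mul_comm _ g, ← comp_mul hg]
    congr 2
    omega
  · rw [if_neg h1, zero_mul]
    by_cases h2 : e ≤ n
    · rw [if_pos h2, mul_comm]
      exact comp_mul_low hg (by omega) x
    · rw [if_neg h2]

lemma Pt_mul {n e e' : ℕ} {x g : MvPolynomial (Fin 3) K} (hx : x ∈ Pt K n (e + e'))
    (hg : g ∈ Hd K e') : x * g ∈ Pt K n e := by
  have h1 : x * g = cp n e (x * g) := by
    rw [cp_mul hg, cp_of_mem hx]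
  rw [h1]
  exact cp_mem _ _ _

lemma Pt_zero (n : ℕ) : Pt K n 0 = Hd K n := by
  simp [Pt]

lemma Pt_le (n e : ℕ) : Pt K n e ≤ ⨆ k, Hd K k := by
  unfold Pt
  split_ifs
  · exact le_iSup (fun k => Hd K k) _
  · exact bot_le

lemma Pt_of_le {n e : ℕ} (h : e ≤ n) : Pt K n e = Hd K (n - e) := by
  simp [Pt, h]

lemma Pt_of_lt {n e : ℕ} (h : n < e) : Pt K n e = ⊥ := by
  simp [Pt, Nat.not_le.mpr h]

lemma gmul_Pt_le {g : MvPolynomial (Fin 3) K} {n e : ℕ} (hg : g ∈ Hd K e) :
    gmul g (Pt K n e) ≤ Hd K n := by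
  intro x hx
  obtain ⟨u, hu, rfl⟩ := mem_gmul.mp hx
  rw [mul_comm, ← Pt_zero]
  exact Pt_mul (e := 0) (by rwa [zero_add]) hg

section Decomp

variable {a b c : MvPolynomial (Fin 3) K} {e1 e2 e3 : ℕ}

lemma cp_self {n : ℕ} {g : MvPolynomial (Fin 3) K} (hg : g ∈ Hd K n) : cp n 0 g = g :=
  cp_of_mem (by rwa [Pt_zero])

lemma decomp1 (ha : a ∈ Hd K e1) {n : ℕ} {g x : MvPolynomial (Fin 3) K} (hg : g ∈ Hd K n)
    (hs : x * a = g) : cp n e1 x * a = g := by
  have h := congrArg (cp n 0) hs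
  rw [cp_mul ha, cp_self hg, zero_add] at h
  exact h

lemma decomp2 (ha : a ∈ Hd K e1) (hb : b ∈ Hd K e2) {n : ℕ} {g x y : MvPolynomial (Fin 3) K}
    (hg : g ∈ Hd K n) (hs : x * a + y * b = g) : cp n e1 x * a + cp n e2 y * b = g := by
  have h := congrArg (cp n 0) hs
  rw [cp_add, cp_mul ha, cp_mul hb, cp_self hg, zero_add, zero_add] at h
  exact h

lemma decomp3 (ha : a ∈ Hd K e1) (hb : b ∈ Hd K e2) (hc : c ∈ Hd K e3) {n : ℕ}
    {g x y z : MvPolynomial (Fin 3) K} (hg : g ∈ Hd K n) (hs : x * a + y * b + z * c = g) :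
    cp n e1 x * a + cp n e2 y * b + cp n e3 z * c = g := by
  have h := congrArg (cp n 0) hs
  rw [cp_add, cp_add, cp_mul ha, cp_mul hb, cp_mul hc, cp_self hg, zero_add, zero_add, zero_add] at h
  exact h

lemma degPart_a (ha : a ∈ Hd K e1) (n : ℕ) :
    degPart (Ideal.span {a}) n = gmul a (Pt K n e1) := by
  ext g
  rw [mem_degPart, mem_gmul]
  constructor
  · rintro ⟨h1, h2⟩
    obtain ⟨x, hx⟩ := Ideal.mem_span_singleton'.mp h1
    have := decomp1 ha h2 hx
    exact ⟨cp n e1 x, cp_mem _ _ _, by rw [mul_comm]; exact this⟩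
  · rintro ⟨u, hu, rfl⟩
    exact ⟨Ideal.mem_span_singleton'.mpr ⟨u, mul_comm u a⟩, gmul_Pt_le ha (mul_mem_gmul hu)⟩

lemma degPart_ab (ha : a ∈ Hd K e1) (hb : b ∈ Hd K e2) (n : ℕ) :
    degPart (Ideal.span {a, b}) n = degPart (Ideal.span {a}) n ⊔ gmul b (Pt K n e2) := by
  ext g
  rw [Submodule.mem_sup, mem_degPart]
  constructor
  · rintro ⟨h1, h2⟩
    obtain ⟨x, y, hs⟩ := Ideal.mem_span_pair.mp h1
    have := decomp2 ha hb h2 hs
    refine ⟨cp n e1 x * a, mem_degPart.mpr ⟨Ideal.mem_span_singleton'.mpr ⟨_, rfl⟩, ?_⟩,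
      b * cp n e2 y, mul_mem_gmul (cp_mem _ _ _), ?_⟩
    · rw [mul_comm]
      exact gmul_Pt_le ha (mul_mem_gmul (cp_mem _ _ _))
    · rw [mul_comm b]; exact this
  · rintro ⟨u, hu, v, hv, rfl⟩
    obtain ⟨hu1, hu2⟩ := mem_degPart.mp hu
    obtain ⟨w, hw, rfl⟩ := mem_gmul.mp hv
    refine ⟨?_, Submodule.add_mem _ hu2 (gmul_Pt_le hb (mul_mem_gmul hw))⟩
    obtain ⟨x, rfl⟩ := Ideal.mem_span_singleton'.mp hu1
    exact Ideal.mem_span_pair.mpr ⟨x, w, by ring⟩

lemma degPart_abc (ha : a ∈ Hd K e1) (hb : b ∈ Hd K e2) (hc : c ∈ Hd K e3) (n : ℕ) :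
    degPart (Ideal.span {a, b, c}) n = degPart (Ideal.span {a, b}) n ⊔ gmul c (Pt K n e3) := by
  ext g
  rw [Submodule.mem_sup, mem_degPart]
  constructor
  · rintro ⟨h1, h2⟩
    obtain ⟨x, y, z, hs⟩ := mem_span3.mp h1
    have := decomp3 ha hb hc h2 hs
    refine ⟨cp n e1 x * a + cp n e2 y * b, mem_degPart.mpr
      ⟨Ideal.mem_span_pair.mpr ⟨_, _, rfl⟩, ?_⟩, c * cp n e3 z, mul_mem_gmul (cp_mem _ _ _), ?_⟩
    · refine Submodule.add_mem _ ?_ ?_
      · rw [mul_comm]
        exact gmul_Pt_le ha (mul_mem_gmul (cp_mem _ _ _))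
      · rw [mul_comm]
        exact gmul_Pt_le hb (mul_mem_gmul (cp_mem _ _ _))
    · rw [mul_comm c]; exact this
  · rintro ⟨u, hu, v, hv, rfl⟩
    obtain ⟨hu1, hu2⟩ := mem_degPart.mp hu
    obtain ⟨w, hw, rfl⟩ := mem_gmul.mp hv
    refine ⟨?_, Submodule.add_mem _ hu2 (gmul_Pt_le hc (mul_mem_gmul hw))⟩
    obtain ⟨x, y, rfl⟩ := Ideal.mem_span_pair.mp hu1
    exact mem_span3.mpr ⟨x, y, w, by ring⟩

/-- Generic dimension step. -/
lemma finrank_stepG {A B : Submodule K (MvPolynomial (Fin 3) K)} {g : MvPolynomial (Fin 3) K}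
    {n e : ℕ} (hg0 : g ≠ 0) (hgd : g ∈ Hd K e) (hA : A ≤ Hd K n)
    (hint : A ⊓ gmul g (Pt K n e) = gmul g B) :
    finrank K ↥(A ⊔ gmul g (Pt K n e)) + finrank K B = finrank K A + finrank K (Pt K n e) := by
  have h1 : gmul g (Pt K n e) ≤ Hd K n := gmul_Pt_le hgd
  have := fin_of_le hA
  have := fin_of_le h1
  have h2 := Submodule.finrank_sup_add_finrank_inf_eq A (gmul g (Pt K n e))
  rw [hint, finrank_gmul hg0, finrank_gmul hg0] at h2
  exact h2

end Decomp

section Count

/-- Triples of given total degree with the first exponent bounded. -/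
def O1 (A n : ℕ) : Finset (ℕ × ℕ × ℕ) := (tri n).filter (fun t => t.1 < A)

/-- Triples of given total degree with two exponents bounded. -/
def O2 (A B n : ℕ) : Finset (ℕ × ℕ × ℕ) := (O1 A n).filter (fun t => t.2.1 < B)

/-- Triples of given total degree with three exponents bounded. -/
def O3 (A B C n : ℕ) : Finset (ℕ × ℕ × ℕ) := (O2 A B n).filter (fun t => t.2.2 < C)

lemma mem_tri {n : ℕ} {t : ℕ × ℕ × ℕ} : t ∈ tri n ↔ t.1 + t.2.1 + t.2.2 = n := by
  simp only [tri, Finset.mem_filter, Finset.mem_product, Finset.mem_range]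
  constructor
  · exact fun h => h.2
  · exact fun h => ⟨⟨by omega, by omega, by omega⟩, h⟩

lemma mem_O1 {A n : ℕ} {t : ℕ × ℕ × ℕ} : t ∈ O1 A n ↔ t.1 + t.2.1 + t.2.2 = n ∧ t.1 < A := by
  simp [O1, mem_tri]

lemma mem_O2 {A B n : ℕ} {t : ℕ × ℕ × ℕ} :
    t ∈ O2 A B n ↔ t.1 + t.2.1 + t.2.2 = n ∧ t.1 < A ∧ t.2.1 < B := by
  simp [O2, mem_O1, and_assoc]

lemma mem_O3 {A B C n : ℕ} {t : ℕ × ℕ × ℕ} :
    t ∈ O3 A B C n ↔ t.1 + t.2.1 + t.2.2 = n ∧ t.1 < A ∧ t.2.1 < B ∧ t.2.2 < C := by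
  simp [O3, mem_O2, and_assoc]

lemma outsideP_eq (A B C n : ℕ) : outE (A, B, C) n = O3 A B C n := by
  ext t
  simp only [outE, Finset.mem_filter, Finset.mem_product, Finset.mem_range, mem_O3]
  tauto

lemma card_O1_shift {A n : ℕ} (h : A ≤ n) : (O1 A n).card + (tri (n - A)).card = (tri n).card := by
  have h1 : ((tri n).filter (fun t => ¬ t.1 < A)).card = (tri (n - A)).card := by
    refine Finset.card_nbij' (fun t => (t.1 - A, t.2.1, t.2.2)) (fun t => (t.1 + A, t.2.1, t.2.2))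
      ?_ ?_ ?_ ?_
    · intro t ht
      simp only [Finset.coe_filter, Set.mem_ofPred_eq, mem_tri] at ht
      simp only [Finset.mem_coe, mem_tri]
      omega
    · intro t ht
      simp only [Finset.mem_coe, mem_tri] at ht
      simp only [Finset.coe_filter, Set.mem_ofPred_eq, mem_tri]
      omega
    · intro t ht
      simp only [Finset.coe_filter, Set.mem_ofPred_eq, mem_tri] at ht
      ext <;> simp
      omega
    · intro t _
      ext <;> simp
  rw [← h1, O1]
  exact Finset.card_filter_add_card_filter_not _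

lemma O1_low {A n : ℕ} (h : n < A) : O1 A n = tri n := by
  ext t
  rw [mem_O1, mem_tri]
  constructor
  · exact fun h => h.1
  · exact fun h2 => ⟨h2, by omega⟩

lemma card_O2_shift {A B n : ℕ} (h : B ≤ n) : (O2 A B n).card + (O1 A (n - B)).card = (O1 A n).card := by
  have h1 : ((O1 A n).filter (fun t => ¬ t.2.1 < B)).card = (O1 A (n - B)).card := by
    refine Finset.card_nbij' (fun t => (t.1, t.2.1 - B, t.2.2)) (fun t => (t.1, t.2.1 + B, t.2.2))
      ?_ ?_ ?_ ?_
    · intro t ht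
      simp only [Finset.coe_filter, Set.mem_ofPred_eq, mem_O1] at ht
      simp only [Finset.mem_coe, mem_O1]
      omega
    · intro t ht
      simp only [Finset.mem_coe, mem_O1] at ht
      simp only [Finset.coe_filter, Set.mem_ofPred_eq, mem_O1]
      omega
    · intro t ht
      simp only [Finset.coe_filter, Set.mem_ofPred_eq, mem_O1] at ht
      ext <;> simp
      omega
    · intro t _
      ext <;> simp
  rw [← h1, O2]
  exact Finset.card_filter_add_card_filter_not _

lemma O2_low {A B n : ℕ} (h : n < B) : O2 A B n = O1 A n := by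
  ext t
  rw [mem_O2, mem_O1]
  constructor
  · exact fun h => ⟨h.1, h.2.1⟩
  · exact fun h2 => ⟨h2.1, h2.2, by omega⟩

lemma card_O3_shift {A B C n : ℕ} (h : C ≤ n) :
    (O3 A B C n).card + (O2 A B (n - C)).card = (O2 A B n).card := by
  have h1 : ((O2 A B n).filter (fun t => ¬ t.2.2 < C)).card = (O2 A B (n - C)).card := by
    refine Finset.card_nbij' (fun t => (t.1, t.2.1, t.2.2 - C)) (fun t => (t.1, t.2.1, t.2.2 + C))
      ?_ ?_ ?_ ?_
    · intro t ht
      simp only [Finset.coe_filter, Set.mem_ofPred_eq, mem_O2] at ht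
      simp only [Finset.mem_coe, mem_O2]
      omega
    · intro t ht
      simp only [Finset.mem_coe, mem_O2] at ht
      simp only [Finset.coe_filter, Set.mem_ofPred_eq, mem_O2]
      omega
    · intro t ht
      simp only [Finset.coe_filter, Set.mem_ofPred_eq, mem_O2] at ht
      ext <;> simp
      omega
    · intro t _
      ext <;> simp
  rw [← h1, O3]
  exact Finset.card_filter_add_card_filter_not _

lemma O3_low {A B C n : ℕ} (h : n < C) : O3 A B C n = O2 A B n := by
  ext t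
  rw [mem_O3, mem_O2]
  constructor
  · exact fun h => ⟨h.1, h.2.1, h.2.2.1⟩
  · exact fun h2 => ⟨h2.1, h2.2.1, h2.2.2, by omega⟩

lemma card_O1_one (n : ℕ) : (O1 1 n).card = n + 1 := by
  have h : O1 1 n = (Finset.range (n + 1)).image (fun j => ((0 : ℕ), j, n - j)) := by
    ext t
    simp only [mem_O1, Finset.mem_image, Finset.mem_range]
    constructor
    · rintro ⟨h1, h2⟩
      refine ⟨t.2.1, by omega, ?_⟩
      ext <;> simp <;> omega
    · rintro ⟨j, hj, rfl⟩
      simp
      omega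
  rw [h, Finset.card_image_of_injOn, Finset.card_range]
  intro x _ y _ hxy
  simp only [Prod.mk.injEq] at hxy
  exact hxy.2.1

lemma card_tri (n : ℕ) : (tri n).card = (n + 2).choose 2 := by
  induction n with
  | zero =>
    have h := card_O1_one 0
    rw [O1_low (by omega)] at h
    rw [h]
    rfl
  | succ n ih =>
    have h1 := card_O1_shift (A := 1) (n := n + 1) (by omega)
    rw [card_O1_one, Nat.add_sub_cancel, ih] at h1
    rw [← h1, Nat.choose_succ_succ' (n + 2) 1, Nat.choose_one_right]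

end Count

section Dims

variable {a b c : MvPolynomial (Fin 3) K} {e1 e2 e3 : ℕ}

lemma finrank_Pt_of_le {n e : ℕ} (h : e ≤ n) : finrank K (Pt K n e) = (tri (n - e)).card := by
  rw [Pt_of_le h, finrank_Hd, card_tri]

lemma finrank_Pt_of_lt {n e : ℕ} (h : n < e) : finrank K (Pt K n e) = 0 := by
  rw [Pt_of_lt h]
  exact finrank_bot K _

/-- The dimension count for the regular sequence. -/
theorem finrank_all (h : RegSeq a b c) (ha : a ∈ Hd K e1) (hb : b ∈ Hd K e2) (hc : c ∈ Hd K e3)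
    (he1 : 1 ≤ e1) (he2 : 1 ≤ e2) (n : ℕ) :
    finrank K (degPart (Ideal.span {a}) n) + (O1 e1 n).card = (n + 2).choose 2 ∧
    finrank K (degPart (Ideal.span {a, b}) n) + (O2 e1 e2 n).card = (n + 2).choose 2 ∧
    finrank K (degPart (Ideal.span {a, b, c}) n) + (O3 e1 e2 e3 n).card = (n + 2).choose 2 := by
  have hb0 : b ≠ 0 := by
    rintro rfl
    have h1 := h.h1 1 (by simp)
    rw [Ideal.mem_span_singleton'] at h1
    obtain ⟨x, hx⟩ := h1
    have h2 : (1 : MvPolynomial (Fin 3) K) ∈ Hd K 0 := isHomogeneous_one _ _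
    have h3 := decomp1 ha h2 hx
    rw [cp, if_neg (by omega), zero_mul] at h3
    exact zero_ne_one h3
  have hc0 : c ≠ 0 := by
    rintro rfl
    have h1 := h.h2 1 (by simp)
    rw [Ideal.mem_span_pair] at h1
    obtain ⟨x, y, hx⟩ := h1
    have h2 : (1 : MvPolynomial (Fin 3) K) ∈ Hd K 0 := isHomogeneous_one _ _
    have h3 := decomp2 ha hb h2 hx
    rw [cp, if_neg (by omega), cp, if_neg (by omega), zero_mul, zero_mul, add_zero] at h3
    exact zero_ne_one h3
  have h1 : ∀ n, finrank K (degPart (Ideal.span {a}) n) + (O1 e1 n).card = (n + 2).choose 2 := by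
    intro n
    rw [degPart_a ha, finrank_gmul h.h0]
    by_cases hn : e1 ≤ n
    · rw [finrank_Pt_of_le hn, add_comm, card_O1_shift hn, card_tri]
    · rw [finrank_Pt_of_lt (by omega), O1_low (by omega), zero_add, card_tri]
  have h2 : ∀ n, finrank K (degPart (Ideal.span {a, b}) n) + (O2 e1 e2 n).card = (n + 2).choose 2 := by
    intro n
    by_cases hn : e2 ≤ n
    · have h3 : finrank K ↥(degPart (Ideal.span {a}) n ⊔ gmul b (Pt K n e2))
          + finrank K (degPart (Ideal.span {a}) (n - e2))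
          = finrank K (degPart (Ideal.span {a}) n) + finrank K (Pt K n e2) := by
        refine finrank_stepG hb0 hb inf_le_right ?_
        ext g
        rw [Submodule.mem_inf, mem_gmul, mem_gmul, mem_degPart, Pt_of_le hn]
        constructor
        · rintro ⟨⟨h4, _⟩, u, hu, rfl⟩
          exact ⟨u, mem_degPart.mpr ⟨h.h1 u h4, hu⟩, rfl⟩
        · rintro ⟨u, hu', rfl⟩
          obtain ⟨h4, hu⟩ := mem_degPart.mp hu'
          have h5 := Hd_mul_mem hb hu
          rw [show e2 + (n - e2) = n by omega] at h5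
          exact ⟨⟨Ideal.mul_mem_left _ _ h4, h5⟩, u, hu, rfl⟩
      rw [← degPart_ab ha hb, finrank_Pt_of_le hn] at h3
      have h4 := h1 n
      have h5 := h1 (n - e2)
      have h6 := card_O2_shift (A := e1) hn
      have h7 := card_tri (n - e2)
      omega
    · rw [degPart_ab ha hb, Pt_of_lt (by omega : n < e2), O2_low (by omega)]
      have h3 : gmul b (⊥ : Submodule K (MvPolynomial (Fin 3) K)) = ⊥ := by
        simp [gmul]
      rw [h3, sup_bot_eq]
      exact h1 n
  have h3 : ∀ n, finrank K (degPart (Ideal.span {a, b, c}) n) + (O3 e1 e2 e3 n).card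
      = (n + 2).choose 2 := by
    intro n
    by_cases hn : e3 ≤ n
    · have h3 : finrank K ↥(degPart (Ideal.span {a, b}) n ⊔ gmul c (Pt K n e3))
          + finrank K (degPart (Ideal.span {a, b}) (n - e3))
          = finrank K (degPart (Ideal.span {a, b}) n) + finrank K (Pt K n e3) := by
        refine finrank_stepG hc0 hc inf_le_right ?_
        ext g
        rw [Submodule.mem_inf, mem_gmul, mem_gmul, mem_degPart, Pt_of_le hn]
        constructor
        · rintro ⟨⟨h4, _⟩, u, hu, rfl⟩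
          exact ⟨u, mem_degPart.mpr ⟨h.h2 u h4, hu⟩, rfl⟩
        · rintro ⟨u, hu', rfl⟩
          obtain ⟨h4, hu⟩ := mem_degPart.mp hu'
          have h5 := Hd_mul_mem hc hu
          rw [show e3 + (n - e3) = n by omega] at h5
          exact ⟨⟨Ideal.mul_mem_left _ _ h4, h5⟩, u, hu, rfl⟩
      rw [← degPart_abc ha hb hc, finrank_Pt_of_le hn] at h3
      have h4 := h2 n
      have h5 := h2 (n - e3)
      have h6 := card_O3_shift (A := e1) (B := e2) hn
      have h7 := card_tri (n - e3)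
      omega
    · rw [degPart_abc ha hb hc, Pt_of_lt (by omega : n < e3), O3_low (by omega)]
      have h3 : gmul c (⊥ : Submodule K (MvPolynomial (Fin 3) K)) = ⊥ := by
        simp [gmul]
      rw [h3, sup_bot_eq]
      exact h2 n
  exact ⟨h1 n, h2 n, h3 n⟩

end Dims

end Vale.Agent.Lib.P200.Fam
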