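import Vale.Agent.Lib.P200.Fam.BaseChange

namespace Vale.Agent.Lib.P200.Fam

open MvPolynomial Module

variable {K : Type*} [Field K]

/-- Growth in all degrees, over every field. -/
theorem growth_field {f g1 g2 : MvPolynomial (Fin 3) K} {a : ℕ} (hf : f ∈ Hd K 3)
    (hg1 : g1 ∈ Hd K a) (hg2 : g2 ∈ Hd K a) (hreg : RegSeq f g1 g2) (ha : 3 ≤ a) (d : ℕ) :
    GrowthG (GS (3, a, a)) f g1 g2 d := by
  let L := AlgebraicClosure K
  have h := growth_closed (K := L) (f := phi K L f) (g1 := phi K L g1) (g2 := phi K L g2)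
    (IsHomogeneous.map hf _) (IsHomogeneous.map hg1 _) (IsHomogeneous.map hg2 _)
    (regSeq_map hreg) ha d
  exact growth_descent hreg hf hg1 hg2 (by omega) (by omega) h

/-- The monomials of degree `d` in `P`. -/
def inP (e : T3) (d : ℕ) : Finset T3 :=
  (tri d).filter (fun t => ¬ (t.1 < e.1 ∧ t.2.1 < e.2.1 ∧ t.2.2 < e.2.2))

lemma mem_inP {e : T3} {d : ℕ} {t : T3} :
    t ∈ inP e d ↔ t.1 + t.2.1 + t.2.2 = d ∧ (e.1 ≤ t.1 ∨ e.2.1 ≤ t.2.1 ∨ e.2.2 ≤ t.2.2) := by
  simp only [inP, Finset.mem_filter, mem_tri]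
  omega

lemma Pd_eq (e : T3) (d : ℕ) :
    PdE K e d = Submodule.span K (mon K '' ((inP e d : Finset _) : Set T3)) := by
  have h : ((inP e d : Finset _) : Set T3)
      = {t : T3 | t.1 + t.2.1 + t.2.2 = d ∧ (e.1 ≤ t.1 ∨ e.2.1 ≤ t.2.1 ∨ e.2.2 ≤ t.2.2)} := by
    ext t
    simp only [Finset.mem_coe, mem_inP, Set.mem_ofPred_eq]
  rw [h]
  rfl

lemma card_inP (e : T3) (d : ℕ) : (inP e d).card + (outE e d).card = (d + 2).choose 2 := by
  have h1 : outE e d = (tri d).filter (fun t => t.1 < e.1 ∧ t.2.1 < e.2.1 ∧ t.2.2 < e.2.2) := by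
    ext t
    simp only [mem_out, Finset.mem_filter, mem_tri]
    tauto
  rw [h1, inP, ← card_tri, add_comm]
  exact Finset.card_filter_add_card_filter_not _

lemma finrank_Pd (e : T3) (d : ℕ) : finrank K (PdE K e d) = (inP e d).card := by
  rw [Pd_eq, finrank_span_mon]

/-- Multiplication by a variable preserves the monomial spaces. -/
lemma X_mul_Pd (e : T3) (i : Fin 3) (d : ℕ) : ∀ g ∈ PdE K e d, X i * g ∈ PdE K e (d + 1) := by
  have h : PdE K e d ≤ (PdE K e (d + 1)).comap (LinearMap.mulLeft K (X i)) := by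
    rw [PdE, Submodule.span_le]
    rintro _ ⟨t, ⟨h1, h2⟩, rfl⟩
    show X i * mon K t ∈ PdE K e (d + 1)
    rw [X_mul_mon]
    refine Submodule.subset_span ⟨bump i t, ⟨?_, ?_⟩, rfl⟩
    · rw [bump_sum, h1]
    · obtain ⟨e1, e2, e3⟩ := bump_ge i t
      omega
  exact fun g hg => h hg

lemma X_mul_Jd (e : T3) (I : Ideal (MvPolynomial (Fin 3) K)) (i : Fin 3) (d : ℕ)
    (hstep : GS e d (qE e I d) ≤ qE e I (d + 1)) : ∀ g ∈ JE e I d, X i * g ∈ JE e I (d + 1) := by
  have h : JE e I d ≤ (JE e I (d + 1)).comap (LinearMap.mulLeft K (X i)) := by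
    refine sup_le ?_ ?_
    · intro g hg
      exact Submodule.mem_sup_left (X_mul_Pd e i d g hg)
    · rw [Submodule.span_le]
      rintro _ ⟨t, ⟨h1, h2⟩, rfl⟩
      show X i * mon K t ∈ JE e I (d + 1)
      rw [X_mul_mon]
      obtain ⟨e1, e2, e3⟩ := bump_ge i t
      have hs := bump_sum i t
      obtain ⟨⟨t1, t2, t3⟩, t4⟩ := mem_out.mp h1
      by_cases hc : e.1 ≤ (bump i t).1 ∨ e.2.1 ≤ (bump i t).2.1 ∨ e.2.2 ≤ (bump i t).2.2
      · exact Submodule.mem_sup_left (Submodule.subset_span ⟨bump i t, ⟨by omega, hc⟩, rfl⟩)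
      · have hout : bump i t ∈ outE e (d + 1) := mem_out.mpr ⟨by omega, by omega⟩
        have h3 := rank_lt_GS (SH_of_bump h2 hout)
        exact Submodule.mem_sup_right (Submodule.subset_span ⟨bump i t, ⟨hout, by omega⟩, rfl⟩)
  exact fun g hg => h hg

/-- The sum of the `J_d` is an ideal, given the growth. -/
theorem ideal_of_step (e : T3) (I : Ideal (MvPolynomial (Fin 3) K))
    (hstep : ∀ d, GS e d (qE e I d) ≤ qE e I (d + 1)) :
    ∃ 𝔍 : Ideal (MvPolynomial (Fin 3) K), ∀ g, g ∈ 𝔍 ↔ g ∈ ⨆ d, JE e I d := by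
  let W : Submodule K (MvPolynomial (Fin 3) K) := ⨆ d, JE e I d
  have hX : ∀ (i : Fin 3), ∀ g ∈ W, X i * g ∈ W := by
    intro i g hg
    induction hg using Submodule.iSup_induction' with
    | mem d x hx =>
      exact Submodule.mem_iSup_of_mem (d + 1) (X_mul_Jd e I i d (hstep d) x hx)
    | zero => simp
    | add x y _ _ hx hy =>
      rw [mul_add]
      exact W.add_mem hx hy
  have hall : ∀ p : MvPolynomial (Fin 3) K, ∀ g ∈ W, p * g ∈ W := by
    intro p
    induction p using MvPolynomial.induction_on with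
    | C s =>
      intro g hg
      rw [← smul_eq_C_mul]
      exact W.smul_mem s hg
    | add p q hp hq =>
      intro g hg
      rw [add_mul]
      exact W.add_mem (hp g hg) (hq g hg)
    | mul_X p i hp =>
      intro g hg
      rw [mul_assoc]
      exact hp _ (hX i g hg)
  refine ⟨{ carrier := W, add_mem' := W.add_mem, zero_mem' := W.zero_mem,
            smul_mem' := fun p g hg => hall p g hg }, fun g => Iff.rfl⟩

lemma disjoint_parts (e : T3) (d q : ℕ) : Disjoint (inP e d) (topSet e d q) := by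
  rw [Finset.disjoint_left]
  intro t h1 h2
  obtain ⟨_, h3⟩ := mem_inP.mp h1
  obtain ⟨⟨t1, t2, t3⟩, _⟩ := mem_out.mp (mem_topSet.mp h2).1
  omega

lemma Jd_eq (e : T3) (I : Ideal (MvPolynomial (Fin 3) K)) (d : ℕ) :
    JE e I d = Submodule.span K (mon K '' ((inP e d ∪ topSet e d (qE e I d) : Finset _) : Set T3)) := by
  rw [Finset.coe_union, Set.image_union, Submodule.span_union, ← Pd_eq]
  have hset : {t : T3 | t ∈ outE e d ∧ rankE e d t < qE e I d}
      = ((topSet e d (qE e I d) : Finset _) : Set T3) := by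
    ext t
    simp only [topSet, Finset.coe_filter, Set.mem_ofPred_eq]
  rw [JE, hset]

/-- The dimensions of `J_d`. -/
lemma finrank_Jd (e : T3) {I : Ideal (MvPolynomial (Fin 3) K)} {d : ℕ}
    (hF : (inP e d).card ≤ finrank K (degPart I d)) :
    finrank K (JE e I d) = finrank K (degPart I d) := by
  rw [Jd_eq, finrank_span_mon, Finset.card_union_of_disjoint (disjoint_parts _ _ _), card_topSet]
  have hq : qE e I d = finrank K (degPart I d) - (inP e d).card := by
    rw [qE, finrank_Pd]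
  have hle : finrank K (degPart I d) ≤ (d + 2).choose 2 := by
    have := finrank_mono_Hd (inf_le_right : degPart I d ≤ Hd K d) (le_refl _)
    rwa [finrank_Hd] at this
  have hc := card_inP e d
  omega

/-- The Eisenbud-Green-Harris statement for regular sequences of type `(3, a, a)` in three
variables. -/
theorem egh_3aa (a : ℕ) (ha : 3 ≤ a) (f : Fin 3 → MvPolynomial (Fin 3) K)
    (hf : ∀ i, (f i).IsHomogeneous (![3, a, a] i))
    (hreg : ∀ (i : Fin 3) (u : MvPolynomial (Fin 3) K),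
      f i * u ∈ Ideal.span (f '' {j | j < i}) → u ∈ Ideal.span (f '' {j | j < i}))
    (I : Ideal (MvPolynomial (Fin 3) K)) (hI : ∀ i, f i ∈ I) :
    (∃ 𝔍 : Ideal (MvPolynomial (Fin 3) K), ∀ g, g ∈ 𝔍 ↔ g ∈ ⨆ d, JE (3, a, a) I d) ∧
      ∀ d, finrank K (JE (3, a, a) I d) = finrank K (degPart I d) := by
  have h := regSeq_of f hreg
  have h0 : f 0 ∈ Hd K 3 := hf 0
  have h1 : f 1 ∈ Hd K a := hf 1
  have h2 : f 2 ∈ Hd K a := hf 2
  have hspan : Ideal.span {f 0, f 1, f 2} ≤ I := by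
    rw [Ideal.span_le]
    rintro x (rfl | rfl | rfl)
    · exact hI 0
    · exact hI 1
    · exact hI 2
  have hdim : ∀ d, finrank K (degPart (Ideal.span {f 0, f 1, f 2}) d) = (inP (3, a, a) d).card := by
    intro d
    have h3 := (finrank_all h h0 h1 h2 (by omega) (by omega) d).2.2
    have h4 := card_inP (3, a, a) d
    rw [outsideP_eq] at h4
    omega
  have hF : ∀ d, (inP (3, a, a) d).card ≤ finrank K (degPart I d) := by
    intro d
    rw [← hdim]
    exact finrank_mono_Hd (inf_le_inf_right _ hspan) (inf_le_right : degPart I d ≤ Hd K d)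
  refine ⟨ideal_of_step _ I ?_, fun d => finrank_Jd _ (hF d)⟩
  intro d
  have hV : degPart I d ≤ Hd K d := inf_le_right
  have hFV : degPart (Ideal.span {f 0, f 1, f 2}) d ≤ degPart I d := inf_le_inf_right _ hspan
  have h3 := growth_field h0 h1 h2 h ha d (degPart I d) hV hFV
  have h4 : Hd K 1 * degPart I d ⊔ degPart (Ideal.span {f 0, f 1, f 2}) (d + 1) ≤ degPart I (d + 1) := by
    refine sup_le ?_ (inf_le_inf_right _ hspan)
    refine Submodule.mul_le.mpr fun m hm g hg => ?_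
    obtain ⟨h5, h6⟩ := mem_degPart.mp hg
    rw [mem_degPart]
    refine ⟨I.mul_mem_left m h5, ?_⟩
    have := Hd_mul_mem hm h6
    rwa [add_comm] at this
  have h5 := finrank_mono_Hd h4 (inf_le_right : degPart I (d + 1) ≤ Hd K (d + 1))
  rw [hdim, hdim] at h3
  rw [qE, qE, finrank_Pd, finrank_Pd]
  have h6 := hF (d + 1)
  omega

end Vale.Agent.Lib.P200.Fam
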