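import Vale.Agent.Lib.P200.Fam.Socle

namespace Vale.Agent.Lib.P200.Fam

open MvPolynomial Module

variable {K : Type*} [Field K] {a b c : MvPolynomial (Fin 3) K} {e1 e2 e3 s : ℕ}

lemma card_O3_top (he1 : 1 ≤ e1) (he2 : 1 ≤ e2) (he3 : 1 ≤ e3) (hs : e1 + e2 + e3 = s + 3) :
    (O3 e1 e2 e3 s).card = 1 := by
  have : O3 e1 e2 e3 s = {(e1 - 1, e2 - 1, e3 - 1)} := by
    ext t
    rw [mem_O3, Finset.mem_singleton]
    constructor
    · rintro ⟨h1, h2, h3, h4⟩
      ext <;> simp <;> omega
    · rintro rfl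
      simp
      omega
  rw [this, Finset.card_singleton]

/-- The linear functional defining the socle pairing. -/
theorem exists_lamG (h : RegSeq a b c) (ha : a ∈ Hd K e1) (hb : b ∈ Hd K e2) (hc : c ∈ Hd K e3)
    (he1 : 1 ≤ e1) (he2 : 1 ≤ e2) (he3 : 1 ≤ e3) (hs : e1 + e2 + e3 = s + 3) :
    ∃ l : MvPolynomial (Fin 3) K →ₗ[K] K,
      ∀ g ∈ Hd K s, l g = 0 ↔ g ∈ degPart (Ideal.span {a, b, c}) s := by
  have hF := (finrank_all h ha hb hc he1 he2 s).2.2
  rw [card_O3_top he1 he2 he3 hs, ← finrank_Hd (K := K) s] at hF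
  have hle : degPart (Ideal.span {a, b, c}) s ≤ Hd K s := inf_le_right
  have hex : ∃ g0 ∈ Hd K s, g0 ∉ degPart (Ideal.span {a, b, c}) s := by
    by_contra hcon
    push Not at hcon
    have : Hd K s ≤ degPart (Ideal.span {a, b, c}) s := hcon
    have := finrank_mono_Hd this hle
    omega
  obtain ⟨g0, hg0, hg0F⟩ := hex
  obtain ⟨l, hl1, hl2⟩ := Submodule.exists_le_ker_of_notMem hg0F
  refine ⟨l, fun g hg => ⟨fun hlg => ?_, fun hgF => hl2 hgF⟩⟩
  have hsup : degPart (Ideal.span {a, b, c}) s ⊔ Submodule.span K {g0} = Hd K s := by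
    have hle2 : degPart (Ideal.span {a, b, c}) s ⊔ Submodule.span K {g0} ≤ Hd K s :=
      sup_le hle ((Submodule.span_singleton_le_iff_mem _ _).mpr hg0)
    have := fin_of_le hle2
    have hlt : degPart (Ideal.span {a, b, c}) s < degPart (Ideal.span {a, b, c}) s ⊔ Submodule.span K {g0} :=
      lt_of_le_of_ne le_sup_left (fun he => hg0F (by
        rw [he]
        exact Submodule.mem_sup_right (Submodule.mem_span_singleton_self _)))
    have h3 := Submodule.finrank_lt_finrank_of_lt hlt
    exact Submodule.eq_of_le_of_finrank_le hle2 (by omega)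
  rw [← hsup, Submodule.mem_sup] at hg
  obtain ⟨w, hw, z, hz, rfl⟩ := hg
  obtain ⟨t, rfl⟩ := Submodule.mem_span_singleton.mp hz
  rw [map_add, map_smul, hl2 hw, zero_add, smul_eq_mul] at hlg
  have ht : t = 0 := by
    rcases mul_eq_zero.mp hlg with h5 | h5
    · exact h5
    · exact absurd h5 hl1
  rw [ht, zero_smul, add_zero]
  exact hw

variable {l : MvPolynomial (Fin 3) K →ₗ[K] K}

/-- The pairing has left kernel the ideal. -/
theorem left_kernelG (h : RegSeq a b c) (ha : a ∈ Hd K e1) (hb : b ∈ Hd K e2) (hc : c ∈ Hd K e3)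
    (hs : e1 + e2 + e3 = s + 3)
    (hl : ∀ g ∈ Hd K s, l g = 0 ↔ g ∈ degPart (Ideal.span {a, b, c}) s) :
    ∀ k d : ℕ, d + k = s → ∀ u ∈ Hd K d, (∀ v ∈ Hd K k, l (u * v) = 0) →
      u ∈ Ideal.span {a, b, c} := by
  intro k
  induction k with
  | zero =>
    intro d hd u hu hv
    simp only [add_zero] at hd
    subst hd
    have h1 := hv 1 (isHomogeneous_one _ _)
    rw [mul_one] at h1
    exact (mem_degPart.mp ((hl u hu).mp h1)).1
  | succ k ih =>
    intro d hd u hu hv
    refine socle_freeG h ha hb hc hu (by omega) fun i => ?_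
    refine ih (1 + d) (by omega) _ (Hd_mul_mem (X_mem_Hd i) hu) fun v hv' => ?_
    have h1 := hv (X i * v) (by
      have := Hd_mul_mem (X_mem_Hd (K := K) i) hv'
      rwa [add_comm] at this)
    rw [show X i * u * v = u * (X i * v) by ring]
    exact h1

/-- The dimension of the orthogonal complement. -/
theorem finrank_perpG (h : RegSeq a b c) (ha : a ∈ Hd K e1) (hb : b ∈ Hd K e2) (hc : c ∈ Hd K e3)
    (hs : e1 + e2 + e3 = s + 3)
    (hl : ∀ g ∈ Hd K s, l g = 0 ↔ g ∈ degPart (Ideal.span {a, b, c}) s)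
    {d e : ℕ} (hde : d + e = s) {V : Submodule K (MvPolynomial (Fin 3) K)} (hV : V ≤ Hd K d)
    (hFV : degPart (Ideal.span {a, b, c}) d ≤ V) :
    finrank K (perp l V e) + finrank K V
      = finrank K (Hd K e) + finrank K (degPart (Ideal.span {a, b, c}) d) := by
  have := fin_of_le hV
  let B : MvPolynomial (Fin 3) K →ₗ[K] Dual K (MvPolynomial (Fin 3) K) :=
    (LinearMap.mul K (MvPolynomial (Fin 3) K)).compr₂ l
  let ι : V →ₗ[K] Dual K (Hd K e) := ((Hd K e).subtype.dualMap).comp (B.comp V.subtype)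
  have hι : ∀ (u : V) (y : Hd K e), ι u y = l (u.1 * y.1) := fun _ _ => rfl
  have h1 := LinearMap.finrank_range_add_finrank_ker ι
  have hker : finrank K (LinearMap.ker ι) = finrank K (degPart (Ideal.span {a, b, c}) d) := by
    have hk : LinearMap.ker ι = Submodule.comap V.subtype (degPart (Ideal.span {a, b, c}) d) := by
      ext u
      rw [LinearMap.mem_ker, Submodule.mem_comap, Submodule.subtype_apply, mem_degPart]
      constructor
      · intro hu
        refine ⟨left_kernelG h ha hb hc hs hl e d hde u.1 (hV u.2) fun v hv => ?_, hV u.2⟩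
        have := LinearMap.congr_fun hu ⟨v, hv⟩
        rwa [hι] at this
      · rintro ⟨hu1, hu2⟩
        ext y
        rw [hι]
        simp only [LinearMap.zero_apply]
        refine (hl _ ?_).mpr (mem_degPart.mpr ⟨Ideal.mul_mem_right _ _ hu1, ?_⟩)
        · have := Hd_mul_mem hu2 y.2
          rwa [hde] at this
        · have := Hd_mul_mem hu2 y.2
          rwa [hde] at this
    rw [hk]
    exact (Submodule.comapSubtypeEquivOfLe hFV).finrank_eq
  have h2 := Subspace.finrank_add_finrank_dualCoannihilator_eq (LinearMap.range ι)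
  have hco : perp l V e = (LinearMap.range ι).dualCoannihilator.map (Hd K e).subtype := by
    ext v
    rw [mem_perp, Submodule.mem_map]
    constructor
    · rintro ⟨hv1, hv2⟩
      refine ⟨⟨v, hv1⟩, ?_, rfl⟩
      rw [Submodule.mem_dualCoannihilator]
      rintro φ ⟨u, rfl⟩
      rw [hι]
      exact hv2 u.1 u.2
    · rintro ⟨y, hy, rfl⟩
      refine ⟨y.2, fun u hu => ?_⟩
      rw [Submodule.mem_dualCoannihilator] at hy
      have := hy (ι ⟨u, hu⟩) ⟨_, rfl⟩
      rwa [hι] at this
  have h3 : finrank K (perp l V e) = finrank K (LinearMap.range ι).dualCoannihilator := by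
    rw [hco]
    exact Submodule.finrank_map_subtype_eq _ _
  rw [hker] at h1
  omega

/-- The growth statement in degree `d` relative to a numerical table. -/
def GrowthG (G : ℕ → ℕ → ℕ) (a b c : MvPolynomial (Fin 3) K) (d : ℕ) : Prop :=
  ∀ V : Submodule K (MvPolynomial (Fin 3) K), V ≤ Hd K d → degPart (Ideal.span {a, b, c}) d ≤ V →
    finrank K (degPart (Ideal.span {a, b, c}) (d + 1))
        + G d (finrank K V - finrank K (degPart (Ideal.span {a, b, c}) d))
      ≤ finrank K ↥(Hd K 1 * V ⊔ degPart (Ideal.span {a, b, c}) (d + 1))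

/-- The duality step. -/
theorem growth_dualG {G : ℕ → ℕ → ℕ} (h : RegSeq a b c) (ha : a ∈ Hd K e1) (hb : b ∈ Hd K e2)
    (hc : c ∈ Hd K e3) (he1 : 1 ≤ e1) (he2 : 1 ≤ e2) (he3 : 1 ≤ e3) (hs : e1 + e2 + e3 = s + 3)
    {d e : ℕ} (hde : d + 1 + e = s)
    (htab : ∀ v t, v ≤ (O3 e1 e2 e3 d).card → t ≤ (O3 e1 e2 e3 e).card →
      G e t + v ≤ (O3 e1 e2 e3 (e + 1)).card → G d v + t ≤ (O3 e1 e2 e3 e).card)
    (hg : GrowthG G a b c e) : GrowthG G a b c d := by
  intro V hV hFV
  obtain ⟨l, hl⟩ := exists_lamG h ha hb hc he1 he2 he3 hs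
  let U := Hd K 1 * V ⊔ degPart (Ideal.span {a, b, c}) (d + 1)
  have hU : U ≤ Hd K (d + 1) := sup_le (mul_le_Hd hV) inf_le_right
  let T := perp l U e
  have hT : T ≤ Hd K e := fun _ hx => hx.1
  have hFT : degPart (Ideal.span {a, b, c}) e ≤ T := by
    intro w hw
    refine ⟨(mem_degPart.mp hw).2, fun u hu => ?_⟩
    refine (hl _ ?_).mpr ?_
    · have := Hd_mul_mem (hU hu) (mem_degPart.mp hw).2
      rwa [hde] at this
    · rw [mul_comm]
      exact degPart_mul (by omega) hw (hU hu)
  have h1 : finrank K T + finrank K U = finrank K (Hd K e)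
      + finrank K (degPart (Ideal.span {a, b, c}) (d + 1)) :=
    finrank_perpG h ha hb hc hs hl hde hU le_sup_right
  have h2 := hg T hT hFT
  have hT' : Hd K 1 * T ⊔ degPart (Ideal.span {a, b, c}) (e + 1) ≤ perp l V (e + 1) := by
    refine sup_le ?_ ?_
    · rw [Submodule.mul_le]
      intro x hx t ht
      refine ⟨?_, fun u hu => ?_⟩
      · have := Hd_mul_mem hx ht.1
        rwa [add_comm] at this
      · have h3 := ht.2 (x * u) (Submodule.mem_sup_left (Submodule.mul_mem_mul hx hu))
        rwa [show x * u * t = u * (x * t) by ring] at h3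
    · intro w hw
      refine ⟨(mem_degPart.mp hw).2, fun u hu => ?_⟩
      refine (hl _ ?_).mpr ?_
      · have := Hd_mul_mem (hV hu) (mem_degPart.mp hw).2
        rwa [show d + (e + 1) = s by omega] at this
      · rw [mul_comm]
        exact degPart_mul (by omega) hw (hV hu)
  have hperpV : perp l V (e + 1) ≤ Hd K (e + 1) := fun _ hx => hx.1
  have h3 := finrank_mono_Hd hT' hperpV
  have h4 := finrank_perpG h ha hb hc hs hl (by omega : d + (e + 1) = s) hV hFV
  have hall := fun n => (finrank_all h ha hb hc he1 he2 n).2.2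
  have hFd := hall d
  have hFd1 := hall (d + 1)
  have hFe := hall e
  have hFe1 := hall (e + 1)
  have hv1 := finrank_mono_Hd hFV hV
  have hv2 := finrank_mono_Hd hV (le_refl _)
  have ht1 := finrank_mono_Hd hFT hT
  have ht2 := finrank_mono_Hd hT (le_refl _)
  have hs1 := finrank_Hd (K := K) d
  have hs2 := finrank_Hd (K := K) e
  have hs3 := finrank_Hd (K := K) (e + 1)
  rw [hs1] at hv2
  rw [hs2] at h1 ht2
  rw [hs3] at h4
  change finrank K (degPart (Ideal.span {a, b, c}) (d + 1)) + G d (finrank K V - finrank K (degPart (Ideal.span {a, b, c}) d)) ≤ finrank K ↥U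
  have h23 := le_trans h2 h3
  have hkey := htab (finrank K V - finrank K (degPart (Ideal.span {a, b, c}) d)) (finrank K T - finrank K (degPart (Ideal.span {a, b, c}) e))
    (by omega) (by omega) (by omega)
  omega

end Vale.Agent.Lib.P200.Fam
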