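import Vale.Agent.Lib.P200.Fam.Pair

namespace Vale.Agent.Lib.P200.Fam

open MvPolynomial Module

variable {K : Type*} [Field K]

/-- The abstract persistence statement in general degree. -/
theorem persist_coreG {A : Type*} [AddCommGroup A] [Module K A] [Nontrivial A] {d : ℕ}
    {V U : Submodule K (MvPolynomial (Fin 3) K)} {l : MvPolynomial (Fin 3) K}
    (ρ : MvPolynomial (Fin 3) K →ₗ[K] A) (σ : A →ₗ[K] MvPolynomial (Fin 3) K)
    (θ : MvPolynomial (Fin 3) K →ₗ[K] A) (hV : V ≤ Hd K (d + 1)) (hl : l ∈ Hd K 1)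
    (hσ1 : ∀ y, σ y ∈ Hd K (d + 1)) (hσ2 : ∀ y, ρ (σ y) = y)
    (hρ1 : ∀ g ∈ Hd K (d + 1), ρ g = 0 → g ∈ V) (hρ2 : ∀ g ∈ V, ρ g = 0)
    (hθ1 : ∀ g ∈ Hd K (d + 1), θ (l * g) = ρ g)
    (hθ2 : ∀ m ∈ Hd K 1, ∀ g ∈ V, θ (m * g) = 0)
    (hθ3 : ∀ g ∈ U, θ g = 0) (hU : U ≤ Hd K (d + 2))
    (hsurj : V ⊔ gmul l (Hd K d) = Hd K (d + 1)) (k : ℕ) :
    l ^ k ∉ Ideal.span (U : Set (MvPolynomial (Fin 3) K)) := by
  -- the operators
  let R : MvPolynomial (Fin 3) K → Module.End K A := fun m => θ ∘ₗ (LinearMap.mulLeft K m) ∘ₗ σ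
  have hRapp : ∀ m y, R m y = θ (m * σ y) := fun _ _ => rfl
  have hRrho : ∀ m ∈ Hd K 1, ∀ g ∈ Hd K (d + 1), R m (ρ g) = θ (m * g) := by
    intro m hm g hg
    rw [hRapp]
    have h1 : g - σ (ρ g) ∈ V := by
      refine hρ1 _ (Submodule.sub_mem _ hg (hσ1 _)) ?_
      rw [map_sub, hσ2, sub_self]
    have h2 := hθ2 m hm _ h1
    rw [mul_sub, map_sub, sub_eq_zero] at h2
    exact h2.symm
  have hRl : ∀ y, R l y = y := by
    intro y
    rw [hRapp, hθ1 _ (hσ1 y), hσ2]
  have hrep : ∀ y, ∃ n ∈ Hd K d, y = ρ (l * n) := by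
    intro y
    have h1 : σ y ∈ V ⊔ gmul l (Hd K d) := by
      rw [hsurj]
      exact hσ1 y
    obtain ⟨v, hv, w, hw, hvw⟩ := Submodule.mem_sup.mp h1
    obtain ⟨n, hn, rfl⟩ := mem_gmul.mp hw
    refine ⟨n, hn, ?_⟩
    have h2 := hσ2 y
    rw [← hvw, map_add, hρ2 v hv, zero_add] at h2
    exact h2.symm
  have hRln : ∀ m ∈ Hd K 1, ∀ n ∈ Hd K d, R m (ρ (l * n)) = ρ (m * n) := by
    intro m hm n hn
    have hln : l * n ∈ Hd K (d + 1) := by
      have := Hd_mul_mem hl hn
      rwa [add_comm] at this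
    have hmn : m * n ∈ Hd K (d + 1) := by
      have := Hd_mul_mem hm hn
      rwa [add_comm] at this
    rw [hRrho m hm _ hln]
    rw [show m * (l * n) = l * (m * n) by ring]
    exact hθ1 _ hmn
  have hcomm : ∀ i j : Fin 3, R (X i) * R (X j) = R (X j) * R (X i) := by
    intro i j
    ext y
    obtain ⟨n, hn, rfl⟩ := hrep y
    simp only [Module.End.mul_apply]
    have h1 : X j * n ∈ Hd K (d + 1) := by
      have := Hd_mul_mem (X_mem_Hd (K := K) j) hn
      rwa [add_comm] at this
    have h2 : X i * n ∈ Hd K (d + 1) := by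
      have := Hd_mul_mem (X_mem_Hd (K := K) i) hn
      rwa [add_comm] at this
    rw [hRln _ (X_mem_Hd j) _ hn, hRln _ (X_mem_Hd i) _ hn,
      hRrho _ (X_mem_Hd i) _ h1, hRrho _ (X_mem_Hd j) _ h2]
    rw [show (X i : MvPolynomial (Fin 3) K) * (X j * n) = X j * (X i * n) by ring]
  obtain ⟨E, hE⟩ := exists_ev (fun i => R (X i)) hcomm
  -- the operators of linear forms
  have hElin0 : ∀ m ∈ Submodule.span K (Set.range (X : Fin 3 → MvPolynomial (Fin 3) K)),
      E m = R m := by
    intro m hm'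
    induction hm' using Submodule.span_induction with
    | mem y hy =>
      obtain ⟨i, rfl⟩ := hy
      exact hE i
    | zero =>
      rw [map_zero]
      ext y
      simp [hRapp]
    | add a b _ _ iha ihb =>
      rw [map_add, iha, ihb]
      ext y
      simp [hRapp, add_mul]
    | smul c a _ iha =>
      rw [map_smul, iha]
      ext y
      simp [hRapp]
  have hElin : ∀ m ∈ Hd K 1, E m = R m := by
    intro m hm
    apply hElin0
    rw [← homogeneousSubmodule_one_eq_span_X]
    exact hm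
  -- the value on the distinguished element, in all degrees up to `d + 1`
  have hval : ∀ e, e ≤ d + 1 → ∀ g ∈ Hd K e, E g (ρ (l ^ (d + 1))) = ρ (l ^ (d + 1 - e) * g) := by
    intro e
    induction e with
    | zero =>
      intro _ g hg
      have hg' : g = C (coeff 0 g) := by
        by_cases h0 : g = 0
        · simp [h0]
        · have := totalDegree_of_Hd hg h0
          exact totalDegree_eq_zero_iff_eq_C.mp this
      rw [hg']
      have h1 : E (C (coeff 0 g)) = algebraMap K _ (coeff 0 g) := E.commutes (coeff 0 g)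
      rw [h1, ← MvPolynomial.algebraMap_eq, Nat.sub_zero, mul_comm, ← Algebra.smul_def, map_smul]
      rw [Module.algebraMap_end_apply]
    | succ e ih =>
      intro he g hg
      have h2 : g ∈ Hd K 1 * Hd K e := by
        rw [Hd_one_mul e]
        exact hg
      clear hg
      induction h2 using Submodule.mul_induction_on' with
      | mem_mul_mem m hm n hn =>
        have h3 : d + 1 - e = (d - e) + 1 := by omega
        have h4 : d + 1 - (e + 1) = d - e := by omega
        have hle : l ^ (d - e) * n ∈ Hd K d := by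
          have := Hd_mul_mem (IsHomogeneous.pow hl (d - e)) hn
          rwa [show 1 * (d - e) + e = d by omega] at this
        rw [map_mul, Module.End.mul_apply, ih (by omega) n hn, hElin m hm, h3, h4, pow_succ',
          mul_assoc, hRln m hm _ hle]
        congr 1
        ring
      | add a _ b _ iha ihb =>
        rw [map_add, LinearMap.add_apply, iha, ihb, mul_add, map_add]
  have hvalθ : ∀ w ∈ Hd K (d + 2), E w (ρ (l ^ (d + 1))) = θ w := by
    intro w hw
    have h2 : w ∈ Hd K 1 * Hd K (d + 1) := by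
      rw [Hd_one_mul (d + 1)]
      exact hw
    clear hw
    induction h2 using Submodule.mul_induction_on' with
    | mem_mul_mem m hm n hn =>
      rw [map_mul, Module.End.mul_apply, hval (d + 1) le_rfl n hn, hElin m hm, Nat.sub_self,
        pow_zero, one_mul, hRrho m hm n hn]
    | add a _ b _ iha ihb =>
      rw [map_add, LinearMap.add_apply, iha, ihb, map_add]
  have hUzero : ∀ w ∈ U, E w = 0 := by
    intro w hw
    ext y
    have h1 : y = E (σ y) (ρ (l ^ (d + 1))) := by
      rw [hval (d + 1) le_rfl _ (hσ1 y), Nat.sub_self, pow_zero, one_mul, hσ2]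
    have h2 : E w (ρ (l ^ (d + 1))) = 0 := by
      rw [hvalθ w (hU hw)]
      exact hθ3 w hw
    have h3 : E w * E (σ y) = E (σ y) * E w := by
      rw [← map_mul, ← map_mul, mul_comm]
    rw [h1]
    have h4 := congrArg (fun F : Module.End K A => F (ρ (l ^ (d + 1)))) h3
    simp only [Module.End.mul_apply] at h4
    rw [h4, h2, map_zero]
    simp
  -- conclusion
  intro hmem
  have hker : Ideal.span (U : Set (MvPolynomial (Fin 3) K)) ≤ RingHom.ker E.toRingHom := by
    rw [Ideal.span_le]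
    intro g hg
    exact hUzero g hg
  have h5 : E (l ^ k) = 0 := hker hmem
  have h6 : E l = 1 := by
    rw [hElin l hl]
    ext y
    exact hRl y
  rw [map_pow, h6, one_pow] at h5
  obtain ⟨y, hy⟩ := exists_ne (0 : A)
  have h7 := congrArg (fun F : Module.End K A => F y) h5
  simp at h7
  exact hy h7

/-- Persistence, from the injectivity of multiplication by a linear form, in general degree. -/
theorem persist_of_injG {d : ℕ} {V U : Submodule K (MvPolynomial (Fin 3) K)}
    {l : MvPolynomial (Fin 3) K}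
    (hV : V ≤ Hd K (d + 1)) (hU : U ≤ Hd K (d + 2)) (hl : l ∈ Hd K 1) (hVU : Hd K 1 * V ≤ U)
    (hinj : ∀ g ∈ Hd K (d + 1), l * g ∈ U → g ∈ V)
    (hrank : finrank K U + finrank K (Hd K (d + 1)) = finrank K V + finrank K (Hd K (d + 2)))
    (hnon : finrank K V < finrank K (Hd K (d + 1)))
    (hsurj : V ⊔ gmul l (Hd K d) = Hd K (d + 1)) (k : ℕ) :
    l ^ k ∉ Ideal.span (U : Set (MvPolynomial (Fin 3) K)) := by
  obtain ⟨σ, hσ1, hσ2⟩ := exists_sigma (K := K) (d + 1) V
  have hA := finrank_Qt hV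
  have hB := finrank_Qt hU
  have hAB : finrank K (Qt K (d + 1) V) = finrank K (Qt K (d + 2) U) := by omega
  haveI : Nontrivial (Qt K (d + 1) V) := by
    have : 0 < finrank K (Qt K (d + 1) V) := by omega
    exact Module.nontrivial_of_finrank_pos this
  let T : Qt K (d + 1) V →ₗ[K] Qt K (d + 2) U := rho (d + 2) U ∘ₗ LinearMap.mulLeft K l ∘ₗ σ
  have hTapp : ∀ y, T y = rho (d + 2) U (l * σ y) := fun _ => rfl
  have hlg : ∀ {g : MvPolynomial (Fin 3) K}, g ∈ Hd K (d + 1) → l * g ∈ Hd K (d + 2) := by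
    intro g hg
    have := Hd_mul_mem hl hg
    rwa [show 1 + (d + 1) = d + 2 by omega] at this
  have hTinj : Function.Injective T := by
    rw [← LinearMap.ker_eq_bot, LinearMap.ker_eq_bot']
    intro y hy
    rw [hTapp, rho_eq_zero_iff (hlg (hσ1 y))] at hy
    have h1 := hinj _ (hσ1 y) hy
    rw [← hσ2 y]
    exact (rho_eq_zero_iff (hσ1 y)).mpr h1
  have hTsurj : Function.Surjective T :=
    (LinearMap.injective_iff_surjective_of_finrank_eq_finrank hAB).mp hTinj
  let e : Qt K (d + 1) V ≃ₗ[K] Qt K (d + 2) U := LinearEquiv.ofBijective T ⟨hTinj, hTsurj⟩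
  have he : ∀ y, e y = T y := fun _ => rfl
  let θ : MvPolynomial (Fin 3) K →ₗ[K] Qt K (d + 1) V := e.symm.toLinearMap ∘ₗ rho (d + 2) U
  refine persist_coreG (rho (d + 1) V) σ θ hV hl hσ1 hσ2
    (fun g hg h0 => (rho_eq_zero_iff hg).mp h0)
    (fun g hg => (rho_eq_zero_iff (hV hg)).mpr hg) ?_ ?_ ?_ hU hsurj k
  · intro g hg
    show e.symm (rho (d + 2) U (l * g)) = rho (d + 1) V g
    rw [LinearEquiv.symm_apply_eq, he, hTapp, ← sub_eq_zero, ← map_sub, ← mul_sub,
      rho_eq_zero_iff (hlg (Submodule.sub_mem _ hg (hσ1 _)))]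
    exact hVU (Submodule.mul_mem_mul hl (sub_sigma_mem hσ1 hσ2 hg))
  · intro m hm g hg
    show e.symm (rho (d + 2) U (m * g)) = 0
    have h1 : m * g ∈ U := hVU (Submodule.mul_mem_mul hm hg)
    rw [(rho_eq_zero_iff (hU h1)).mpr h1, map_zero]
  · intro g hg
    show e.symm (rho (d + 2) U g) = 0
    rw [(rho_eq_zero_iff (hU hg)).mpr hg, map_zero]

end Vale.Agent.Lib.P200.Fam
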