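import Vale.Agent.Lib.P200.Fam.Chart

namespace Vale.Agent.Lib.P200.Fam

open MvPolynomial Module

variable {K : Type*} [Field K]

/-- The multiples of `f` in degree `n`. -/
noncomputable def Fm (f : MvPolynomial (Fin 3) K) (n : ℕ) : Submodule K (MvPolynomial (Fin 3) K) :=
  gmul f (Pt K n 3)

/-- The slice of a subspace by a linear form `l`. -/
noncomputable def slice (l : MvPolynomial (Fin 3) K) (n : ℕ)
    (U : Submodule K (MvPolynomial (Fin 3) K)) : Submodule K (MvPolynomial (Fin 3) K) :=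
  U.comap (LinearMap.mulLeft K l) ⊓ Hd K n

/-- The subspace generated in degree `d + 1` by `V` and the multiples of `f`. -/
noncomputable def Up (f : MvPolynomial (Fin 3) K) (V : Submodule K (MvPolynomial (Fin 3) K))
    (d : ℕ) : Submodule K (MvPolynomial (Fin 3) K) :=
  Hd K 1 * V ⊔ Fm f (d + 1)

lemma mem_slice {l x : MvPolynomial (Fin 3) K} {n : ℕ} {U : Submodule K (MvPolynomial (Fin 3) K)} :
    x ∈ slice l n U ↔ l * x ∈ U ∧ x ∈ Hd K n := by
  simp [slice, Submodule.mem_inf]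

lemma slice_le (l : MvPolynomial (Fin 3) K) (n : ℕ) (U : Submodule K (MvPolynomial (Fin 3) K)) :
    slice l n U ≤ Hd K n := inf_le_right

section FmLemmas

variable {f : MvPolynomial (Fin 3) K}

lemma Fm_le (hf : f ∈ Hd K 3) (n : ℕ) : Fm f n ≤ Hd K n := gmul_Pt_le hf

lemma finrank_Fm (hf0 : f ≠ 0) (n : ℕ) : finrank K (Fm f n) = finrank K (Pt K n 3) :=
  finrank_gmul hf0 _

lemma finrank_Fm_succ (hf0 : f ≠ 0) (d : ℕ) : finrank K (Fm f (d + 1)) = d.choose 2 := by
  rw [finrank_Fm hf0]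
  by_cases h : 3 ≤ d + 1
  · rw [Pt_of_le h, finrank_Hd, show d + 1 - 3 + 2 = d by omega]
  · rw [Pt_of_lt (by omega)]
    have hd : d < 2 := by omega
    rw [finrank_bot, Nat.choose_eq_zero_of_lt hd]

lemma finrank_Fm_zero (hf0 : f ≠ 0) : finrank K (Fm f 0) = 0 := by
  rw [finrank_Fm hf0, Pt_of_lt (by omega), finrank_bot]

lemma lin_mul_Fm {m u : MvPolynomial (Fin 3) K} {n : ℕ} (hm : m ∈ Hd K 1) (hu : u ∈ Fm f n) :
    m * u ∈ Fm f (n + 1) := by
  obtain ⟨g, hg, rfl⟩ := mem_gmul.mp hu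
  refine mem_gmul.mpr ⟨m * g, ?_, by ring⟩
  rw [mul_comm]
  have := Pt_mul (n := n + 1) (e := 3) (e' := 0) (x := g) (g := m)
  by_cases h : 3 ≤ n
  · rw [Pt_of_le h] at hg
    rw [Pt_of_le (by omega)]
    have := Hd_mul_mem hg hm
    rwa [show n - 3 + 1 = n + 1 - 3 by omega] at this
  · rw [Pt_of_lt (by omega)] at hg
    rw [(Submodule.mem_bot K).mp hg, zero_mul]
    exact Submodule.zero_mem _

lemma Fm_dvd {u : MvPolynomial (Fin 3) K} {n : ℕ} (hu : u ∈ Fm f n) : f ∣ u := by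
  obtain ⟨g, _, rfl⟩ := mem_gmul.mp hu
  exact Dvd.intro _ rfl

lemma mul_le_succ {V : Submodule K (MvPolynomial (Fin 3) K)} {d : ℕ} (hV : V ≤ Hd K d) :
    Hd K 1 * V ≤ Hd K (d + 1) := mul_le_Hd hV

lemma Up_le (hf : f ∈ Hd K 3) {V : Submodule K (MvPolynomial (Fin 3) K)} {d : ℕ}
    (hV : V ≤ Hd K d) : Up f V d ≤ Hd K (d + 1) :=
  sup_le (mul_le_Hd hV) (Fm_le hf _)

lemma Fm_le_Up (V : Submodule K (MvPolynomial (Fin 3) K)) (d : ℕ) : Fm f (d + 1) ≤ Up f V d :=
  le_sup_right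

lemma mul_mem_Up {V : Submodule K (MvPolynomial (Fin 3) K)} (d : ℕ)
    {m v : MvPolynomial (Fin 3) K} (hm : m ∈ Hd K 1) (hv : v ∈ V) : m * v ∈ Up f V d :=
  Submodule.mem_sup_left (Submodule.mul_mem_mul hm hv)

end FmLemmas

section ChartSlice

variable [Infinite K] {f : MvPolynomial (Fin 3) K} {α β : K} (c : K)

/-- The coordinate ring of the intersection of the line with the cubic. -/
abbrev AQ (f : MvPolynomial (Fin 3) K) (α β c : K) : Type _ :=
  Polynomial K ⧸ Ideal.span {piC α β c f}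

/-- The restriction map to the intersection of the line with the cubic. -/
noncomputable def rhoC (f : MvPolynomial (Fin 3) K) (α β c : K) :
    MvPolynomial (Fin 3) K →ₐ[K] AQ f α β c :=
  (Ideal.Quotient.mkₐ K (Ideal.span {piC α β c f})).comp (piC α β c)

lemma rhoC_f : rhoC f α β c f = 0 := by
  simp only [rhoC, AlgHom.comp_apply, Ideal.Quotient.mkₐ_eq_mk]
  exact Ideal.Quotient.eq_zero_iff_mem.mpr (Ideal.mem_span_singleton_self _)

lemma rhoC_l : rhoC f α β c (lF α β c) = 0 := by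
  simp only [rhoC, AlgHom.comp_apply, piC_lF, map_zero]

lemma rhoC_t : rhoC f α β c (tF β) = 1 := by
  simp only [rhoC, AlgHom.comp_apply, piC_tF, map_one]

lemma natDegree_phi (hf : f ∈ Hd K 3) (hQ : eval ![1, α, β] f ≠ 0) :
    (piC α β c f).natDegree = 3 := by
  obtain ⟨h1, h2⟩ := piC_deg α β c 3 hf
  refine le_antisymm h1 ?_
  refine Polynomial.le_natDegree_of_ne_zero ?_
  rw [h2]
  exact hQ

lemma phi_ne_zero (hf : f ∈ Hd K 3) (hQ : eval ![1, α, β] f ≠ 0) : piC α β c f ≠ 0 := by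
  intro h0
  have := natDegree_phi c hf hQ
  rw [h0] at this
  simp at this

lemma finrank_AQ (hf : f ∈ Hd K 3) (hQ : eval ![1, α, β] f ≠ 0) :
    finrank K (AQ f α β c) = 3 := by
  rw [finrank_quotient_span_eq_natDegree, natDegree_phi c hf hQ]

lemma f_ne_zero_of (hQ : eval ![1, α, β] f ≠ 0) : f ≠ 0 := by
  rintro rfl
  simp at hQ

/-- The kernel of the restriction map in degree `n + 1`. -/
theorem rho_ker (hf : f ∈ Hd K 3) (hQ : eval ![1, α, β] f ≠ 0) {n : ℕ}
    {h : MvPolynomial (Fin 3) K} (hh : h ∈ Hd K (n + 1)) :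
    rhoC f α β c h = 0 ↔ h ∈ gmul (lF α β c) (Hd K n) ⊔ Fm f (n + 1) := by
  constructor
  · intro h0
    simp only [rhoC, AlgHom.comp_apply, Ideal.Quotient.mkₐ_eq_mk] at h0
    obtain ⟨B, hB⟩ := Ideal.mem_span_singleton'.mp (Ideal.Quotient.eq_zero_iff_mem.mp h0)
    have hφ := natDegree_phi c hf hQ
    have hφ0 := phi_ne_zero c hf hQ
    obtain ⟨hdeg, -⟩ := piC_deg α β c (n + 1) hh
    -- lift `B`
    have hlift : ∃ g ∈ Pt K (n + 1) 3, piC α β c g = B := by
      by_cases hB0 : B = 0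
      · exact ⟨0, Submodule.zero_mem _, by simp [hB0]⟩
      · have h1 : B.natDegree + 3 ≤ n + 1 := by
          rw [← hB, Polynomial.natDegree_mul hB0 hφ0, hφ] at hdeg
          exact hdeg
        obtain ⟨g, hg, hgB⟩ := piC_lift α β c (n + 1 - 3) (A := B) (by omega)
        refine ⟨g, ?_, hgB⟩
        rw [Pt_of_le (by omega)]
        exact hg
    obtain ⟨g, hg, hgB⟩ := hlift
    have hfg : f * g ∈ Fm f (n + 1) := mul_mem_gmul hg
    have hdiff : h - f * g ∈ Hd K (n + 1) := Submodule.sub_mem _ hh (Fm_le hf _ hfg)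
    have hπ : piC α β c (h - f * g) = 0 := by
      rw [map_sub, map_mul, hgB, ← hB, mul_comm, sub_self]
    obtain ⟨r, hr⟩ := lF_dvd_of_piC α β c hdiff hπ
    have hr' := homog_quot (e := 1) (k := n) (lF_mem α β c) (by rwa [add_comm]) hr
    refine Submodule.mem_sup.mpr ⟨_, mem_gmul.mpr ⟨homogeneousComponent n r,
      homogeneousComponent_mem _ _, hr'.symm⟩, f * g, hfg, by ring⟩
  · intro hmem
    obtain ⟨x, hx, y, hy, rfl⟩ := Submodule.mem_sup.mp hmem
    obtain ⟨r, _, rfl⟩ := mem_gmul.mp hx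
    obtain ⟨g, _, rfl⟩ := mem_gmul.mp hy
    rw [map_add, map_mul, map_mul, rhoC_l, rhoC_f, zero_mul, zero_mul, add_zero]

/-- The linear form does not divide `f`. -/
lemma l_not_dvd (hf : f ∈ Hd K 3) (hQ : eval ![1, α, β] f ≠ 0) : ¬ lF α β c ∣ f := by
  rintro ⟨r, hr⟩
  apply phi_ne_zero c hf hQ
  rw [hr, map_mul, piC_lF, zero_mul]

omit [Infinite K] in
lemma lF_ne_zero (α β c : K) : lF α β c ≠ 0 := by
  intro h0
  have h1 := congrArg (eval ![0, 1, 0]) h0
  simp [lF, tF] at h1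

/-- Multiples of `f` in a slice. -/
lemma Fm_le_slice {V : Submodule K (MvPolynomial (Fin 3) K)} {n : ℕ} (hf : f ∈ Hd K 3)
    (hFV : Fm f (n + 1) ≤ V) : Fm f n ≤ slice (lF α β c) n V := by
  intro x hx
  refine mem_slice.mpr ⟨hFV (lin_mul_Fm (lF_mem α β c) hx), Fm_le hf n hx⟩

/-- The intersection of the multiples of `l` and of `f`. -/
lemma inf_slice_Fm (hf : f ∈ Hd K 3) (hQ : eval ![1, α, β] f ≠ 0)
    {V : Submodule K (MvPolynomial (Fin 3) K)} {n : ℕ} (hFV : Fm f (n + 1) ≤ V) :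
    gmul (lF α β c) (slice (lF α β c) n V) ⊓ Fm f (n + 1) = gmul (lF α β c) (Fm f n) := by
  have hl := lF_mem α β c
  have hprime := lin_prime hl (lF_ne_zero α β c)
  apply le_antisymm
  · rintro x ⟨hx1, hx2⟩
    obtain ⟨r, hr, rfl⟩ := mem_gmul.mp hx1
    obtain ⟨g, hg, hfg⟩ := mem_gmul.mp hx2
    have hdvd : lF α β c ∣ f * g := ⟨r, hfg⟩
    obtain ⟨g₁, hg₁⟩ := (hprime.dvd_or_dvd hdvd).resolve_left (l_not_dvd c hf hQ)
    have h1 : g = cp (n + 1) 4 g₁ * lF α β c := by
      have h2 := cp_mul (n := n + 1) (e := 3) hl g₁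
      rw [mul_comm g₁, ← hg₁, cp_of_mem hg] at h2
      exact h2
    refine mem_gmul.mpr ⟨f * cp (n + 1) 4 g₁, ?_, ?_⟩
    · refine mul_mem_gmul ?_
      have h3 : cp (n + 1) 4 g₁ ∈ Pt K (n + 1) 4 := cp_mem _ _ _
      by_cases hn : 3 ≤ n
      · rw [Pt_of_le (by omega)] at h3
        rw [Pt_of_le hn]
        rwa [show n + 1 - 4 = n - 3 by omega] at h3
      · rw [Pt_of_lt (by omega)] at h3
        rw [Pt_of_lt (by omega)]
        exact h3
    · have h4 : lF α β c * r = f * g := hfg.symm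
      rw [h4, h1]
      ring
  · intro x hx
    obtain ⟨u, hu, rfl⟩ := mem_gmul.mp hx
    refine ⟨mul_mem_gmul ((Fm_le_slice c hf hFV) hu), lin_mul_Fm hl hu⟩

/-- The dimension formula for slices. -/
theorem slice_dim (hf : f ∈ Hd K 3) (hQ : eval ![1, α, β] f ≠ 0)
    {V : Submodule K (MvPolynomial (Fin 3) K)} {n : ℕ} (hV : V ≤ Hd K (n + 1))
    (hFV : Fm f (n + 1) ≤ V) :
    finrank K V + finrank K (Fm f n)
      = finrank K (V.map (rhoC f α β c).toLinearMap) + finrank K (Fm f (n + 1))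
        + finrank K (slice (lF α β c) n V) := by
  have hl := lF_mem α β c
  have hl0 := lF_ne_zero α β c
  have := fin_of_le hV
  set ρ := (rhoC f α β c).toLinearMap with hρ
  have h1 := LinearMap.finrank_range_add_finrank_ker (ρ.domRestrict V)
  rw [LinearMap.range_domRestrict, LinearMap.ker_domRestrict] at h1
  have hW : V ⊓ LinearMap.ker ρ = gmul (lF α β c) (slice (lF α β c) n V) ⊔ Fm f (n + 1) := by
    apply le_antisymm
    · rintro x ⟨hx1, hx2⟩
      have hx3 : rhoC f α β c x = 0 := hx2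
      rw [rho_ker c hf hQ (hV hx1)] at hx3
      obtain ⟨y, hy, z, hz, rfl⟩ := Submodule.mem_sup.mp hx3
      obtain ⟨r, hr, rfl⟩ := mem_gmul.mp hy
      refine Submodule.mem_sup.mpr ⟨_, mul_mem_gmul (mem_slice.mpr ⟨?_, hr⟩), z, hz, rfl⟩
      have h3 := V.sub_mem hx1 (hFV hz)
      rwa [add_sub_cancel_right] at h3
    · refine sup_le ?_ ?_
      · intro x hx
        obtain ⟨r, hr, rfl⟩ := mem_gmul.mp hx
        refine ⟨(mem_slice.mp hr).1, ?_⟩
        show rhoC f α β c _ = 0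
        rw [map_mul, rhoC_l, zero_mul]
      · intro x hx
        refine ⟨hFV hx, ?_⟩
        obtain ⟨g, _, rfl⟩ := mem_gmul.mp hx
        show rhoC f α β c _ = 0
        rw [map_mul, rhoC_f, zero_mul]
  have h2 : finrank K ↥((LinearMap.ker ρ).comap V.subtype) = finrank K ↥(V ⊓ LinearMap.ker ρ) := by
    have h3 : (LinearMap.ker ρ).comap V.subtype = (V ⊓ LinearMap.ker ρ).comap V.subtype := by
      ext x
      simp
    rw [h3]
    exact (Submodule.comapSubtypeEquivOfLe inf_le_left).finrank_eq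
  have h4 : gmul (lF α β c) (slice (lF α β c) n V) ≤ Hd K (n + 1) := by
    have := gmul_le_Hd hl (slice_le (lF α β c) n V)
    rwa [add_comm] at this
  have hF := Fm_le hf (n + 1)
  have := fin_of_le h4
  have := fin_of_le hF
  have h5 := Submodule.finrank_sup_add_finrank_inf_eq (gmul (lF α β c) (slice (lF α β c) n V))
    (Fm f (n + 1))
  rw [inf_slice_Fm c hf hQ hFV, finrank_gmul hl0, finrank_gmul hl0, ← hW] at h5
  omega

/-- The elements of a stable subspace containing a unit fill the algebra. -/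
lemma stable_top (W : Submodule K (AQ f α β c))
    (hT : ∀ y ∈ W, Ideal.Quotient.mk _ Polynomial.X * y ∈ W)
    (hu : ∃ y ∈ W, IsUnit y) : W = ⊤ := by
  have hpoly : ∀ p : Polynomial K, ∀ y ∈ W, Ideal.Quotient.mk (Ideal.span {piC α β c f}) p * y ∈ W := by
    intro p
    induction p using Polynomial.induction_on' with
    | add p q hp hq =>
      intro y hy
      rw [map_add, add_mul]
      exact W.add_mem (hp y hy) (hq y hy)
    | monomial n a =>
      intro y hy
      induction n with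
      | zero =>
        have h1 : Ideal.Quotient.mk (Ideal.span {piC α β c f}) (Polynomial.monomial 0 a) * y = a • y := by
          obtain ⟨p, rfl⟩ := Ideal.Quotient.mk_surjective y
          rw [Polynomial.monomial_zero_left, ← map_mul, Polynomial.C_mul']
          rfl
        rw [h1]
        exact W.smul_mem a hy
      | succ n ih =>
        have h1 : (Polynomial.monomial (n + 1) a : Polynomial K)
            = Polynomial.X * Polynomial.monomial n a := by
          rw [Polynomial.X_mul_monomial]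
        rw [h1, map_mul, mul_assoc]
        exact hT _ ih
  obtain ⟨y, hy, hyu⟩ := hu
  obtain ⟨z, hz⟩ := hyu.exists_left_inv
  obtain ⟨p₀, rfl⟩ := Ideal.Quotient.mk_surjective z
  have h1 : (1 : AQ f α β c) ∈ W := by
    rw [← hz]
    exact hpoly p₀ y hy
  rw [eq_top_iff]
  intro w _
  obtain ⟨p, rfl⟩ := Ideal.Quotient.mk_surjective w
  have := hpoly p 1 h1
  rwa [mul_one] at this

/-- The numbers attached to a slice of `V` and of the subspace it generates. -/
theorem step_numbers (hf : f ∈ Hd K 3) (hQ : eval ![1, α, β] f ≠ 0)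
    {V : Submodule K (MvPolynomial (Fin 3) K)} {d : ℕ} (hV : V ≤ Hd K (d + 1))
    (hFV : Fm f (d + 1) ≤ V) :
    let l := lF α β c
    let ρ := (rhoC f α β c).toLinearMap
    let U := Up f V (d + 1)
    V.map ρ ≤ U.map ρ ∧ finrank K (U.map ρ) ≤ 3 ∧ V ≤ slice l (d + 1) U ∧
      Up f (slice l d V) d ≤ slice l (d + 1) U ∧
      (∀ y ∈ V.map ρ, IsUnit y → V.map ρ ≠ ⊤ →
        finrank K (V.map ρ) + 1 ≤ finrank K (U.map ρ)) := by
  intro l ρ U
  have hl : l ∈ Hd K 1 := lF_mem α β c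
  have hleUp : V.map ρ ≤ U.map ρ := by
    intro y hy
    obtain ⟨x, hx, rfl⟩ := Submodule.mem_map.mp hy
    refine Submodule.mem_map.mpr ⟨tF β * x, mul_mem_Up _ (tF_mem β) hx, ?_⟩
    show rhoC f α β c _ = rhoC f α β c _
    rw [map_mul, rhoC_t, one_mul]
  have hfin : FiniteDimensional K (AQ f α β c) := by
    refine Module.finite_of_finrank_pos ?_
    rw [finrank_AQ c hf hQ]
    omega
  refine ⟨hleUp, ?_, ?_, ?_, ?_⟩
  · exact (Submodule.finrank_le _).trans_eq (finrank_AQ c hf hQ)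
  · intro x hx
    exact mem_slice.mpr ⟨mul_mem_Up _ hl hx, hV hx⟩
  · refine sup_le ?_ ?_
    · rw [Submodule.mul_le]
      intro m hm r hr
      obtain ⟨h1, h2⟩ := mem_slice.mp hr
      refine mem_slice.mpr ⟨?_, ?_⟩
      · rw [show l * (m * r) = m * (l * r) by ring]
        exact mul_mem_Up _ hm h1
      · have := Hd_mul_mem hm h2
        rwa [add_comm] at this
    · intro x hx
      refine mem_slice.mpr ⟨?_, Fm_le hf _ hx⟩
      exact Submodule.mem_sup_right (lin_mul_Fm hl hx)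
  · intro y hy hu hne
    have hlt : V.map ρ < U.map ρ := by
      refine lt_of_le_of_ne hleUp fun he => hne ?_
      refine stable_top c (V.map ρ) ?_ ⟨y, hy, hu⟩
      intro w hw
      obtain ⟨x, hx, rfl⟩ := Submodule.mem_map.mp hw
      have h1 : X 0 * x ∈ U := mul_mem_Up _ (X_mem_Hd 0) hx
      have h2 : ρ (X 0 * x) ∈ U.map ρ := Submodule.mem_map_of_mem h1
      rw [← he] at h2
      have h3 : ρ (X 0 * x) = Ideal.Quotient.mk (Ideal.span {piC α β c f}) Polynomial.X * ρ x := by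
        show rhoC f α β c _ = _ * rhoC f α β c _
        rw [map_mul]
        congr 1
        simp [rhoC]
      rwa [h3] at h2
    exact Submodule.finrank_lt_finrank_of_lt hlt

end ChartSlice

end Vale.Agent.Lib.P200.Fam
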