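import Vale.Agent.Lib.P200.Fam.Hilb

namespace Vale.Agent.Lib.P200.Fam

open MvPolynomial Module

variable {K : Type*} [Field K] {a b c : MvPolynomial (Fin 3) K} {e1 e2 e3 : ℕ}

lemma X_Pt (i : Fin 3) {n e : ℕ} {v : MvPolynomial (Fin 3) K} (hv : v ∈ Pt K n e) :
    X i * v ∈ Pt K (n + 1) e := by
  by_cases h : e ≤ n
  · rw [Pt_of_le h] at hv
    rw [Pt_of_le (by omega)]
    have := Hd_mul_mem (X_mem_Hd (K := K) i) hv
    rwa [show 1 + (n - e) = n + 1 - e by omega] at this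
  · rw [Pt_of_lt (by omega)] at hv
    rw [(Submodule.mem_bot K).mp hv, mul_zero]
    exact Submodule.zero_mem _

/-- Homogeneous Koszul syzygies. -/
lemma E1_hom (h : RegSeq a b c) (ha : a ∈ Hd K e1) (hb : b ∈ Hd K e2) (hc : c ∈ Hd K e3) {D : ℕ}
    {x y z : MvPolynomial (Fin 3) K} (hx : x ∈ Pt K D e1) (hy : y ∈ Pt K D e2) (hz : z ∈ Pt K D e3)
    (hs : x * a + y * b + z * c = 0) :
    ∃ p q r, x = q * c - r * b ∧ y = r * a - p * c ∧ z = p * b - q * a ∧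
      p ∈ Pt K D (e2 + e3) ∧ q ∈ Pt K D (e1 + e3) ∧ r ∈ Pt K D (e1 + e2) := by
  obtain ⟨p, q, r, h1, h2, h3⟩ := h.E1 hs
  refine ⟨cp D (e2 + e3) p, cp D (e1 + e3) q, cp D (e1 + e2) r, ?_, ?_, ?_, cp_mem _ _ _,
    cp_mem _ _ _, cp_mem _ _ _⟩
  · have := congrArg (cp D e1) h1
    rwa [cp_of_mem hx, cp_sub, cp_mul hc, cp_mul hb] at this
  · have := congrArg (cp D e2) h2
    rwa [cp_of_mem hy, cp_sub, cp_mul ha, cp_mul hc, add_comm e2 e1] at this
  · have := congrArg (cp D e3) h3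
    rwa [cp_of_mem hz, cp_sub, cp_mul hb, cp_mul ha, add_comm e3 e2, add_comm e3 e1] at this

lemma mul_low_zeroG (ha0 : a ≠ 0) (ha : a ∈ Hd K e1) {t : MvPolynomial (Fin 3) K} {n e : ℕ}
    (hn : n < e + e1) (h : t * a ∈ Pt K n e) : t = 0 := by
  by_contra ht
  have h0 : t * a ≠ 0 := mul_ne_zero ht ha0
  by_cases he : e ≤ n
  · rw [Pt_of_le he] at h
    have h1 := totalDegree_of_Hd h h0
    rw [totalDegree_mul_of_isDomain ht ha0, IsHomogeneous.totalDegree ha ha0] at h1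
    omega
  · rw [Pt_of_lt (by omega)] at h
    exact h0 ((Submodule.mem_bot K).mp h)

/-- The socle of the complete intersection vanishes below the top degree. -/
theorem socle_freeG (h : RegSeq a b c) (ha : a ∈ Hd K e1) (hb : b ∈ Hd K e2) (hc : c ∈ Hd K e3)
    {u : MvPolynomial (Fin 3) K} {d : ℕ} (hu : u ∈ Hd K d) (hd : d + 3 < e1 + e2 + e3)
    (hmul : ∀ i, X i * u ∈ Ideal.span {a, b, c}) : u ∈ Ideal.span {a, b, c} := by
  have hmem : ∀ i : Fin 3, X i * u ∈ Hd K (d + 1) := fun i => by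
    have := Hd_mul_mem (X_mem_Hd (K := K) i) hu
    rwa [add_comm] at this
  have hdec : ∀ i : Fin 3, ∃ x y z : MvPolynomial (Fin 3) K, x ∈ Pt K (d + 1) e1 ∧
      y ∈ Pt K (d + 1) e2 ∧ z ∈ Pt K (d + 1) e3 ∧ x * a + y * b + z * c = X i * u := by
    intro i
    obtain ⟨x, y, z, hs⟩ := mem_span3.mp (hmul i)
    exact ⟨_, _, _, cp_mem _ _ x, cp_mem _ _ y, cp_mem _ _ z, decomp3 ha hb hc (hmem i) hs⟩
  obtain ⟨A00, A01, A02, hA00, hA01, hA02, h0⟩ := hdec 0
  obtain ⟨A10, A11, A12, hA10, hA11, hA12, h1⟩ := hdec 1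
  obtain ⟨A20, A21, A22, hA20, hA21, hA22, h2⟩ := hdec 2
  have hcr : ∀ (i j : Fin 3) {e : ℕ} {v w : MvPolynomial (Fin 3) K}, v ∈ Pt K (d + 1) e →
      w ∈ Pt K (d + 1) e → X i * v - X j * w ∈ Pt K (d + 2) e := fun i j _ _ _ hv hw =>
    Submodule.sub_mem _ (X_Pt i hv) (X_Pt j hw)
  -- the first syzygies
  obtain ⟨B00, B01, B02, c00, c01, c02, dB00, dB01, dB02⟩ := E1_hom h ha hb hc
    (hcr 1 2 hA20 hA10) (hcr 1 2 hA21 hA11) (hcr 1 2 hA22 hA12)
    (by linear_combination X 1 * h2 - X 2 * h1)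
  obtain ⟨B10, B11, B12, c10, c11, c12, dB10, dB11, dB12⟩ := E1_hom h ha hb hc
    (hcr 2 0 hA00 hA20) (hcr 2 0 hA01 hA21) (hcr 2 0 hA02 hA22)
    (by linear_combination X 2 * h0 - X 0 * h2)
  obtain ⟨B20, B21, B22, c20, c21, c22, dB20, dB21, dB22⟩ := E1_hom h ha hb hc
    (hcr 0 1 hA10 hA00) (hcr 0 1 hA11 hA01) (hcr 0 1 hA12 hA02)
    (by linear_combination X 0 * h1 - X 1 * h0)
  -- the second syzygies
  obtain ⟨t, t0, t1, t2⟩ := h.E2 (p := X 0 * B00 + X 1 * B10 + X 2 * B20)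
    (q := X 0 * B01 + X 1 * B11 + X 2 * B21) (r := X 0 * B02 + X 1 * B12 + X 2 * B22)
    (by linear_combination -X 0 * c02 - X 1 * c12 - X 2 * c22)
    (by linear_combination -X 0 * c01 - X 1 * c11 - X 2 * c21)
  have ht : t = 0 := by
    refine mul_low_zeroG (n := d + 3) (e := e2 + e3) h.h0 ha (by omega) ?_
    rw [← t0]
    exact Submodule.add_mem _ (Submodule.add_mem _ (X_Pt 0 dB00) (X_Pt 1 dB10)) (X_Pt 2 dB20)
  rw [ht, zero_mul] at t0 t1 t2
  -- exactness for the variables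
  obtain ⟨p0, q0, r0, e00, e10, e20⟩ := (reg_X (K := K)).E1
    (x := B00) (y := B10) (z := B20) (by linear_combination t0)
  obtain ⟨p1, q1, r1, e01, e11, e21⟩ := (reg_X (K := K)).E1
    (x := B01) (y := B11) (z := B21) (by linear_combination t1)
  obtain ⟨p2, q2, r2, e02, e12, e22⟩ := (reg_X (K := K)).E1
    (x := B02) (y := B12) (z := B22) (by linear_combination t2)
  -- the three columns
  obtain ⟨g0, a00, a10, a20⟩ := column_step (A0 := A00) (A1 := A10) (A2 := A20)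
    (p := p1 * c - p2 * b) (q := q1 * c - q2 * b) (r := r1 * c - r2 * b)
    (by rw [c00, e01, e02]; ring) (by rw [c10, e11, e12]; ring) (by rw [c20, e21, e22]; ring)
  obtain ⟨g1, a01, a11, a21⟩ := column_step (A0 := A01) (A1 := A11) (A2 := A21)
    (p := p2 * a - p0 * c) (q := q2 * a - q0 * c) (r := r2 * a - r0 * c)
    (by rw [c01, e02, e00]; ring) (by rw [c11, e12, e10]; ring) (by rw [c21, e22, e20]; ring)
  obtain ⟨g2, a02, a12, a22⟩ := column_step (A0 := A02) (A1 := A12) (A2 := A22)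
    (p := p0 * b - p1 * a) (q := q0 * b - q1 * a) (r := r0 * b - r1 * a)
    (by rw [c02, e00, e01]; ring) (by rw [c12, e10, e11]; ring) (by rw [c22, e20, e21]; ring)
  have hfinal : (X 0 : MvPolynomial (Fin 3) K) * (u - (g0 * a + g1 * b + g2 * c)) = 0 := by
    rw [a00, a01, a02] at h0
    linear_combination -h0
  have hu0 : u - (g0 * a + g1 * b + g2 * c) = 0 := by
    rcases mul_eq_zero.mp hfinal with h3 | h3
    · exact absurd h3 (X_ne_zero _)
    · exact h3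
  refine mem_span3.mpr ⟨g0, g1, g2, ?_⟩
  linear_combination -hu0

end Vale.Agent.Lib.P200.Fam
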