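import Vale.Agent.Lib.P200.Fam.ELemma

namespace Vale.Agent.Lib.P200.Fam

open MvPolynomial Module

variable {K : Type*} [Field K] [Infinite K] {f g1 g2 : MvPolynomial (Fin 3) K} {α β : K}

omit [Infinite K] in
/-- An ideal containing `f` and `V` contains `Up f V d`. -/
lemma Up_mem_ideal {J : Ideal (MvPolynomial (Fin 3) K)} {V : Submodule K (MvPolynomial (Fin 3) K)}
    {d : ℕ} (h1 : f ∈ J) (h2 : ∀ v ∈ V, v ∈ J) {x : MvPolynomial (Fin 3) K}
    (hx : x ∈ Up f V d) : x ∈ J := by
  have hle : Up f V d ≤ J.restrictScalars K := by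
    refine sup_le ?_ ?_
    · rw [Submodule.mul_le]
      intro m _ v hv
      exact J.mul_mem_left m (h2 v hv)
    · intro y hy
      obtain ⟨g, _, rfl⟩ := mem_gmul.mp hy
      exact J.mul_mem_right g h1
  exact hle hx

omit [Infinite K] in
/-- Every form of high degree lies in the ideal of a regular sequence. -/
lemma Hd_mem_F {a b c : MvPolynomial (Fin 3) K} {e1 e2 e3 : ℕ} (h : RegSeq a b c)
    (ha : a ∈ Hd K e1) (hb : b ∈ Hd K e2) (hc : c ∈ Hd K e3) (he1 : 1 ≤ e1) (he2 : 1 ≤ e2)
    {N : ℕ} (hN : e1 + e2 + e3 ≤ N) {g : MvPolynomial (Fin 3) K} (hg : g ∈ Hd K N) :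
    g ∈ Ideal.span {a, b, c} := by
  have h1 := (finrank_all h ha hb hc he1 he2 N).2.2
  have h2 : O3 e1 e2 e3 N = ∅ := by
    rw [Finset.eq_empty_iff_forall_notMem]
    intro t ht
    rw [mem_O3] at ht
    omega
  rw [h2, Finset.card_empty, add_zero, ← finrank_Hd (K := K) N] at h1
  have h3 : degPart (Ideal.span {a, b, c}) N = Hd K N :=
    Submodule.eq_of_le_of_finrank_le inf_le_right h1.ge
  rw [← h3] at hg
  exact (mem_degPart.mp hg).1

lemma choose_step (n : ℕ) : (n + 1).choose 2 = n + n.choose 2 := by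
  rw [Nat.choose_succ_succ' n 1, Nat.choose_one_right]

section Core

variable (hf : f ∈ Hd K 3) (hQ : eval ![1, α, β] f ≠ 0) (hreg : RegSeq f g1 g2) {e : ℕ}
  (hg1 : g1 ∈ Hd K (e + 3)) (hg2 : g2 ∈ Hd K (e + 3))

include hf hreg hg1 hg2

omit [Infinite K] in
/-- The contradiction when `Up f V` lies in an ideal with two generators, one being `f`'s
companion. -/
lemma pair_contra {V : Submodule K (MvPolynomial (Fin 3) K)} {d : ℕ}
    (hg1U : g1 ∈ Up f V d) (hg2U : g2 ∈ Up f V d) {x w : MvPolynomial (Fin 3) K} {a b : ℕ}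
    (hx : x ∈ Hd K a) (hw : w ∈ Hd K b) (hx0 : x ≠ 0) (hw0 : w ≠ 0) (ha : 1 ≤ a) (hb : 1 ≤ b)
    (hfJ : f ∈ Ideal.span {x, w}) (hVJ : ∀ v ∈ V, v ∈ Ideal.span {x, w}) : False :=
  no_two hreg hf hg1 hg2 (by omega) (by omega) (by omega) hx hw hx0 hw0 ha hb hfJ
    (Up_mem_ideal hfJ hVJ hg1U) (Up_mem_ideal hfJ hVJ hg2U)

include hQ

/-- A common factor contradicts the regular sequence. -/
lemma factor_contra {V : Submodule K (MvPolynomial (Fin 3) K)} {d : ℕ}
    (hg1U : g1 ∈ Up f V d) (hg2U : g2 ∈ Up f V d) {c₀ : MvPolynomial (Fin 3) K}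
    (hc₁ : ¬ IsUnit c₀) (hc₂ : c₀ ∣ f) (hc₃ : ∀ v ∈ V, c₀ ∣ v) : False := by
  have hf0 : f ≠ 0 := f_ne_zero_of hQ
  obtain ⟨a, ha1, _, ha3, ha4⟩ := homog_of_dvd hf hf0 hc₂ hc₁
  have hmem : ∀ {y : MvPolynomial (Fin 3) K}, c₀ ∣ y → y ∈ Ideal.span {c₀, c₀} := by
    intro y hy
    obtain ⟨z, rfl⟩ := hy
    exact Ideal.mem_span_pair.mpr ⟨z, 0, by ring⟩
  exact pair_contra hf hreg hg1 hg2 hg1U hg2U ha3 ha3 ha4 ha4 ha1 ha1 (hmem hc₂)
    fun v hv => hmem (hc₃ v hv)

/-- The contradiction when `V` lies modulo the multiples of `f` in a single form. -/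
lemma one_gen_contra {V V' : Submodule K (MvPolynomial (Fin 3) K)} {d d' : ℕ}
    (hg1U : g1 ∈ Up f V d) (hg2U : g2 ∈ Up f V d) (hV'1 : V' ≤ Hd K (d' + 1))
    (hdim : finrank K V' ≤ finrank K (Fm f (d' + 1)) + 1) (hFV' : Fm f (d' + 1) ≤ V')
    (hVV' : V ≤ Up f V' (d' + 1)) : False := by
  have hf0 : f ≠ 0 := f_ne_zero_of hQ
  have h1 : finrank K ↥(Fm f (d' + 1) ⊔ V') ≤ finrank K (Fm f (d' + 1)) + 1 := by
    rwa [sup_eq_right.mpr hFV']
  obtain ⟨w, hw, hw0, hle⟩ := one_complement (Fm_le hf _) hV'1 h1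
  have hfJ : f ∈ Ideal.span {w, f} := Ideal.subset_span (by simp)
  refine pair_contra hf hreg hg1 hg2 hg1U hg2U hw hf hw0 hf0 (by omega) (by omega) hfJ ?_
  intro v hv
  refine Up_mem_ideal (d := d' + 1) hfJ ?_ (hVV' hv)
  intro y hy
  obtain ⟨a, ha, z, hz, rfl⟩ := Submodule.mem_sup.mp (hle hy)
  refine Ideal.add_mem _ ?_ ?_
  · exact Ideal.span_mono (by simp) (Ideal.mem_span_singleton.mpr (Fm_dvd ha))
  · obtain ⟨t, rfl⟩ := Submodule.mem_span_singleton.mp hz
    rw [smul_eq_C_mul]
    exact Ideal.mul_mem_left _ _ (Ideal.subset_span (by simp))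

/-- The persistence contradiction. -/
lemma star_persist {V : Submodule K (MvPolynomial (Fin 3) K)} (c : K) (hV : V ≤ Hd K (e + 2))
    (hFV : Fm f (e + 2) ≤ V) {q : ℕ}
    (hq : finrank K V = q + (e + 1).choose 2) (hq2 : q + 1 ≤ 3 * (e + 2))
    (hU : finrank K (Up f V (e + 2)) = q + 3 + (e + 2).choose 2)
    (hg1U : g1 ∈ Up f V (e + 2)) (hg2U : g2 ∈ Up f V (e + 2))
    (hslice : slice (lF α β c) (e + 2) (Up f V (e + 2)) = V)
    (hfull : V.map (rhoC f α β c).toLinearMap = ⊤) : False := by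
  have hl := lF_mem α β c
  have hU' : Up f V (e + 2) ≤ Hd K (e + 1 + 2) := Up_le hf hV
  have hrank : finrank K (Up f V (e + 2)) + finrank K (Hd K (e + 1 + 1))
      = finrank K V + finrank K (Hd K (e + 1 + 2)) := by
    rw [finrank_Hd, finrank_Hd, hU, hq]
    have c1 := choose_step (e + 1)
    have c2 := choose_step (e + 1 + 1 + 2)
    rw [show e + 1 + 2 + 2 = e + 1 + 1 + 2 + 1 by omega]
    rw [show e + 1 + 1 = e + 2 by omega] at *
    omega
  have hnon : finrank K V < finrank K (Hd K (e + 1 + 1)) := by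
    rw [finrank_Hd, hq]
    have c1 := choose_step (e + 1)
    have c2 := choose_step (e + 2)
    have c3 := choose_step (e + 3)
    rw [show e + 1 + 1 + 2 = e + 3 + 1 by omega]
    rw [show e + 1 + 1 = e + 2 by omega] at *
    rw [show e + 2 + 1 = e + 3 by omega] at c2
    omega
  have hsurj : V ⊔ gmul (lF α β c) (Hd K (e + 1)) = Hd K (e + 1 + 1) := by
    refine le_antisymm (sup_le hV ?_) ?_
    · have := gmul_le_Hd hl (le_refl (Hd K (e + 1)))
      rwa [show 1 + (e + 1) = e + 1 + 1 by omega] at this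
    · intro h hh
      have h1 : (rhoC f α β c).toLinearMap h ∈ V.map (rhoC f α β c).toLinearMap := by
        rw [hfull]
        trivial
      obtain ⟨v, hv, hvh⟩ := Submodule.mem_map.mp h1
      have h2 : h - v ∈ Hd K (e + 1 + 1) := Submodule.sub_mem _ hh (hV hv)
      have h3 : rhoC f α β c (h - v) = 0 := by
        rw [map_sub, sub_eq_zero]
        exact hvh.symm
      rw [rho_ker c hf hQ h2] at h3
      obtain ⟨x, hx, z, hz, hxz⟩ := Submodule.mem_sup.mp h3
      refine Submodule.mem_sup.mpr ⟨v + z, V.add_mem hv (hFV hz), x, hx, ?_⟩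
      rw [add_assoc, add_comm z x, hxz]
      ring
  have hinj : ∀ g ∈ Hd K (e + 1 + 1), lF α β c * g ∈ Up f V (e + 2) → g ∈ V := by
    intro g hg hlg
    rw [← hslice]
    exact mem_slice.mpr ⟨hlg, hg⟩
  have hpers := persist_of_injG (d := e + 1) hV hU' hl le_sup_left hinj hrank hnon hsurj
  set N := 3 + (e + 3) + (e + 3) with hN
  have hlN : lF α β c ^ N ∈ Ideal.span {f, g1, g2} := by
    refine Hd_mem_F hreg hf hg1 hg2 (by omega) (by omega) (le_refl _) ?_
    have := IsHomogeneous.pow hl N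
    rwa [one_mul] at this
  obtain ⟨x, y, z, hxyz⟩ := mem_span3.mp hlN
  refine hpers (e + N) ?_
  have hfl : f * lF α β c ^ e ∈ Up f V (e + 2) := by
    refine Fm_le_Up V (e + 2) (mul_mem_gmul ?_)
    rw [Pt_of_le (by omega), show e + 2 + 1 - 3 = e by omega]
    have := IsHomogeneous.pow hl e
    rwa [one_mul] at this
  have hsub : ∀ y ∈ Up f V (e + 2), y ∈ Ideal.span (↑(Up f V (e + 2)) : Set (MvPolynomial (Fin 3) K)) :=
    fun y hy => Ideal.subset_span hy
  have h1 : lF α β c ^ (e + N)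
      = x * (f * lF α β c ^ e) + (y * lF α β c ^ e) * g1 + (z * lF α β c ^ e) * g2 := by
    rw [pow_add, ← hxyz]
    ring
  rw [h1]
  exact Ideal.add_mem _ (Ideal.add_mem _ (Ideal.mul_mem_left _ _ (hsub _ hfl))
    (Ideal.mul_mem_left _ _ (hsub _ hg1U))) (Ideal.mul_mem_left _ _ (hsub _ hg2U))

/-- Two conics generating a subspace of degree three. -/
lemma conic_contra {V : Submodule K (MvPolynomial (Fin 3) K)} (hV : V ≤ Hd K 2)
    (hq : finrank K V = 2) (hU : finrank K (Up f V 2) = 6)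
    (hg1U : g1 ∈ Up f V 2) (hg2U : g2 ∈ Up f V 2) : False := by
  have hf0 : f ≠ 0 := f_ne_zero_of hQ
  by_cases h5 : finrank K ↥(Hd K 1 * V) ≤ 5
  · obtain ⟨l', hl', hl0, hle⟩ := factor_of_two hV hq h5
    refine pair_contra hf hreg hg1 hg2 hg1U hg2U hl' hf hl0 hf0 (by omega) (by omega)
      (Ideal.subset_span (by simp)) ?_
    intro v hv
    obtain ⟨u, _, rfl⟩ := mem_gmul.mp (hle hv)
    exact Ideal.mul_mem_right _ _ (Ideal.subset_span (by simp))
  · have hle : Hd K 1 * V ≤ Up f V 2 := le_sup_left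
    have hUle : Up f V 2 ≤ Hd K 3 := Up_le hf hV
    have heq : Hd K 1 * V = Up f V 2 := eq_of_le_finrank hUle hle (by omega)
    have hfmem : f ∈ Hd K 1 * V := by
      rw [heq]
      refine Fm_le_Up V 2 ?_
      have h1 : (1 : MvPolynomial (Fin 3) K) ∈ Pt K (2 + 1) 3 := by
        rw [Pt_of_le (by omega)]
        exact isHomogeneous_one _ _
      have := mul_mem_gmul (g := f) h1
      rwa [mul_one] at this
    have := fin_of_le hV
    obtain ⟨u, hli, hsp⟩ := exists_fam hq
    have hu : ∀ i, u i ∈ V := fun i => by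
      rw [← hsp]
      exact Submodule.subset_span ⟨i, rfl⟩
    have hu0 : ∀ i, u i ≠ 0 := hli.ne_zero
    have hVJ : ∀ v ∈ V, v ∈ Ideal.span {u 0, u 1} := by
      have hsp' : Submodule.span K (Set.range u) ≤ (Ideal.span {u 0, u 1}).restrictScalars K := by
        rw [Submodule.span_le]
        rintro _ ⟨i, rfl⟩
        fin_cases i
        · exact Ideal.subset_span (by simp)
        · exact Ideal.subset_span (by simp)
      intro v hv
      rw [← hsp] at hv
      exact hsp' hv
    have hfJ : f ∈ Ideal.span {u 0, u 1} := by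
      have hle2 : Hd K 1 * V ≤ (Ideal.span {u 0, u 1}).restrictScalars K := by
        rw [Submodule.mul_le]
        intro m _ v hv
        exact Ideal.mul_mem_left _ m (hVJ v hv)
      exact hle2 hfmem
    exact pair_contra hf hreg hg1 hg2 hg1U hg2U (hV (hu 0)) (hV (hu 1)) (hu0 0) (hu0 1)
      (by omega) (by omega) hfJ hVJ

/-- The critical case: equality in the bound in the presence of the two extra forms. -/
theorem star_B [IsAlgClosed K] {V : Submodule K (MvPolynomial (Fin 3) K)}
    (hV : V ≤ Hd K (e + 2)) (hFV : Fm f (e + 2) ≤ V) {q : ℕ}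
    (hq : finrank K V = q + (e + 1).choose 2) (hq1 : e + 2 ≤ q) (hq2 : q + 1 ≤ 3 * (e + 2))
    (hU : finrank K (Up f V (e + 2)) = q + 3 + (e + 2).choose 2)
    (hg1U : g1 ∈ Up f V (e + 2)) (hg2U : g2 ∈ Up f V (e + 2)) : False := by
  have hf0 : f ≠ 0 := f_ne_zero_of hQ
  by_cases hNC : NC f V
  swap
  · unfold NC at hNC
    push Not at hNC
    obtain ⟨c₀, hc₁, hc₂, hc₃⟩ := hNC
    exact factor_contra hf hQ hreg hg1 hg2 hg1U hg2U hc₁ hc₂ hc₃
  obtain ⟨v₀, hv₀, hrel⟩ := exists_relPrime hf0 hNC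
  have hv00 := rel_ne_zero hf hf0 hrel
  obtain ⟨c, hc⟩ := exists_good hf hQ (hV hv₀) hv00 hrel
  obtain ⟨g1', g2'⟩ := good_numbers c hf hQ hV hFV hv₀ hc
  obtain ⟨h1, h2, h3, h4, h5, h6, h7⟩ := slice_numbers c hf hQ hV hFV
  obtain ⟨-, -, h81, h82, -⟩ := step_numbers c hf hQ hV hFV
  set l := lF α β c with hl
  set U := Up f V (e + 2) with hUdef
  have h81' : V ≤ slice l (e + 2) U := h81
  have h82' : Up f (slice l (e + 1) V) (e + 1) ≤ slice l (e + 2) U := h82
  have hS := slice_le l (e + 1) V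
  have hFS : Fm f (e + 1) ≤ slice l (e + 1) V := Fm_le_slice c hf hFV
  have hF1 : finrank K (Fm f (e + 1)) = e.choose 2 := finrank_Fm_succ hf0 e
  have hq' : finrank K (slice l (e + 1) V)
      = (finrank K (slice l (e + 1) V) - e.choose 2) + e.choose 2 := by omega
  set q' := finrank K (slice l (e + 1) V) - e.choose 2 with hq'def
  obtain ⟨c1, c2, -⟩ := C1 hf hQ e _ hS hFS q' hq'
  have hE := E_lemma hf hQ e _ hS hFS
  -- from a one-dimensional or common factor conclusion to a contradiction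
  have hfinish : V ≤ Up f (slice l (e + 1) V) (e + 1) → 1 ≤ q' →
      finrank K (Up f (slice l (e + 1) V) (e + 1)) = q' + 2 + (e + 1).choose 2 → False := by
    intro hle hq'1 hdim
    by_cases hq'2 : q' = 1
    · exact one_gen_contra hf hQ hreg hg1 hg2 hg1U hg2U hS (by omega) hFS hle
    · by_cases hNC' : NC f (slice l (e + 1) V)
      · have := (hE hNC' q' hq').2 (by omega)
        omega
      · unfold NC at hNC'
        push Not at hNC'
        obtain ⟨c₀, hc₁, hc₂, hc₃⟩ := hNC'
        exact hNC c₀ hc₁ hc₂ fun v hv => dvd_Up hc₂ hc₃ (hle hv)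
  by_cases hv1 : finrank K (V.map (rhoC f α β c).toLinearMap) = 1
  · -- the image is a line
    have h8 := c2 (by omega)
    have h9 : Up f (slice l (e + 1) V) (e + 1) = slice l (e + 2) U :=
      eq_of_le_finrank (slice_le _ _ _) h82' (by omega)
    exact hfinish (by rw [h9]; exact h81') (by omega) (by omega)
  · -- the image is not a line: the slice is `V`
    have hUV : slice l (e + 2) U = V :=
      (eq_of_le_finrank (slice_le _ _ _) h81' (by omega)).symm
    have hfr : finrank K (slice l (e + 2) U) = finrank K V := by rw [hUV]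
    by_cases hv3 : finrank K (V.map (rhoC f α β c).toLinearMap) = 3
    · -- the image is everything
      have hfin : FiniteDimensional K (AQ f α β c) := by
        refine Module.finite_of_finrank_pos ?_
        rw [finrank_AQ c hf hQ]
        omega
      have htop : V.map (rhoC f α β c).toLinearMap = ⊤ := by
        refine Submodule.eq_top_of_finrank_eq ?_
        rw [hv3, finrank_AQ c hf hQ]
      exact star_persist hf hQ hreg hg1 hg2 c hV hFV hq hq2 hU hg1U hg2U hUV htop
    · -- the image is a plane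
      have hUpV : Up f (slice l (e + 1) V) (e + 1) ≤ V := by
        rwa [hUV] at h82'
      have hfr2 := finrank_mono_Hd hUpV hV
      by_cases hq'0 : q' = 0
      · -- two conics
        have he : e = 0 := by omega
        subst he
        have c01 : Nat.choose (0 + 1) 2 = 0 := rfl
        have c00 : Nat.choose 0 2 = 0 := rfl
        have c02 : Nat.choose (0 + 2) 2 = 1 := rfl
        have e1 : finrank K V = 2 := by omega
        have e2 : finrank K U = 6 := by omega
        exact conic_contra hf hQ hreg hg1 hg2 hV e1 e2 hg1U hg2U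
      · have h8 := c1 (by omega)
        by_cases hε : finrank K (Up f (slice l (e + 1) V) (e + 1)) = finrank K V
        · have h9 : Up f (slice l (e + 1) V) (e + 1) = V := eq_of_le_finrank hV hUpV hε.ge
          exact hfinish h9.ge (by omega) (by omega)
        · -- `V` is one form more than what its slice generates
          have hNC' : ¬ NC f (slice l (e + 1) V) := by
            intro hNC'
            have := (hE hNC' q' hq').1 (by omega)
            omega
          unfold NC at hNC'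
          push Not at hNC'
          obtain ⟨c₀, hc₁, hc₂, hc₃⟩ := hNC'
          obtain ⟨a, ha1, _, ha3, ha4⟩ := homog_of_dvd hf hf0 hc₂ hc₁
          have h10 : finrank K ↥(Up f (slice l (e + 1) V) (e + 1) ⊔ V)
              ≤ finrank K (Up f (slice l (e + 1) V) (e + 1)) + 1 := by
            rw [sup_eq_right.mpr hUpV]
            omega
          obtain ⟨w, hw, hw0, hle⟩ := one_complement (Up_le hf hS) hV h10
          have hfJ : f ∈ Ideal.span {c₀, w} := by
            obtain ⟨z, rfl⟩ := hc₂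
            exact Ideal.mem_span_pair.mpr ⟨z, 0, by ring⟩
          refine pair_contra hf hreg hg1 hg2 hg1U hg2U ha3 hw ha4 hw0 ha1 (by omega) hfJ ?_
          intro v hv
          obtain ⟨x, hx, y, hy, rfl⟩ := Submodule.mem_sup.mp (hle hv)
          refine Ideal.add_mem _ ?_ ?_
          · obtain ⟨z, rfl⟩ := dvd_Up hc₂ hc₃ hx
            exact Ideal.mem_span_pair.mpr ⟨z, 0, by ring⟩
          · obtain ⟨t, rfl⟩ := Submodule.mem_span_singleton.mp hy
            rw [smul_eq_C_mul]
            exact Ideal.mul_mem_left _ _ (Ideal.subset_span (by simp))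

end Core

end Vale.Agent.Lib.P200.Fam
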