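import Vale.Agent.Lib.P200.Fam.Persist

namespace Vale.Agent.Lib.P200.Fam

open MvPolynomial Module

variable {K : Type*} [Field K]

lemma two_mul_choose (n : ℕ) : 2 * (n + 2).choose 2 = (n + 2) * (n + 1) := by
  induction n with
  | zero => rfl
  | succ n ih =>
    rw [Nat.choose_succ_succ' (n + 2) 1, Nat.choose_one_right]
    nlinarith

/-- Strict convexity of the dimensions of the spaces of forms. -/
lemma choose_convex (M α β : ℕ) (hα : 1 ≤ α) (hβ : 1 ≤ β) :
    (M + β + 2).choose 2 + (M + α + 2).choose 2 < (M + α + β + 2).choose 2 + (M + 2).choose 2 := by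
  have h1 := two_mul_choose (M + β)
  have h2 := two_mul_choose (M + α)
  have h3 := two_mul_choose (M + α + β)
  have h4 := two_mul_choose M
  have h5 : 0 < α * β := Nat.mul_pos hα hβ
  nlinarith

/-- An ideal generated by two forms of positive degree contains forms of every high degree only
vacuously: it never contains all the forms of a high degree. -/
theorem two_contra {x w : MvPolynomial (Fin 3) K} {α β : ℕ} (hx : x ∈ Hd K α) (hw : w ∈ Hd K β)
    (hx0 : x ≠ 0) (hw0 : w ≠ 0) (hα : 1 ≤ α) (hβ : 1 ≤ β) (N₀ : ℕ)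
    (h : ∀ N, N₀ ≤ N → ∀ g ∈ Hd K N, g ∈ Ideal.span {x, w}) : False := by
  set N := N₀ + α + β with hN
  have hN1 : α ≤ N := by omega
  have hN2 : β ≤ N := by omega
  have hN3 : α + β ≤ N := by omega
  have hle : Hd K N ≤ degPart (Ideal.span {x, w}) N := fun g hg =>
    mem_degPart.mpr ⟨h N (by omega) g hg, hg⟩
  have hdeg := degPart_ab hx hw N
  rw [degPart_a hx] at hdeg
  have h1 : gmul x (Pt K N α) ≤ Hd K N := gmul_Pt_le hx
  have h2 : gmul w (Pt K N β) ≤ Hd K N := gmul_Pt_le hw
  have := fin_of_le h1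
  have := fin_of_le h2
  have h3 := Submodule.finrank_sup_add_finrank_inf_eq (gmul x (Pt K N α)) (gmul w (Pt K N β))
  rw [← hdeg, finrank_gmul hx0, finrank_gmul hw0] at h3
  have hint : gmul (x * w) (Pt K N (α + β)) ≤ gmul x (Pt K N α) ⊓ gmul w (Pt K N β) := by
    intro y hy
    obtain ⟨u, hu, rfl⟩ := mem_gmul.mp hy
    rw [Pt_of_le hN3] at hu
    refine ⟨mem_gmul.mpr ⟨w * u, ?_, by ring⟩, mem_gmul.mpr ⟨x * u, ?_, by ring⟩⟩
    · rw [Pt_of_le hN1]
      have := Hd_mul_mem hw hu
      rwa [show β + (N - (α + β)) = N - α by omega] at this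
    · rw [Pt_of_le hN2]
      have := Hd_mul_mem hx hu
      rwa [show α + (N - (α + β)) = N - β by omega] at this
  have h4 : finrank K (Pt K N (α + β)) ≤ finrank K ↥(gmul x (Pt K N α) ⊓ gmul w (Pt K N β)) := by
    rw [← finrank_gmul (mul_ne_zero hx0 hw0) (Pt K N (α + β))]
    exact finrank_mono_Hd hint (inf_le_left.trans h1)
  have h5 : finrank K (Hd K N) ≤ finrank K (degPart (Ideal.span {x, w}) N) :=
    finrank_mono_Hd hle (hdeg ▸ sup_le h1 h2)
  have e1 : N - α = N₀ + β := by omega
  have e2 : N - β = N₀ + α := by omega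
  have e3 : N - (α + β) = N₀ := by omega
  have hP1 : finrank K (Pt K N α) = (N₀ + β + 2).choose 2 := by
    rw [Pt_of_le hN1, finrank_Hd, e1]
  have hP2 : finrank K (Pt K N β) = (N₀ + α + 2).choose 2 := by
    rw [Pt_of_le hN2, finrank_Hd, e2]
  have hP3 : finrank K (Pt K N (α + β)) = (N₀ + 2).choose 2 := by
    rw [Pt_of_le hN3, finrank_Hd, e3]
  have hP0 : finrank K (Hd K N) = (N₀ + α + β + 2).choose 2 := by
    rw [finrank_Hd, hN]
  rw [hP1, hP2] at h3
  rw [hP3] at h4
  rw [hP0] at h5
  have h6 := choose_convex N₀ α β hα hβ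
  omega

section DvdHomog

variable {p q : MvPolynomial (Fin 3) K}

/-- A component of a product in which only one pair of degrees can contribute. -/
lemma comp_mul_of_extreme {a b : ℕ}
    (hext : ∀ u v : Fin 3 →₀ ℕ, coeff u p ≠ 0 → coeff v q ≠ 0 → u.degree + v.degree = a + b →
      u.degree = a) :
    homogeneousComponent (a + b) (p * q)
      = homogeneousComponent a p * homogeneousComponent b q := by
  classical
  ext m
  rw [coeff_homogeneousComponent, coeff_mul, coeff_mul]
  split_ifs with hm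
  · refine Finset.sum_congr rfl fun x hx => ?_
    have hx' : x.1 + x.2 = m := Finset.HasAntidiagonal.mem_antidiagonal.mp hx
    have hdeg : x.1.degree + x.2.degree = a + b := by
      rw [← map_add, hx', ← hm]
    rw [coeff_homogeneousComponent, coeff_homogeneousComponent]
    by_cases h1 : coeff x.1 p = 0
    · simp [h1]
    by_cases h2 : coeff x.2 q = 0
    · simp [h2]
    have h3 := hext x.1 x.2 h1 h2 hdeg
    have h4 : x.2.degree = b := by omega
    simp [h3, h4]
  · refine (Finset.sum_eq_zero fun x hx => ?_).symm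
    have hx' : x.1 + x.2 = m := Finset.HasAntidiagonal.mem_antidiagonal.mp hx
    have hdeg : x.1.degree + x.2.degree = m.degree := by
      rw [← map_add, hx']
    rw [coeff_homogeneousComponent, coeff_homogeneousComponent]
    by_cases h1 : x.1.degree = a
    · have h2 : x.2.degree ≠ b := by omega
      simp [h2]
    · simp [h1]

/-- A divisor of a homogeneous polynomial is homogeneous. -/
theorem isHomogeneous_of_mul_left {n : ℕ} (hpq : p * q ∈ Hd K n) (hp : p ≠ 0) (hq : q ≠ 0) :
    ∃ a b, a + b = n ∧ p ∈ Hd K a ∧ q ∈ Hd K b := by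
  classical
  have hne : ∀ {r : MvPolynomial (Fin 3) K}, r ≠ 0 → (r.support.image Finsupp.degree).Nonempty := by
    intro r hr
    obtain ⟨m, hm⟩ := (support_nonempty (p := r)).mpr hr
    exact ⟨m.degree, Finset.mem_image.mpr ⟨m, hm, rfl⟩⟩
  have hcomp : ∀ {r : MvPolynomial (Fin 3) K} {e : ℕ}, e ∈ r.support.image Finsupp.degree →
      homogeneousComponent e r ≠ 0 := by
    intro r e he h0
    obtain ⟨m, hm, rfl⟩ := Finset.mem_image.mp he
    have h1 := congrArg (coeff m) h0
    rw [coeff_homogeneousComponent, if_pos rfl, coeff_zero] at h1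
    exact (mem_support_iff.mp hm) h1
  have hmem : ∀ {r : MvPolynomial (Fin 3) K} {u : Fin 3 →₀ ℕ}, coeff u r ≠ 0 →
      u.degree ∈ r.support.image Finsupp.degree := fun {r u} hu =>
    Finset.mem_image.mpr ⟨u, mem_support_iff.mpr hu, rfl⟩
  set a₁ := (p.support.image Finsupp.degree).max' (hne hp) with ha₁
  set a₀ := (p.support.image Finsupp.degree).min' (hne hp) with ha₀
  set b₁ := (q.support.image Finsupp.degree).max' (hne hq) with hb₁
  set b₀ := (q.support.image Finsupp.degree).min' (hne hq) with hb₀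
  have h1 : homogeneousComponent (a₁ + b₁) (p * q) ≠ 0 := by
    rw [comp_mul_of_extreme]
    · exact mul_ne_zero (hcomp (Finset.max'_mem _ _)) (hcomp (Finset.max'_mem _ _))
    · intro u v hu hv hsum
      have h3 := Finset.le_max' _ _ (hmem hu)
      have h4 := Finset.le_max' _ _ (hmem hv)
      omega
  have h2 : homogeneousComponent (a₀ + b₀) (p * q) ≠ 0 := by
    rw [comp_mul_of_extreme]
    · exact mul_ne_zero (hcomp (Finset.min'_mem _ _)) (hcomp (Finset.min'_mem _ _))
    · intro u v hu hv hsum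
      have h3 := Finset.min'_le _ _ (hmem hu)
      have h4 := Finset.min'_le _ _ (hmem hv)
      omega
  have h3 : a₁ + b₁ = n := by
    by_contra hcon
    apply h1
    rw [homogeneousComponent_of_mem hpq, if_neg hcon]
  have h4 : a₀ + b₀ = n := by
    by_contra hcon
    apply h2
    rw [homogeneousComponent_of_mem hpq, if_neg hcon]
  have h5 : a₀ ≤ a₁ := Finset.min'_le _ _ (Finset.max'_mem _ _)
  have h6 : b₀ ≤ b₁ := Finset.min'_le _ _ (Finset.max'_mem _ _)
  refine ⟨a₁, b₁, h3, ?_, ?_⟩
  · intro u hu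
    have h7 := Finset.le_max' _ _ (hmem hu)
    have h8 := Finset.min'_le _ _ (hmem hu)
    have : u.degree = a₁ := by omega
    rw [Finsupp.degree_eq_weight_one] at this
    exact this
  · intro u hu
    have h7 := Finset.le_max' _ _ (hmem hu)
    have h8 := Finset.min'_le _ _ (hmem hu)
    have : u.degree = b₁ := by omega
    rw [Finsupp.degree_eq_weight_one] at this
    exact this

/-- A non-unit divisor of a nonzero form is a form of positive degree. -/
theorem homog_of_dvd {f : MvPolynomial (Fin 3) K} {n : ℕ} (hf : f ∈ Hd K n) (hf0 : f ≠ 0)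
    (hp : p ∣ f) (hu : ¬ IsUnit p) : ∃ a, 1 ≤ a ∧ a ≤ n ∧ p ∈ Hd K a ∧ p ≠ 0 := by
  obtain ⟨q, rfl⟩ := hp
  have hp0 : p ≠ 0 := left_ne_zero_of_mul hf0
  have hq0 : q ≠ 0 := right_ne_zero_of_mul hf0
  obtain ⟨a, b, hab, h1, _⟩ := isHomogeneous_of_mul_left hf hp0 hq0
  refine ⟨a, ?_, by omega, h1, hp0⟩
  by_contra h0
  have ha : a = 0 := by omega
  subst ha
  exact hu (isUnit_of_totalDegree_zero hp0 (totalDegree_of_Hd h1 hp0))

end DvdHomog

/-- Three forms generating an ideal containing all forms of high degree do not lie in an ideal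
generated by two forms of positive degree. -/
theorem no_two {a b c x w : MvPolynomial (Fin 3) K} {e1 e2 e3 α β : ℕ} (h : RegSeq a b c)
    (ha : a ∈ Hd K e1) (hb : b ∈ Hd K e2) (hc : c ∈ Hd K e3) (he1 : 1 ≤ e1) (he2 : 1 ≤ e2)
    (he3 : 1 ≤ e3) (hx : x ∈ Hd K α) (hw : w ∈ Hd K β) (hx0 : x ≠ 0) (hw0 : w ≠ 0)
    (hα : 1 ≤ α) (hβ : 1 ≤ β)
    (ha' : a ∈ Ideal.span {x, w}) (hb' : b ∈ Ideal.span {x, w}) (hc' : c ∈ Ideal.span {x, w}) :
    False := by
  refine two_contra hx hw hx0 hw0 hα hβ (e1 + e2 + e3) fun N hN g hg => ?_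
  have hle : Ideal.span {a, b, c} ≤ Ideal.span {x, w} := by
    rw [Ideal.span_le]
    rintro y (rfl | rfl | rfl)
    · exact ha'
    · exact hb'
    · exact hc'
  refine hle ?_
  have h1 := (finrank_all h ha hb hc he1 he2 N).2.2
  have h2 : O3 e1 e2 e3 N = ∅ := by
    rw [Finset.eq_empty_iff_forall_notMem]
    intro t ht
    rw [mem_O3] at ht
    omega
  rw [h2, Finset.card_empty, add_zero, ← finrank_Hd (K := K) N] at h1
  have h3 : degPart (Ideal.span {a, b, c}) N = Hd K N :=
    Submodule.eq_of_le_of_finrank_le inf_le_right h1.ge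
  rw [← h3] at hg
  exact (mem_degPart.mp hg).1

end Vale.Agent.Lib.P200.Fam
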